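import Crest.Agent.Lib.NM.PotE

/-! Abstract measure-theoretic part: general lemmas on couplings and maps. -/

set_option autoImplicit false
set_option linter.unusedSectionVars false
open scoped ENNReal
open Set MeasureTheory
open Crest.AnalysisR.OT

namespace Crest.Agent.Lib.NM

section general

variable {X : Type*} [MeasurableSpace X]

lemma half_le_imp_zero {a : ℝ≥0∞} (hfin : a ≠ ⊤) (h : a ≤ 2⁻¹ * a) : a = 0 := by
  by_contra hne
  have := ENNReal.half_lt_self hne hfin
  rw [ENNReal.div_eq_inv_mul] at this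
  exact absurd h (not_le.mpr this)

/-- a "half" sheet cannot carry a map -/
theorem monge_impossible {ι' : Type*} [Fintype ι'] [DecidableEq ι'] [MeasurableEq X]
    {m μ : Measure X} [IsFiniteMeasure m]
    {A : Set X} (hAm : MeasurableSet A) (hmA : m Aᶜ = 0)
    (Y Yi : ι' → X → X) (hY : ∀ i, Measurable (Y i)) (hYi : ∀ i, Measurable (Yi i))
    (hinv : ∀ i, ∀ x ∈ A, Yi i (Y i x) = x) (hPm : ∀ i, MeasurableSet (Y i '' A))
    (hdisj : ∀ i k, i ≠ k → ∀ x ∈ A, ∀ x' ∈ A, Y i x ≠ Y k x')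
    (hAout : ∀ i, ∀ x ∈ A, ∀ x' ∈ A, x ≠ Y i x')
    (hμ : ∀ f : X → ℝ≥0∞, Measurable f →
      ∫⁻ w, f w ∂μ = ∫⁻ x, f x ∂m + 2⁻¹ * ∑ i, ∫⁻ x, f (Y i x) ∂m)
    {T : X → X} (hT : Measurable T) (hTμ : μ.map T = μ)
    (hae : ∀ᵐ x ∂m, ∃ i, T x = Y i x) : m univ = 0 := by
  have hAae : ∀ᵐ x ∂m, x ∈ A := by
    rw [ae_iff]
    exact hmA
  -- the sets where the map picks a given sheet
  let W : ι' → Set X := fun i => {x | x ∈ A ∧ T x = Y i x}
  have hWm : ∀ i, MeasurableSet (W i) := fun i =>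
    hAm.inter (measurableSet_eq_fun hT (hY i))
  let B : ι' → Set X := fun i => Y i '' W i
  have hBeq : ∀ i, B i = (Y i '' A) ∩ (Yi i) ⁻¹' (W i) := by
    intro i
    ext w
    constructor
    · rintro ⟨x, hx, rfl⟩
      refine ⟨⟨x, hx.1, rfl⟩, ?_⟩
      show Yi i (Y i x) ∈ W i
      rw [hinv i x hx.1]
      exact hx
    · rintro ⟨⟨x, hx, rfl⟩, h2⟩
      have h3 : Yi i (Y i x) ∈ W i := h2
      rw [hinv i x hx] at h3
      exact ⟨x, h3, rfl⟩
  have hBm : ∀ i, MeasurableSet (B i) := by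
    intro i
    rw [hBeq]
    exact (hPm i).inter (hYi i (hWm i))
  -- mass of `B i`
  have hBmass : ∀ i, μ (B i) = 2⁻¹ * m (W i) := by
    intro i
    have h1 := hμ ((B i).indicator 1) (measurable_one.indicator (hBm i))
    rw [lintegral_indicator_one (hBm i)] at h1
    rw [h1]
    have h2 : ∫⁻ x, (B i).indicator (1 : X → ℝ≥0∞) x ∂m = 0 := by
      rw [lintegral_eq_zero_iff (measurable_one.indicator (hBm i))]
      filter_upwards [hAae] with x hx
      apply indicator_of_notMem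
      rintro ⟨x', hx', e⟩
      exact hAout i x hx x' hx'.1 e.symm
    have h3 : ∀ k, k ≠ i → ∫⁻ x, (B i).indicator (1 : X → ℝ≥0∞) (Y k x) ∂m = 0 := by
      intro k hk
      rw [show (fun x => (B i).indicator (1 : X → ℝ≥0∞) (Y k x)) = ((B i).indicator 1) ∘ (Y k) from rfl,
        lintegral_eq_zero_iff ((measurable_one.indicator (hBm i)).comp (hY k))]
      filter_upwards [hAae] with x hx
      apply indicator_of_notMem
      rintro ⟨x', hx', e⟩
      exact hdisj i k hk.symm x' hx'.1 x hx e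
    have h4 : ∫⁻ x, (B i).indicator (1 : X → ℝ≥0∞) (Y i x) ∂m = m (W i) := by
      rw [← lintegral_indicator_one (hWm i)]
      apply lintegral_congr_ae
      filter_upwards [hAae] with x hx
      by_cases hxW : x ∈ W i
      · rw [indicator_of_mem hxW, indicator_of_mem (show Y i x ∈ B i from ⟨x, hxW, rfl⟩)]
        rfl
      · rw [indicator_of_notMem hxW, indicator_of_notMem]
        intro hc
        apply hxW
        rw [hBeq] at hc
        have h5 : Yi i (Y i x) ∈ W i := hc.2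
        rwa [hinv i x hx] at h5
    rw [h2, zero_add, Finset.sum_eq_single i (fun k _ hk => h3 k hk) (by simp), h4]
  -- `m (W i) ≤ μ (W i)`
  have hWle : ∀ i, m (W i) ≤ μ (W i) := by
    intro i
    have h1 := hμ ((W i).indicator 1) (measurable_one.indicator (hWm i))
    rw [lintegral_indicator_one (hWm i), lintegral_indicator_one (hWm i)] at h1
    rw [h1]
    exact le_self_add
  have hW0 : ∀ i, m (W i) = 0 := by
    intro i
    apply half_le_imp_zero (measure_ne_top m _)
    calc m (W i) ≤ μ (W i) := hWle i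
      _ ≤ μ (T ⁻¹' (B i)) := by
          apply measure_mono
          intro x hx
          exact ⟨x, hx, hx.2.symm⟩
      _ = (μ.map T) (B i) := (Measure.map_apply hT (hBm i)).symm
      _ = μ (B i) := by rw [hTμ]
      _ = 2⁻¹ * m (W i) := hBmass i
  have hnot : ∀ᵐ x ∂m, ∀ i, x ∉ W i := by
    rw [ae_all_iff]
    intro i
    rw [ae_iff]
    simpa using hW0 i
  have hfalse : ∀ᵐ x ∂m, False := by
    filter_upwards [hae, hAae, hnot] with x h1 h2 h3
    obtain ⟨i, hi⟩ := h1
    exact h3 i ⟨h2, hi⟩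
  simpa [ae_iff] using hfalse

/-- lower bound for all couplings -/
theorem coupling_lower_bound {μ : Measure X} {π : Measure (X × X × X)}
    (hπ : IsCoupling₃ μ π) {S : Set X} (hSm : MeasurableSet S) (hS : μ Sᶜ = 0)
    {U : X → ℝ≥0∞} (hU : Measurable U) {c : X × X × X → ℝ≥0∞}
    (hc : ∀ a ∈ S, ∀ b ∈ S, ∀ d ∈ S, U a + U b + U d ≤ c (a, b, d)) :
    3 * ∫⁻ w, U w ∂μ ≤ ∫⁻ q, c q ∂π := by
  obtain ⟨h1, h2, h3⟩ := hπ
  have m1 : Measurable (fun q : X × X × X => q.1) := measurable_fst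
  have m2 : Measurable (fun q : X × X × X => q.2.1) := measurable_fst.comp measurable_snd
  have m3 : Measurable (fun q : X × X × X => q.2.2) := measurable_snd.comp measurable_snd
  have a1 : ∀ᵐ q ∂π, q.1 ∈ S := by
    rw [ae_iff]
    have : π {q | q.1 ∉ S} = (π.map (fun q => q.1)) Sᶜ := by
      rw [Measure.map_apply m1 hSm.compl]; rfl
    rw [this, h1, hS]
  have a2 : ∀ᵐ q ∂π, q.2.1 ∈ S := by
    rw [ae_iff]
    have : π {q | q.2.1 ∉ S} = (π.map (fun q => q.2.1)) Sᶜ := by
      rw [Measure.map_apply m2 hSm.compl]; rfl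
    rw [this, h2, hS]
  have a3 : ∀ᵐ q ∂π, q.2.2 ∈ S := by
    rw [ae_iff]
    have : π {q | q.2.2 ∉ S} = (π.map (fun q => q.2.2)) Sᶜ := by
      rw [Measure.map_apply m3 hSm.compl]; rfl
    rw [this, h3, hS]
  have i1 : ∫⁻ q, U q.1 ∂π = ∫⁻ w, U w ∂μ := by
    conv_rhs => rw [← h1]
    rw [lintegral_map hU m1]
  have i2 : ∫⁻ q, U q.2.1 ∂π = ∫⁻ w, U w ∂μ := by
    conv_rhs => rw [← h2]
    rw [lintegral_map hU m2]
  have i3 : ∫⁻ q, U q.2.2 ∂π = ∫⁻ w, U w ∂μ := by
    conv_rhs => rw [← h3]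
    rw [lintegral_map hU m3]
  have hsum : ∫⁻ q, (U q.1 + U q.2.1 + U q.2.2) ∂π = 3 * ∫⁻ w, U w ∂μ := by
    have m12 : Measurable (fun q : X × X × X => U q.1 + U q.2.1) := (hU.comp m1).add (hU.comp m2)
    have m11 : Measurable (fun q : X × X × X => U q.1) := hU.comp m1
    rw [lintegral_add_left m12, lintegral_add_left m11, i1, i2, i3]
    ring
  rw [← hsum]
  apply lintegral_mono_ae
  filter_upwards [a1, a2, a3] with q h1 h2 h3
  exact hc _ h1 _ h2 _ h3

/-- the plan of a pair of maps -/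
lemma isCoupling_of_maps {μ : Measure X} {T₂ T₃ : X → X} (h2 : Measurable T₂) (h3 : Measurable T₃)
    (hT2 : μ.map T₂ = μ) (hT3 : μ.map T₃ = μ) :
    IsCoupling₃ μ (μ.map (fun x => (x, T₂ x, T₃ x))) := by
  have hF : Measurable (fun x => (x, T₂ x, T₃ x)) := measurable_id.prodMk (h2.prodMk h3)
  refine ⟨?_, ?_, ?_⟩
  · rw [Measure.map_map measurable_fst hF]
    exact Measure.map_id
  · have m2 : Measurable (fun q : X × X × X => q.2.1) := measurable_fst.comp measurable_snd
    rw [Measure.map_map m2 hF]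
    exact hT2
  · have m3 : Measurable (fun q : X × X × X => q.2.2) := measurable_snd.comp measurable_snd
    rw [Measure.map_map m3 hF]
    exact hT3

/-- piecewise definition of a map from finitely many measurable charts -/
theorem exists_piecewise_map {J : Type*} [Fintype J] [DecidableEq J] [Nonempty J]
    {A : Set X} (ι' : J → X → X) (dec : J → X → X) (Ran : J → Set X)
    (hι : ∀ a, Measurable (ι' a)) (hdec : ∀ a, Measurable (dec a))
    (hRan : ∀ a, MeasurableSet (Ran a))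
    (hdisj : ∀ a b w, w ∈ Ran a → w ∈ Ran b → a = b)
    (hmem : ∀ a, ∀ x ∈ A, ι' a x ∈ Ran a)
    (hleft : ∀ a, ∀ x ∈ A, dec a (ι' a x) = x)
    (τ : J → J) :
    ∃ T : X → X, Measurable T ∧ ∀ a, ∀ x ∈ A, T (ι' a x) = ι' (τ a) x := by
  classical
  let T : X → X := fun w =>
    if h : ∃ a, w ∈ Ran a then ι' (τ h.choose) (dec h.choose w) else w
  have hTa : ∀ a, ∀ w ∈ Ran a, T w = ι' (τ a) (dec a w) := by
    intro a w hw
    have h : ∃ a, w ∈ Ran a := ⟨a, hw⟩
    have e : h.choose = a := hdisj _ _ _ h.choose_spec hw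
    simp only [T, dif_pos h, e]
  have hTn : ∀ w, (∀ a, w ∉ Ran a) → T w = w := by
    intro w hw
    have h : ¬ ∃ a, w ∈ Ran a := by
      push Not
      exact hw
    simp only [T, dif_neg h]
  refine ⟨T, ?_, ?_⟩
  · intro B hB
    have e : T ⁻¹' B = (⋃ a, (Ran a ∩ ((ι' (τ a)) ∘ dec a) ⁻¹' B)) ∪ ((⋃ a, Ran a)ᶜ ∩ B) := by
      ext w
      simp only [mem_preimage, mem_union, mem_iUnion, mem_inter_iff, mem_compl_iff, not_exists,
        Function.comp]
      constructor
      · intro hw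
        by_cases h : ∃ a, w ∈ Ran a
        · obtain ⟨a, ha⟩ := h
          left
          refine ⟨a, ha, ?_⟩
          rwa [hTa a w ha] at hw
        · push Not at h
          right
          refine ⟨h, ?_⟩
          rwa [hTn w h] at hw
      · rintro (⟨a, ha, h⟩ | ⟨h1, h2⟩)
        · rwa [hTa a w ha]
        · rwa [hTn w h1]
    rw [e]
    refine (MeasurableSet.iUnion fun a => (hRan a).inter ?_).union
      ((MeasurableSet.iUnion hRan).compl.inter hB)
    exact ((hι _).comp (hdec a)) hB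
  · intro a x hx
    rw [hTa a _ (hmem a x hx), hleft a x hx]

end general

end Crest.Agent.Lib.NM
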