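import Crest.Agent.Lib.NM.Push

/-! Assembling the density from the central bump and its four push-forwards. -/

set_option autoImplicit false
set_option linter.unusedSectionVars false
open MeasureTheory Set Topology
open scoped ENNReal ContDiff

namespace Crest.Agent.Lib.NM

section

variable {E : Type*} [NormedAddCommGroup E] [NormedSpace ℝ E] [FiniteDimensional ℝ E]
  [MeasureSpace E] [BorelSpace E] [(volume : Measure E).IsAddHaarMeasure]

/-- total square root of the density -/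
noncomputable def totalPsi (e : Fin 4 → OpenPartialHomeomorph E E) (ψ : E → ℝ) (y : E) : ℝ :=
  ψ y + ∑ i, pushPsi (e i) ψ y

variable {e : Fin 4 → OpenPartialHomeomorph E E} {ψ : E → ℝ}

lemma totalPsi_nonneg (hψ : ∀ x, 0 ≤ ψ x) (y : E) : 0 ≤ totalPsi e ψ y :=
  add_nonneg (hψ y) (Finset.sum_nonneg fun _ _ => pushPsi_nonneg hψ y)

lemma totalPsi_contDiff (he : ∀ i, ContDiffOn ℝ ∞ (e i) (e i).source)
    (hes : ∀ i, ContDiffOn ℝ ∞ (e i).symm (e i).target)
    (hψ : ContDiff ℝ ∞ ψ) (hKc : HasCompactSupport ψ) (hKs : ∀ i, tsupport ψ ⊆ (e i).source) :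
    ContDiff ℝ ∞ (totalPsi e ψ) := by
  unfold totalPsi
  exact hψ.add (ContDiff.sum fun i _ => pushPsi_contDiff (he i) (hes i) hψ hKc (hKs i))

lemma totalPsi_hasCompactSupport (hKc : HasCompactSupport ψ)
    (hKs : ∀ i, tsupport ψ ⊆ (e i).source) :
    HasCompactSupport (totalPsi e ψ) := by
  unfold totalPsi
  refine hKc.add ?_
  have : (fun y => ∑ i, pushPsi (e i) ψ y) = ∑ i, pushPsi (e i) ψ := by
    funext y
    simp
  rw [this]
  induction (Finset.univ : Finset (Fin 4)) using Finset.induction_on with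
  | empty =>
    simpa using HasCompactSupport.zero
  | insert a s ha ih =>
    rw [Finset.sum_insert ha]
    exact (pushPsi_hasCompactSupport hKc (hKs a)).add ih

lemma ofReal_totalPsi_sq (hd1 : ∀ i, Disjoint (tsupport ψ) (e i '' tsupport ψ))
    (hd2 : ∀ i k, i ≠ k → Disjoint (e i '' tsupport ψ) (e k '' tsupport ψ)) (y : E) :
    ENNReal.ofReal ((totalPsi e ψ y) ^ 2)
      = ENNReal.ofReal ((ψ y) ^ 2) + ∑ i, ENNReal.ofReal ((pushPsi (e i) ψ y) ^ 2) := by
  unfold totalPsi
  by_cases hy : y ∈ tsupport ψ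
  · have h0 : ∀ i, pushPsi (e i) ψ y = 0 := fun i =>
      pushPsi_eq_zero_of_notMem_image subset_rfl
        (fun hc => (Set.disjoint_left.mp (hd1 i)) hy hc)
    simp [h0]
  · have hψ0 : ψ y = 0 := image_eq_zero_of_notMem_tsupport hy
    by_cases hex : ∃ i, y ∈ e i '' tsupport ψ
    · obtain ⟨i, hi⟩ := hex
      have h0 : ∀ k, k ≠ i → pushPsi (e k) ψ y = 0 := fun k hk =>
        pushPsi_eq_zero_of_notMem_image subset_rfl
          (fun hc => (Set.disjoint_left.mp (hd2 i k hk.symm)) hi hc)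
      have e1 : ∑ k, pushPsi (e k) ψ y = pushPsi (e i) ψ y :=
        Finset.sum_eq_single i (fun k _ hk => h0 k hk) (by simp)
      have e2 : ∑ k, ENNReal.ofReal ((pushPsi (e k) ψ y) ^ 2)
          = ENNReal.ofReal ((pushPsi (e i) ψ y) ^ 2) :=
        Finset.sum_eq_single i (fun k _ hk => by simp [h0 k hk]) (by simp)
      rw [e1, e2, hψ0]
      simp
    · push Not at hex
      have h0 : ∀ k, pushPsi (e k) ψ y = 0 := fun k =>
        pushPsi_eq_zero_of_notMem_image subset_rfl (hex k)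
      simp [h0, hψ0]

/-- the integral formula -/
theorem total_lintegral (he : ∀ i, ContDiffOn ℝ ∞ (e i) (e i).source)
    (hes : ∀ i, ContDiffOn ℝ ∞ (e i).symm (e i).target)
    (hψ : ContDiff ℝ ∞ ψ) (hKc : HasCompactSupport ψ) (hKs : ∀ i, tsupport ψ ⊆ (e i).source)
    (hd1 : ∀ i, Disjoint (tsupport ψ) (e i '' tsupport ψ))
    (hd2 : ∀ i k, i ≠ k → Disjoint (e i '' tsupport ψ) (e k '' tsupport ψ))
    {f : E → ℝ≥0∞} (hf : Measurable f) :
    ∫⁻ y, f y * ENNReal.ofReal ((totalPsi e ψ y) ^ 2)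
      = (∫⁻ x, f x * ENNReal.ofReal ((ψ x) ^ 2))
        + 2⁻¹ * ∑ i, ∫⁻ x, f (e i x) * ENNReal.ofReal ((ψ x) ^ 2) := by
  have hm0 : Measurable (fun x => f x * ENNReal.ofReal ((ψ x) ^ 2)) :=
    hf.mul (ENNReal.measurable_ofReal.comp (hψ.continuous.measurable.pow_const 2))
  have hmi : ∀ i, Measurable (fun y => f y * ENNReal.ofReal ((pushPsi (e i) ψ y) ^ 2)) := fun i =>
    hf.mul (ENNReal.measurable_ofReal.comp
      ((pushPsi_contDiff (he i) (hes i) hψ hKc (hKs i)).continuous.measurable.pow_const 2))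
  have hpt : ∀ y, f y * ENNReal.ofReal ((totalPsi e ψ y) ^ 2)
      = f y * ENNReal.ofReal ((ψ y) ^ 2)
        + ∑ i, f y * ENNReal.ofReal ((pushPsi (e i) ψ y) ^ 2) := by
    intro y
    rw [ofReal_totalPsi_sq hd1 hd2, mul_add, Finset.mul_sum]
  simp_rw [hpt]
  rw [lintegral_add_left hm0, lintegral_finsetSum _ (fun i _ => hmi i), Finset.mul_sum]
  congr 1
  apply Finset.sum_congr rfl
  intro i _
  exact pushPsi_lintegral (hes i) (fun x hx => hKs i (subset_tsupport _ hx)) f

end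

end Crest.Agent.Lib.NM
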