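import Mathlib

/-! Lifting a one dimensional splitting identity to a product weight on Euclidean space. -/

set_option autoImplicit false
open MeasureTheory Set
open scoped ENNReal

namespace Crest.Agent.Lib.NM

/-- coordinates splitting off the first coordinate -/
noncomputable def theta (N : ℕ) (q : ℝ × (Fin N → ℝ)) : EuclideanSpace ℝ (Fin (N + 1)) :=
  WithLp.toLp 2 (Fin.cons q.1 q.2 : Fin (N + 1) → ℝ)

lemma theta_mp (N : ℕ) : MeasurePreserving (theta N) volume volume := by
  have h1 := (volume_preserving_piFinSuccAbove (fun _ : Fin (N + 1) => ℝ) 0).symm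
  have h2 := PiLp.volume_preserving_toLp (Fin (N + 1))
  have h3 := h2.comp h1
  have e : theta N = (WithLp.toLp 2) ∘
      ⇑(MeasurableEquiv.piFinSuccAbove (fun _ : Fin (N + 1) => ℝ) 0).symm := by
    funext q
    simp only [theta, Function.comp]
    congr 1
    exact (Fin.insertNth_zero' q.1 q.2).symm
  rw [e]
  exact h3

@[simp] lemma theta_zero (N : ℕ) (q : ℝ × (Fin N → ℝ)) : theta N q 0 = q.1 := by
  simp [theta]

@[simp] lemma theta_succ (N : ℕ) (q : ℝ × (Fin N → ℝ)) (j : Fin N) : theta N q j.succ = q.2 j := by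
  simp [theta]

/-- change the first coordinate -/
noncomputable def shiftMap {N : ℕ} (φ : ℝ → ℝ) (x : EuclideanSpace ℝ (Fin (N + 1))) :
    EuclideanSpace ℝ (Fin (N + 1)) :=
  x + EuclideanSpace.single 0 (φ (x 0) - x 0)

lemma shiftMap_zero {N : ℕ} (φ : ℝ → ℝ) (x : EuclideanSpace ℝ (Fin (N + 1))) :
    shiftMap φ x 0 = φ (x 0) := by
  simp [shiftMap]

lemma shiftMap_succ {N : ℕ} (φ : ℝ → ℝ) (x : EuclideanSpace ℝ (Fin (N + 1))) (j : Fin N) :
    shiftMap φ x j.succ = x j.succ := by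
  simp [shiftMap]

lemma shiftMap_norm {N : ℕ} (φ : ℝ → ℝ) (x : EuclideanSpace ℝ (Fin (N + 1))) :
    ‖shiftMap φ x - x‖ = |φ (x 0) - x 0| := by
  simp [shiftMap]

lemma shiftMap_measurable {N : ℕ} {φ : ℝ → ℝ} (hφ : Measurable φ) :
    Measurable (shiftMap (N := N) φ) := by
  unfold shiftMap
  have h1 : Measurable (fun x : EuclideanSpace ℝ (Fin (N + 1)) => x 0) := by fun_prop
  have h2 : Measurable (fun a : ℝ => (EuclideanSpace.single 0 a : EuclideanSpace ℝ (Fin (N + 1)))) := by
    have e : (fun a : ℝ => (EuclideanSpace.single 0 a : EuclideanSpace ℝ (Fin (N + 1))))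
        = fun a : ℝ => a • (EuclideanSpace.single 0 (1 : ℝ) : EuclideanSpace ℝ (Fin (N + 1))) := by
      funext a
      ext i
      by_cases hi : i = 0
      · simp [hi]
      · simp [hi]
    rw [e]
    exact (continuous_id.smul continuous_const).measurable
  exact measurable_id.add (h2.comp ((hφ.comp h1).sub h1))

lemma shiftMap_theta {N : ℕ} (φ : ℝ → ℝ) (t : ℝ) (v : Fin N → ℝ) :
    shiftMap φ (theta N (t, v)) = theta N (φ t, v) := by
  ext i
  refine Fin.cases ?_ (fun j => ?_) i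
  · rw [shiftMap_zero]
    simp
  · rw [shiftMap_succ]
    simp

/-- product weight -/
noncomputable def prodW {N : ℕ} (c : ℝ) (g : ℝ → ℝ) (x : EuclideanSpace ℝ (Fin (N + 1))) : ℝ :=
  c * ∏ i, g (x i)

lemma prodW_measurable {N : ℕ} (c : ℝ) {g : ℝ → ℝ} (hg : Measurable g) :
    Measurable (prodW (N := N) c g) := by
  unfold prodW
  refine Measurable.const_mul ?_ c
  refine Finset.measurable_prod _ fun i _ => hg.comp ?_
  fun_prop

lemma prodW_theta {N : ℕ} (c : ℝ) (g : ℝ → ℝ) (t : ℝ) (v : Fin N → ℝ) :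
    prodW c g (theta N (t, v)) = g t * (c * ∏ j, g (v j)) := by
  unfold prodW
  rw [Fin.prod_univ_succ]
  simp only [theta_zero, theta_succ]
  ring

/-- **Lift of the splitting identity to the product weight.** -/
theorem split_lift {N : ℕ} {g : ℝ → ℝ} (hg0 : ∀ t, 0 ≤ g t) (hgm : Measurable g) (c : ℝ)
    {φ : Fin 2 → ℝ → ℝ} (hφ : ∀ j, Measurable (φ j))
    (hid : ∀ f : ℝ → ℝ≥0∞, ∫⁻ t, ENNReal.ofReal (g t) * f t
        = 2⁻¹ * ((∫⁻ t, ENNReal.ofReal (g t) * f (φ 0 t))
          + (∫⁻ t, ENNReal.ofReal (g t) * f (φ 1 t))))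
    {f : EuclideanSpace ℝ (Fin (N + 1)) → ℝ≥0∞} (hf : Measurable f) :
    ∫⁻ x, f x * ENNReal.ofReal (prodW c g x)
      = 2⁻¹ * ((∫⁻ x, f (shiftMap (φ 0) x) * ENNReal.ofReal (prodW c g x))
        + (∫⁻ x, f (shiftMap (φ 1) x) * ENNReal.ofReal (prodW c g x))) := by
  have hθ := (theta_mp N).measurable
  -- the slice functional
  let In : (EuclideanSpace ℝ (Fin (N + 1)) → ℝ≥0∞) → (Fin N → ℝ) → ℝ≥0∞ := fun h v =>
    ∫⁻ t, h (theta N (t, v)) * ENNReal.ofReal (prodW c g (theta N (t, v)))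
  have hW := prodW_measurable (N := N) c hgm
  have hjoint : ∀ h : EuclideanSpace ℝ (Fin (N + 1)) → ℝ≥0∞, Measurable h →
      Measurable (fun q : ℝ × (Fin N → ℝ) =>
        h (theta N q) * ENNReal.ofReal (prodW c g (theta N q))) := by
    intro h hh
    exact (hh.comp hθ).mul (ENNReal.measurable_ofReal.comp (hW.comp hθ))
  have hSlice : ∀ h : EuclideanSpace ℝ (Fin (N + 1)) → ℝ≥0∞, Measurable h →
      ∫⁻ x, h x * ENNReal.ofReal (prodW c g x) = ∫⁻ v, In h v := by
    intro h hh
    have hm : Measurable (fun x => h x * ENNReal.ofReal (prodW c g x)) :=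
      hh.mul (ENNReal.measurable_ofReal.comp hW)
    rw [← (theta_mp N).lintegral_comp hm]
    have := lintegral_prod_symm' (μ := (volume : Measure ℝ)) (ν := (volume : Measure (Fin N → ℝ)))
      _ (hjoint h hh)
    exact this
  have hInm : ∀ h : EuclideanSpace ℝ (Fin (N + 1)) → ℝ≥0∞, Measurable h →
      Measurable (In h) := by
    intro h hh
    exact (hjoint h hh).lintegral_prod_left'
  have hpt : ∀ v, In f v = 2⁻¹ * (In (fun x => f (shiftMap (φ 0) x)) v
      + In (fun x => f (shiftMap (φ 1) x)) v) := by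
    intro v
    set C : ℝ≥0∞ := ENNReal.ofReal (c * ∏ j, g (v j)) with hC
    have e : ∀ h : ℝ → ℝ≥0∞, ∀ t, h t * ENNReal.ofReal (prodW c g (theta N (t, v)))
        = ENNReal.ofReal (g t) * (h t * C) := by
      intro h t
      rw [prodW_theta, ENNReal.ofReal_mul (hg0 t), hC]
      ring
    have h0 : In f v = ∫⁻ t, ENNReal.ofReal (g t) * (f (theta N (t, v)) * C) :=
      lintegral_congr (e (fun t => f (theta N (t, v))))
    have h1 : ∀ j, In (fun x => f (shiftMap (φ j) x)) v
        = ∫⁻ t, ENNReal.ofReal (g t) * (f (theta N (φ j t, v)) * C) := by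
      intro j
      apply lintegral_congr
      intro t
      simp only
      rw [shiftMap_theta, e (fun t => f (theta N (φ j t, v)))]
    rw [h0, h1 0, h1 1]
    exact hid (fun t => f (theta N (t, v)) * C)
  rw [hSlice f hf, hSlice (fun x => f (shiftMap (φ 0) x)) (hf.comp (shiftMap_measurable (hφ 0))),
    hSlice (fun x => f (shiftMap (φ 1) x)) (hf.comp (shiftMap_measurable (hφ 1))),
    lintegral_congr hpt,
    lintegral_const_mul' _ _ (by simp),
    lintegral_add_left (hInm (fun x => f (shiftMap (φ 0) x)) (hf.comp (shiftMap_measurable (hφ 0))))]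

end Crest.Agent.Lib.NM
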