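import Crest.Agent.Lib.NM.Cells

/-! Splitting a one dimensional measure `g dt` into two "half copies" with nearby maps. -/

set_option autoImplicit false
open MeasureTheory Set
open scoped ENNReal

namespace Crest.Agent.Lib.NM

section

variable {g : ℝ → ℝ} {ε : ℝ}

/-- primitive of the density -/
noncomputable def cdf (g : ℝ → ℝ) (ε t : ℝ) : ℝ := ∫ τ in (-ε)..t, g τ

lemma cdf_hasDerivAt (hg : Continuous g) (t : ℝ) : HasDerivAt (cdf g ε) (g t) t :=
  (hg.integral_hasStrictDerivAt (-ε) t).hasDerivAt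

lemma cdf_continuous (hg : Continuous g) : Continuous (cdf g ε) :=
  continuous_iff_continuousAt.mpr fun t => (cdf_hasDerivAt hg t).continuousAt

lemma cdf_sub (hg : Continuous g) (a b : ℝ) : cdf g ε b - cdf g ε a = ∫ τ in a..b, g τ :=
  intervalIntegral.integral_interval_sub_left (hg.intervalIntegrable _ _) (hg.intervalIntegrable _ _)

lemma cdf_strictMonoOn (hg : Continuous g) (hpos : ∀ t ∈ Ioo (-ε) ε, 0 < g t) :
    StrictMonoOn (cdf g ε) (Icc (-ε) ε) := by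
  intro a ha b hb hab
  have h := cdf_sub (ε := ε) hg a b
  have h2 : 0 < ∫ τ in a..b, g τ :=
    intervalIntegral.intervalIntegral_pos_of_pos_on (hg.intervalIntegrable _ _)
      (fun x hx => hpos x ⟨lt_of_le_of_lt ha.1 hx.1, lt_of_lt_of_le hx.2 hb.2⟩) hab
  linarith

lemma cdf_left : cdf g ε (-ε) = 0 := by
  unfold cdf
  simp

/-- quantile function -/
noncomputable def qf (g : ℝ → ℝ) (ε u : ℝ) : ℝ :=
  sSup (insert (-ε) {t | t ∈ Icc (-ε) ε ∧ cdf g ε t ≤ u})

lemma qf_bdd (hε : 0 < ε) (u : ℝ) : BddAbove (insert (-ε) {t | t ∈ Icc (-ε) ε ∧ cdf g ε t ≤ u}) := by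
  refine ⟨ε, ?_⟩
  rintro t (rfl | ⟨ht, _⟩)
  · linarith
  · exact ht.2

lemma qf_monotone (hε : 0 < ε) : Monotone (qf g ε) := by
  intro u v huv
  apply csSup_le_csSup (qf_bdd hε v) (insert_nonempty _ _)
  apply insert_subset_insert
  rintro t ⟨h1, h2⟩
  exact ⟨h1, h2.trans huv⟩

lemma qf_measurable (hε : 0 < ε) : Measurable (qf g ε) := (qf_monotone hε).measurable

lemma qf_cdf (hε : 0 < ε) (hg : Continuous g) (hpos : ∀ t ∈ Ioo (-ε) ε, 0 < g t) {t : ℝ}
    (ht : t ∈ Icc (-ε) ε) : qf g ε (cdf g ε t) = t := by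
  apply le_antisymm
  · apply csSup_le (insert_nonempty _ _)
    rintro t' (rfl | ⟨h1, h2⟩)
    · exact ht.1
    · by_contra hc
      push Not at hc
      have := cdf_strictMonoOn hg hpos ht h1 hc
      linarith
  · exact le_csSup (qf_bdd hε _) (mem_insert_of_mem _ ⟨ht, le_refl _⟩)

lemma cdf_image (hε : 0 < ε) (hg : Continuous g) (hpos : ∀ t ∈ Ioo (-ε) ε, 0 < g t) :
    cdf g ε '' Ioo (-ε) ε = Ioo 0 (cdf g ε ε) := by
  have hmono := cdf_strictMonoOn hg hpos
  have hl : (-ε) ∈ Icc (-ε) ε := ⟨le_refl _, by linarith⟩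
  have hr : ε ∈ Icc (-ε) ε := ⟨by linarith, le_refl _⟩
  apply Subset.antisymm
  · rintro _ ⟨t, ht, rfl⟩
    have h1 := hmono hl (Ioo_subset_Icc_self ht) ht.1
    have h2 := hmono (Ioo_subset_Icc_self ht) hr ht.2
    rw [cdf_left] at h1
    exact ⟨h1, h2⟩
  · have := intermediate_value_Ioo (a := -ε) (b := ε) (f := cdf g ε) (by linarith)
      (cdf_continuous hg).continuousOn
    rwa [cdf_left] at this

lemma cdf_subst (hε : 0 < ε) (hg : Continuous g) (hpos : ∀ t ∈ Ioo (-ε) ε, 0 < g t)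
    (F : ℝ → ℝ≥0∞) :
    ∫⁻ u in Ioo 0 (cdf g ε ε), F u
      = ∫⁻ t in Ioo (-ε) ε, ENNReal.ofReal (g t) * F (cdf g ε t) := by
  rw [← cdf_image hε hg hpos,
    lintegral_image_eq_lintegral_abs_deriv_mul (f' := g) measurableSet_Ioo
      (fun t _ => (cdf_hasDerivAt hg t).hasDerivWithinAt)
      ((cdf_strictMonoOn hg hpos).injOn.mono Ioo_subset_Icc_self) F]
  apply setLIntegral_congr_fun measurableSet_Ioo
  intro t ht
  simp only
  rw [abs_of_pos (hpos t ht)]

/-- uniform modulus -/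
lemma cdf_modulus (_hε : 0 < ε) (hg : Continuous g) (hpos : ∀ t ∈ Ioo (-ε) ε, 0 < g t) {d : ℝ}
    (hd : 0 < d) : ∃ L₀ : ℝ, 0 < L₀ ∧ ∀ t ∈ Icc (-ε) ε, ∀ t' ∈ Icc (-ε) ε,
      |cdf g ε t' - cdf g ε t| ≤ L₀ → |t' - t| ≤ d := by
  have hmono := cdf_strictMonoOn hg hpos
  let K : Set (ℝ × ℝ) := (Icc (-ε) ε ×ˢ Icc (-ε) ε) ∩ {q | d ≤ q.2 - q.1}
  have hKc : IsCompact K :=
    (isCompact_Icc.prod isCompact_Icc).inter_right
      (isClosed_le continuous_const (continuous_snd.sub continuous_fst))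
  have hcont : Continuous (fun q : ℝ × ℝ => cdf g ε q.2 - cdf g ε q.1) :=
    ((cdf_continuous hg).comp continuous_snd).sub ((cdf_continuous hg).comp continuous_fst)
  by_cases hne : K.Nonempty
  · obtain ⟨q₀, hq₀, hmin⟩ := hKc.exists_isMinOn hne hcont.continuousOn
    have hq₀pos : 0 < cdf g ε q₀.2 - cdf g ε q₀.1 := by
      have h1 := hq₀.1.1
      have h2 := hq₀.1.2
      have h3 : d ≤ q₀.2 - q₀.1 := hq₀.2
      have := hmono h1 h2 (by linarith)
      linarith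
    refine ⟨(cdf g ε q₀.2 - cdf g ε q₀.1) / 2, by linarith, ?_⟩
    intro t ht t' ht' hle
    by_contra hc
    push Not at hc
    have habs := abs_le.mp hle
    rcases lt_abs.mp hc with h | h
    · have hmem : (t, t') ∈ K := ⟨⟨ht, ht'⟩, by show d ≤ t' - t; linarith⟩
      have := hmin hmem
      simp only [mem_ofPred_eq] at this
      linarith [habs.2]
    · have hmem : (t', t) ∈ K := ⟨⟨ht', ht⟩, by show d ≤ t - t'; linarith⟩
      have := hmin hmem
      simp only [mem_ofPred_eq] at this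
      linarith [habs.1]
  · refine ⟨1, one_pos, ?_⟩
    intro t ht t' ht' _
    by_contra hc
    push Not at hc
    apply hne
    rcases lt_abs.mp hc with h | h
    · exact ⟨(t, t'), ⟨ht, ht'⟩, by show d ≤ t' - t; linarith⟩
    · exact ⟨(t', t), ⟨ht', ht⟩, by show d ≤ t - t'; linarith⟩

/-- integrals against `g dt` live on the interval -/
lemma lint_restrict (hzero : ∀ t, t ∉ Ioo (-ε) ε → g t = 0) (F : ℝ → ℝ≥0∞) :
    ∫⁻ t, ENNReal.ofReal (g t) * F t = ∫⁻ t in Ioo (-ε) ε, ENNReal.ofReal (g t) * F t := by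
  rw [← lintegral_indicator measurableSet_Ioo]
  apply lintegral_congr
  intro t
  by_cases ht : t ∈ Ioo (-ε) ε
  · rw [indicator_of_mem ht]
  · rw [indicator_of_notMem ht, hzero t ht]
    simp

/-- **The one dimensional splitting lemma**. -/
theorem split_1D (hε : 0 < ε) (hg : Continuous g) (hpos : ∀ t ∈ Ioo (-ε) ε, 0 < g t)
    (hzero : ∀ t, t ∉ Ioo (-ε) ε → g t = 0) {d : ℝ} (hd : 0 < d) :
    ∃ (φ : Fin 2 → ℝ → ℝ) (D : ℝ → ℝ) (b : ℝ → ℤ),
      (∀ j, Measurable (φ j)) ∧ Measurable D ∧ Measurable b ∧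
      (∀ j, ∀ t ∈ Ioo (-ε) ε, φ j t ∈ Ioo (-ε) ε ∧ D (φ j t) = t ∧ b (φ j t) = ((j : ℕ) : ℤ) ∧
        |φ j t - t| ≤ d) ∧
      (∀ f : ℝ → ℝ≥0∞, ∫⁻ t, ENNReal.ofReal (g t) * f t
        = 2⁻¹ * ((∫⁻ t, ENNReal.ofReal (g t) * f (φ 0 t))
          + (∫⁻ t, ENNReal.ofReal (g t) * f (φ 1 t)))) := by
  have hmono := cdf_strictMonoOn hg hpos
  have hl : (-ε) ∈ Icc (-ε) ε := ⟨le_refl _, by linarith⟩
  have hr : ε ∈ Icc (-ε) ε := ⟨by linarith, le_refl _⟩
  set M := cdf g ε ε with hM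
  have hMpos : 0 < M := by
    have := hmono hl hr (by linarith)
    rwa [cdf_left] at this
  obtain ⟨L₀, hL₀, hmod⟩ := cdf_modulus hε hg hpos hd
  -- choose the number of cells
  obtain ⟨N, hN⟩ := exists_nat_gt (M / L₀)
  have hNpos : (0 : ℝ) < N := lt_trans (div_pos hMpos hL₀) hN
  set L := M / N with hL
  have hLpos : 0 < L := div_pos hMpos hNpos
  have hLle : L ≤ L₀ := by
    rw [hL, div_le_iff₀ hNpos]
    rw [div_lt_iff₀ hL₀] at hN
    linarith
  have hNL : (N : ℝ) * L = M := by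
    rw [hL]
    field_simp
  have hqm := qf_measurable (g := g) hε
  have hcm : Measurable (cdf g ε) := (cdf_continuous hg).measurable
  refine ⟨fun j t => qf g ε (eL L j (cdf g ε t)), fun w => qf g ε (dL L (cdf g ε w)),
    fun w => bL L (cdf g ε w), ?_, ?_, ?_, ?_, ?_⟩
  · intro j
    exact hqm.comp ((measurable_eL L j).comp hcm)
  · exact hqm.comp ((measurable_dL L).comp hcm)
  · exact (measurable_bL L).comp hcm
  · intro j t ht
    have hj : (j : ℕ) ≤ 1 := by have := j.2; omega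
    have hu : cdf g ε t ∈ Ioo 0 ((N : ℝ) * L) := by
      rw [hNL, hM, ← cdf_image hε hg hpos]
      exact ⟨t, ht, rfl⟩
    have he := eL_range hLpos hj hu
    rw [hNL, hM, ← cdf_image hε hg hpos] at he
    obtain ⟨t', ht', hte⟩ := he
    have h1 : qf g ε (eL L j (cdf g ε t)) = t' := by
      rw [← hte]
      exact qf_cdf hε hg hpos (Ioo_subset_Icc_self ht')
    simp only [h1]
    refine ⟨ht', ?_, ?_, ?_⟩
    · rw [hte, dL_eL hLpos hj]
      exact qf_cdf hε hg hpos (Ioo_subset_Icc_self ht)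
    · rw [hte, bL_eL hLpos hj]
    · apply hmod t (Ioo_subset_Icc_self ht) t' (Ioo_subset_Icc_self ht')
      rw [hte]
      exact (eL_dist hLpos hj _).trans hLle
  · intro f
    have key : ∀ F : ℝ → ℝ≥0∞, ∫⁻ t, ENNReal.ofReal (g t) * F (cdf g ε t)
        = ∫⁻ u in Ico 0 (N * L), F u := by
      intro F
      rw [lint_restrict hzero (fun t => F (cdf g ε t)), ← cdf_subst hε hg hpos, hNL]
      exact setLIntegral_congr Ioo_ae_eq_Ico
    have h0 : ∫⁻ t, ENNReal.ofReal (g t) * f t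
        = ∫⁻ t, ENNReal.ofReal (g t) * (fun u => f (qf g ε u)) (cdf g ε t) := by
      rw [lint_restrict hzero f, lint_restrict hzero (fun t => (fun u => f (qf g ε u)) (cdf g ε t))]
      apply setLIntegral_congr_fun measurableSet_Ioo
      intro t ht
      simp only
      rw [qf_cdf hε hg hpos (Ioo_subset_Icc_self ht)]
    have e1 : (∫⁻ t, ENNReal.ofReal (g t) * f (qf g ε (eL L 0 (cdf g ε t))))
        = ∫⁻ u in Ico 0 (N * L), f (qf g ε (eL L 0 u)) := key (fun u => f (qf g ε (eL L 0 u)))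
    have e2 : (∫⁻ t, ENNReal.ofReal (g t) * f (qf g ε (eL L 1 (cdf g ε t))))
        = ∫⁻ u in Ico 0 (N * L), f (qf g ε (eL L 1 u)) := key (fun u => f (qf g ε (eL L 1 u)))
    rw [h0, key (fun u => f (qf g ε u))]
    show _ = 2⁻¹ * ((∫⁻ t, ENNReal.ofReal (g t) * f (qf g ε (eL L 0 (cdf g ε t))))
      + (∫⁻ t, ENNReal.ofReal (g t) * f (qf g ε (eL L 1 (cdf g ε t)))))
    rw [e1, e2]
    exact split_cells hLpos N

end

end Crest.Agent.Lib.NM
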