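import Crest.Agent.Lib.NM.Main
import Crest.Agent.Lib.NM.Assemble
import Crest.Agent.Lib.NM.Split1D
import Crest.Agent.Lib.NM.Lift

/-! Concrete ingredients: constants, conjugation by the coordinate swap, the cube and the bump. -/

set_option autoImplicit false
set_option linter.unusedSectionVars false
open MeasureTheory Set Topology Filter
open scoped ENNReal ContDiff RealInnerProductSpace

namespace Crest.Agent.Lib.NM

/-- choice of the small parameter -/
lemma exists_delta {s : ℝ} (hs : 0 < s) (κ : ℝ) :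
    ∃ δ : ℝ, 0 < δ ∧ δ ≤ 1 / 8 ∧ 3 * alph s < (2 * δ) ^ (-s) ∧
      c0 s + gap s / 2 < 2 * (1 + 2 * δ) ^ (-s) + (Real.sqrt 2 + 2 * δ) ^ (-s) ∧
      tau s + gg s < (2 + 2 * δ) ^ (-s) ∧ κ * δ ^ 2 ≤ 2 := by
  have hsq : (1 : ℝ) ≤ Real.sqrt 2 := Real.le_sqrt_of_sq_le (by norm_num)
  have hα : 0 < 3 * alph s + 1 := by
    have := alph_ge hs
    linarith
  set c := (3 * alph s + 1) ^ (-(1 / s)) with hc
  have hcpos : 0 < c := by rw [hc]; positivity
  have hcs : c ^ (-s) = 3 * alph s + 1 := by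
    rw [hc, ← Real.rpow_mul hα.le]
    have : -(1 / s) * -s = 1 := by field_simp
    rw [this, Real.rpow_one]
  have e1 : ∀ᶠ δ in 𝓝 (0 : ℝ), δ < 1 / 8 := eventually_lt_nhds (by norm_num)
  have e2 : ∀ᶠ δ in 𝓝 (0 : ℝ), δ < c / 2 := eventually_lt_nhds (by positivity)
  have c3 : ContinuousAt (fun δ : ℝ => 2 * (1 + 2 * δ) ^ (-s) + (Real.sqrt 2 + 2 * δ) ^ (-s)) 0 := by
    apply ContinuousAt.add
    · apply ContinuousAt.const_mul
      apply ContinuousAt.rpow_const (by fun_prop)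
      left; norm_num
    · apply ContinuousAt.rpow_const (by fun_prop)
      left
      simp
  have e3 : ∀ᶠ δ in 𝓝 (0 : ℝ), c0 s + gap s / 2
      < 2 * (1 + 2 * δ) ^ (-s) + (Real.sqrt 2 + 2 * δ) ^ (-s) := by
    apply c3.eventually (lt_mem_nhds _)
    simp only [mul_zero, add_zero, Real.one_rpow, mul_one]
    have := gap_pos hs
    unfold c0
    unfold gap at this ⊢
    linarith
  have c4 : ContinuousAt (fun δ : ℝ => (2 + 2 * δ) ^ (-s)) 0 := by
    apply ContinuousAt.rpow_const (by fun_prop)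
    left; norm_num
  have e4 : ∀ᶠ δ in 𝓝 (0 : ℝ), tau s + gg s < (2 + 2 * δ) ^ (-s) := by
    apply c4.eventually (lt_mem_nhds _)
    simp only [mul_zero, add_zero]
    have h1 := Sys.gg_le_tau hs
    have h2 := tau_pos s
    have h3 : tau s = (2 : ℝ) ^ (-s) / 4 := rfl
    linarith
  have c5 : ContinuousAt (fun δ : ℝ => κ * δ ^ 2) 0 := by fun_prop
  have e5 : ∀ᶠ δ in 𝓝 (0 : ℝ), κ * δ ^ 2 < 2 := by
    apply c5.eventually (gt_mem_nhds _)
    norm_num
  have hall := (e1.and (e2.and (e3.and (e4.and e5)))).filter_mono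
    (nhdsWithin_le_nhds (s := Ioi (0 : ℝ)))
  have hpos : ∀ᶠ δ in 𝓝[>] (0 : ℝ), 0 < δ := self_mem_nhdsWithin
  obtain ⟨δ, h0, h1, h2, h3, h4, h5⟩ := (hpos.and hall).exists
  refine ⟨δ, h0, h1.le, ?_, h3, h4, h5.le⟩
  have h6 : c ^ (-s) < (2 * δ) ^ (-s) :=
    Real.rpow_lt_rpow_of_neg (by positivity) (by linarith) (by linarith)
  rw [hcs] at h6
  linarith

section conj

variable {E : Type*} [NormedAddCommGroup E] [InnerProductSpace ℝ E]

/-- conjugation of a local homeomorphism by an isometry -/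
noncomputable def conjE (σ : E ≃ₗᵢ[ℝ] E) (e : OpenPartialHomeomorph E E) :
    OpenPartialHomeomorph E E :=
  (σ.toHomeomorph.transOpenPartialHomeomorph e).transHomeomorph σ.toHomeomorph

lemma conjE_apply (σ : E ≃ₗᵢ[ℝ] E) (e : OpenPartialHomeomorph E E) (x : E) :
    conjE σ e x = σ (e (σ x)) := rfl

lemma conjE_symm_apply (σ : E ≃ₗᵢ[ℝ] E) (e : OpenPartialHomeomorph E E) (y : E) :
    (conjE σ e).symm y = σ.symm (e.symm (σ.symm y)) := rfl

lemma conjE_source (σ : E ≃ₗᵢ[ℝ] E) (e : OpenPartialHomeomorph E E) :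
    (conjE σ e).source = σ ⁻¹' e.source := rfl

lemma conjE_target (σ : E ≃ₗᵢ[ℝ] E) (e : OpenPartialHomeomorph E E) :
    (conjE σ e).target = σ.symm ⁻¹' e.target := rfl

lemma conjE_contDiff (σ : E ≃ₗᵢ[ℝ] E) {e : OpenPartialHomeomorph E E}
    (he : ContDiffOn ℝ ∞ e e.source) : ContDiffOn ℝ ∞ (conjE σ e) (conjE σ e).source := by
  have h1 : ContDiff ℝ ∞ σ := σ.contDiff
  have h2 : ContDiffOn ℝ ∞ (fun x => e (σ x)) (σ ⁻¹' e.source) :=
    he.comp h1.contDiffOn (fun x hx => hx)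
  exact h1.comp_contDiffOn h2

lemma conjE_symm_contDiff (σ : E ≃ₗᵢ[ℝ] E) {e : OpenPartialHomeomorph E E}
    (he : ContDiffOn ℝ ∞ e.symm e.target) :
    ContDiffOn ℝ ∞ (conjE σ e).symm (conjE σ e).target := by
  have h1 : ContDiff ℝ ∞ σ.symm := σ.symm.contDiff
  have h2 : ContDiffOn ℝ ∞ (fun x => e.symm (σ.symm x)) (σ.symm ⁻¹' e.target) :=
    he.comp h1.contDiffOn (fun x hx => hx)
  exact h1.comp_contDiffOn h2

end conj

section coords

variable {N : ℕ}

/-- the coordinate swap -/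
noncomputable def swapσ (N : ℕ) :
    EuclideanSpace ℝ (Fin (N + 2)) ≃ₗᵢ[ℝ] EuclideanSpace ℝ (Fin (N + 2)) :=
  LinearIsometryEquiv.piLpCongrLeft 2 ℝ ℝ (Equiv.swap 0 1)

lemma swapσ_apply (x : EuclideanSpace ℝ (Fin (N + 2))) (i : Fin (N + 2)) :
    swapσ N x i = x (Equiv.swap 0 1 i) := by
  simp [swapσ, LinearIsometryEquiv.piLpCongrLeft_apply, Equiv.piCongrLeft']

lemma swapσ_swapσ (x : EuclideanSpace ℝ (Fin (N + 2))) : swapσ N (swapσ N x) = x := by
  ext i
  rw [swapσ_apply, swapσ_apply]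
  simp

lemma swapσ_symm (x : EuclideanSpace ℝ (Fin (N + 2))) : (swapσ N).symm x = swapσ N x := by
  have := swapσ_swapσ x
  rw [← (swapσ N).symm_apply_apply (swapσ N x), this]

/-- the unit vector -/
noncomputable def e0 (N : ℕ) : EuclideanSpace ℝ (Fin (N + 2)) := EuclideanSpace.single 0 1

lemma e0_norm : ‖e0 N‖ = 1 := by
  simp [e0]

lemma swap_e0 : swapσ N (e0 N) = EuclideanSpace.single 1 1 := by
  unfold swapσ e0
  rw [EuclideanSpace.piLpCongrLeft_single]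
  simp

lemma e0_perp : ⟪e0 N, swapσ N (e0 N)⟫ = 0 := by
  rw [swap_e0]
  unfold e0
  rw [EuclideanSpace.inner_single_left]
  simp

/-- open cube -/
def cube (N : ℕ) (ε : ℝ) : Set (EuclideanSpace ℝ (Fin N)) := {x | ∀ i, |x i| < ε}

/-- closed cube -/
def ccube (N : ℕ) (ε : ℝ) : Set (EuclideanSpace ℝ (Fin N)) := {x | ∀ i, |x i| ≤ ε}

lemma cube_subset_ccube (N : ℕ) (ε : ℝ) : cube N ε ⊆ ccube N ε := fun _ hx i => (hx i).le

lemma isClosed_ccube (N : ℕ) (ε : ℝ) : IsClosed (ccube N ε) := by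
  have : ccube N ε = ⋂ i, {x : EuclideanSpace ℝ (Fin N) | |x i| ≤ ε} := by
    ext x
    simp [ccube]
  rw [this]
  refine isClosed_iInter fun i => ?_
  exact isClosed_le (by fun_prop) continuous_const

lemma measurableSet_cube (N : ℕ) (ε : ℝ) : MeasurableSet (cube N ε) := by
  have : cube N ε = ⋂ i, {x : EuclideanSpace ℝ (Fin N) | |x i| < ε} := by
    ext x
    simp [cube]
  rw [this]
  refine MeasurableSet.iInter fun i => ?_
  refine (isOpen_lt (by fun_prop) continuous_const).measurableSet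

lemma ccube_norm {N : ℕ} {ε : ℝ} (_hε : 0 < ε) {x : EuclideanSpace ℝ (Fin N)} (hx : x ∈ ccube N ε) :
    ‖x‖ ≤ (N + 1) * ε := by
  have h1 : ‖x‖ ^ 2 ≤ N * ε ^ 2 := by
    rw [EuclideanSpace.norm_sq_eq]
    calc ∑ i, ‖x i‖ ^ 2 ≤ ∑ _i : Fin N, ε ^ 2 := by
          apply Finset.sum_le_sum
          intro i _
          have := hx i
          rw [Real.norm_eq_abs]
          gcongr
      _ = N * ε ^ 2 := by simp
  have h2 : (N : ℝ) * ε ^ 2 ≤ ((N + 1) * ε) ^ 2 := by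
    have h3 : (0 : ℝ) ≤ N := by positivity
    have h4 : 0 ≤ ε ^ 2 := by positivity
    have : ((N + 1) * ε) ^ 2 = ((N : ℝ) ^ 2 + 2 * N + 1) * ε ^ 2 := by ring
    rw [this]
    apply mul_le_mul_of_nonneg_right _ h4
    nlinarith
  have h5 : 0 ≤ ((N : ℝ) + 1) * ε := by positivity
  exact abs_le_of_sq_le_sq' (h1.trans h2) h5 |>.2

/-- one dimensional bump -/
noncomputable def eta (ε t : ℝ) : ℝ := Real.smoothTransition (ε ^ 2 - t ^ 2)

lemma eta_contDiff (ε : ℝ) : ContDiff ℝ ∞ (eta ε) := by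
  unfold eta
  exact Real.smoothTransition.contDiff.comp (by fun_prop)

lemma eta_nonneg (ε t : ℝ) : 0 ≤ eta ε t := Real.smoothTransition.nonneg _

lemma eta_pos {ε t : ℝ} (hε : 0 < ε) (ht : t ∈ Ioo (-ε) ε) : 0 < eta ε t := by
  apply Real.smoothTransition.pos_of_pos
  have h1 := ht.1
  have h2 := ht.2
  nlinarith

lemma eta_zero {ε t : ℝ} (hε : 0 < ε) (ht : t ∉ Ioo (-ε) ε) : eta ε t = 0 := by
  apply Real.smoothTransition.zero_of_nonpos
  have : ε ≤ |t| := by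
    by_contra hc
    push Not at hc
    exact ht (abs_lt.mp hc)
  have h3 : ε ^ 2 ≤ |t| ^ 2 := by gcongr
  rw [sq_abs] at h3
  linarith

/-- product bump -/
noncomputable def cubeBump (N : ℕ) (ε : ℝ) (x : EuclideanSpace ℝ (Fin N)) : ℝ := ∏ i, eta ε (x i)

lemma cubeBump_contDiff (N : ℕ) (ε : ℝ) : ContDiff ℝ ∞ (cubeBump N ε) := by
  unfold cubeBump
  apply contDiff_prod
  intro i _
  apply (eta_contDiff ε).comp
  fun_prop

lemma cubeBump_nonneg (N : ℕ) (ε : ℝ) (x : EuclideanSpace ℝ (Fin N)) : 0 ≤ cubeBump N ε x :=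
  Finset.prod_nonneg fun _ _ => eta_nonneg _ _

lemma cubeBump_pos {N : ℕ} {ε : ℝ} (hε : 0 < ε) {x : EuclideanSpace ℝ (Fin N)}
    (hx : x ∈ cube N ε) : 0 < cubeBump N ε x :=
  Finset.prod_pos fun i _ => eta_pos hε (abs_lt.mp (hx i))

lemma cubeBump_zero {N : ℕ} {ε : ℝ} (hε : 0 < ε) {x : EuclideanSpace ℝ (Fin N)}
    (hx : x ∉ cube N ε) : cubeBump N ε x = 0 := by
  unfold cube at hx
  simp only [mem_ofPred_eq, not_forall, not_lt] at hx
  obtain ⟨i, hi⟩ := hx
  apply Finset.prod_eq_zero (Finset.mem_univ i)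
  apply eta_zero hε
  intro hc
  exact absurd (abs_lt.mpr hc) (not_lt.mpr hi)

lemma cubeBump_tsupport {N : ℕ} {ε : ℝ} (hε : 0 < ε) :
    tsupport (cubeBump N ε) ⊆ ccube N ε := by
  apply closure_minimal _ (isClosed_ccube N ε)
  intro x hx
  apply cube_subset_ccube
  by_contra hc
  exact hx (cubeBump_zero hε hc)

lemma ccube_compact {N : ℕ} {ε : ℝ} (hε : 0 < ε) : IsCompact (ccube N ε) := by
  apply Metric.isCompact_of_isClosed_isBounded (isClosed_ccube N ε)
  apply (Metric.isBounded_closedBall (x := (0 : EuclideanSpace ℝ (Fin N))) (r := (N + 1) * ε)).subset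
  intro x hx
  rw [mem_closedBall_zero_iff]
  exact ccube_norm hε hx

lemma cubeBump_compact {N : ℕ} {ε : ℝ} (hε : 0 < ε) : HasCompactSupport (cubeBump N ε) :=
  (ccube_compact hε).of_isClosed_subset (isClosed_tsupport _) (cubeBump_tsupport hε)

lemma swapσ_cube {ε : ℝ} {x : EuclideanSpace ℝ (Fin (N + 2))} (hx : x ∈ cube (N + 2) ε) :
    swapσ N x ∈ cube (N + 2) ε := by
  intro i
  rw [swapσ_apply]
  exact hx _

end coords

end Crest.Agent.Lib.NM
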