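import Crest.Agent.Lib.NM.Build1

/-! Concrete construction of the system. -/

set_option autoImplicit false
set_option linter.unusedSectionVars false
open MeasureTheory Set Topology Filter
open scoped ENNReal ContDiff RealInnerProductSpace

namespace Crest.Agent.Lib.NM

section near

variable {E : Type*} [NormedAddCommGroup E] [InnerProductSpace ℝ E]

/-- the conditions near the origin -/
theorem near0 {s κ δ : ℝ} (hs : 0 < s) {p : E} (hp : ‖p‖ = 1) {Y Z : E → E} {D : Set E}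
    (hD : IsOpen D) (h0 : (0 : E) ∈ D) (hYc : ContinuousOn Y D) (hZc : ContinuousOn Z D)
    (hY0 : Y 0 = p) (hZ0 : Z 0 = -p) (hδ : 0 < δ) :
    ∀ᶠ x in 𝓝 (0 : E), ‖x‖ < δ ∧ ‖Y x - p‖ < δ ∧ ‖Z x + p‖ < δ ∧
      tau s - gg s < tau s + ⟪Fb s p, Y x - p⟫ - κ / 2 * ‖Y x - p‖ ^ 2 ∧
      tau s + ⟪Fb s p, Y x - p⟫ - κ / 2 * ‖Y x - p‖ ^ 2 < tau s + gg s ∧
      tau s - gg s < cc s x (Y x) (Z x) - (alph s - κ / 2 * ‖x‖ ^ 2)
        - (tau s + ⟪Fb s p, Y x - p⟫ - κ / 2 * ‖Y x - p‖ ^ 2) ∧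
      cc s x (Y x) (Z x) - (alph s - κ / 2 * ‖x‖ ^ 2)
        - (tau s + ⟪Fb s p, Y x - p⟫ - κ / 2 * ‖Y x - p‖ ^ 2) < tau s + gg s := by
  have cY : ContinuousAt Y 0 := hYc.continuousAt (hD.mem_nhds h0)
  have cZ : ContinuousAt Z 0 := hZc.continuousAt (hD.mem_nhds h0)
  have hg := gg_pos hs
  have hp2 : ‖p - -p‖ = 2 := by
    rw [sub_neg_eq_add, ← two_smul ℝ, norm_smul, hp]; norm_num
  have hnegp : ‖-p‖ = 1 := by rw [norm_neg, hp]
  -- continuity
  have cU : Continuous (fun y : E => tau s + ⟪Fb s p, y - p⟫ - κ / 2 * ‖y - p‖ ^ 2) := by fun_prop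
  have c1 : ContinuousAt (fun x : E => tau s + ⟪Fb s p, Y x - p⟫ - κ / 2 * ‖Y x - p‖ ^ 2) 0 :=
    ContinuousAt.comp (f := Y) (g := fun y : E => tau s + ⟪Fb s p, y - p⟫ - κ / 2 * ‖y - p‖ ^ 2)
      cU.continuousAt cY
  have c1v : tau s + ⟪Fb s p, Y 0 - p⟫ - κ / 2 * ‖Y 0 - p‖ ^ 2 = tau s := by
    rw [hY0, sub_self, inner_zero_right, norm_zero]
    ring
  have c2 : ContinuousAt (fun x : E => cc s x (Y x) (Z x)) 0 := by
    unfold cc
    refine ContinuousAt.add (ContinuousAt.add ?_ ?_) ?_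
    · apply ContinuousAt.rpow_const (continuousAt_id.sub cY).norm
      left
      simp [hY0, hp]
    · apply ContinuousAt.rpow_const (continuousAt_id.sub cZ).norm
      left
      simp [hZ0, hp]
    · apply ContinuousAt.rpow_const (cY.sub cZ).norm
      left
      show ‖Y 0 - Z 0‖ ≠ 0
      rw [hY0, hZ0, hp2]
      norm_num
  have c2v : cc s (0 : E) (Y 0) (Z 0) = c0 s := by
    unfold cc c0
    rw [hY0, hZ0, hp2]
    simp only [zero_sub, norm_neg, neg_neg, hp, Real.one_rpow]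
    ring
  have c3 : ContinuousAt (fun x : E => alph s - κ / 2 * ‖x‖ ^ 2) 0 := by fun_prop
  have c4 := ((c2.sub c3).sub c1)
  have c4v : cc s (0 : E) (Y 0) (Z 0) - (alph s - κ / 2 * ‖(0 : E)‖ ^ 2)
      - (tau s + ⟪Fb s p, Y 0 - p⟫ - κ / 2 * ‖Y 0 - p‖ ^ 2) = tau s := by
    rw [c2v, c1v, norm_zero]
    unfold alph
    ring
  have e1 : ∀ᶠ x in 𝓝 (0 : E), ‖x‖ < δ := by
    have : ContinuousAt (fun x : E => ‖x‖) 0 := by fun_prop
    apply this.eventually (gt_mem_nhds _)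
    simpa using hδ
  have e2 : ∀ᶠ x in 𝓝 (0 : E), ‖Y x - p‖ < δ := by
    have : ContinuousAt (fun x : E => ‖Y x - p‖) 0 := (cY.sub continuousAt_const).norm
    apply this.eventually (gt_mem_nhds _)
    simpa [hY0] using hδ
  have e3 : ∀ᶠ x in 𝓝 (0 : E), ‖Z x + p‖ < δ := by
    have : ContinuousAt (fun x : E => ‖Z x + p‖) 0 := (cZ.add continuousAt_const).norm
    apply this.eventually (gt_mem_nhds _)
    simpa [hZ0] using hδ
  have e4 : ∀ᶠ x in 𝓝 (0 : E), tau s - gg s < tau s + ⟪Fb s p, Y x - p⟫ - κ / 2 * ‖Y x - p‖ ^ 2 := by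
    apply c1.eventually (lt_mem_nhds _)
    show tau s - gg s < tau s + ⟪Fb s p, Y 0 - p⟫ - κ / 2 * ‖Y 0 - p‖ ^ 2
    rw [c1v]
    linarith
  have e5 : ∀ᶠ x in 𝓝 (0 : E), tau s + ⟪Fb s p, Y x - p⟫ - κ / 2 * ‖Y x - p‖ ^ 2 < tau s + gg s := by
    apply c1.eventually (gt_mem_nhds _)
    show tau s + ⟪Fb s p, Y 0 - p⟫ - κ / 2 * ‖Y 0 - p‖ ^ 2 < tau s + gg s
    rw [c1v]
    linarith
  have e6 : ∀ᶠ x in 𝓝 (0 : E), tau s - gg s < cc s x (Y x) (Z x) - (alph s - κ / 2 * ‖x‖ ^ 2)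
        - (tau s + ⟪Fb s p, Y x - p⟫ - κ / 2 * ‖Y x - p‖ ^ 2) := by
    apply c4.eventually (lt_mem_nhds _)
    show tau s - gg s < cc s (0 : E) (Y 0) (Z 0) - (alph s - κ / 2 * ‖(0 : E)‖ ^ 2)
      - (tau s + ⟪Fb s p, Y 0 - p⟫ - κ / 2 * ‖Y 0 - p‖ ^ 2)
    rw [c4v]
    linarith
  have e7 : ∀ᶠ x in 𝓝 (0 : E), cc s x (Y x) (Z x) - (alph s - κ / 2 * ‖x‖ ^ 2)
        - (tau s + ⟪Fb s p, Y x - p⟫ - κ / 2 * ‖Y x - p‖ ^ 2) < tau s + gg s := by
    apply c4.eventually (gt_mem_nhds _)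
    show cc s (0 : E) (Y 0) (Z 0) - (alph s - κ / 2 * ‖(0 : E)‖ ^ 2)
      - (tau s + ⟪Fb s p, Y 0 - p⟫ - κ / 2 * ‖Y 0 - p‖ ^ 2) < tau s + gg s
    rw [c4v]
    linarith
  exact e1.and (e2.and (e3.and (e4.and (e5.and (e6.and e7)))))

end near

section ext

variable {E : Type*} [NormedAddCommGroup E] [InnerProductSpace ℝ E] [MeasurableSpace E]
  [BorelSpace E]

open Classical in
/-- total extension of a local homeomorphism -/
noncomputable def extE (e : OpenPartialHomeomorph E E) : E → E := e.source.piecewise e 0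

open Classical in
/-- total extension of the inverse of a local homeomorphism -/
noncomputable def extEi (e : OpenPartialHomeomorph E E) : E → E := e.target.piecewise e.symm 0

lemma extE_of_mem (e : OpenPartialHomeomorph E E) {x : E} (hx : x ∈ e.source) : extE e x = e x := by
  classical
  unfold extE
  exact piecewise_eq_of_mem _ _ _ hx

lemma extEi_of_mem (e : OpenPartialHomeomorph E E) {x : E} (hx : x ∈ e.target) :
    extEi e x = e.symm x := by
  classical
  unfold extEi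
  exact piecewise_eq_of_mem _ _ _ hx

lemma extE_measurable (e : OpenPartialHomeomorph E E) : Measurable (extE e) := by
  classical
  unfold extE
  exact e.continuousOn.measurable_piecewise continuous_const.continuousOn
    e.open_source.measurableSet

lemma extEi_measurable (e : OpenPartialHomeomorph E E) : Measurable (extEi e) := by
  classical
  unfold extEi
  exact e.symm.continuousOn.measurable_piecewise continuous_const.continuousOn
    e.open_target.measurableSet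

lemma extEi_extE (e : OpenPartialHomeomorph E E) {x : E} (hx : x ∈ e.source) :
    extEi e (extE e x) = x := by
  rw [extE_of_mem e hx, extEi_of_mem e (e.map_source hx), e.left_inv hx]

lemma extE_image_measurable (e : OpenPartialHomeomorph E E) {A : Set E} (hA : MeasurableSet A)
    (hAs : A ⊆ e.source) : MeasurableSet (extE e '' A) := by
  have h : extE e '' A = e.target ∩ (extEi e) ⁻¹' A := by
    ext y
    constructor
    · rintro ⟨x, hx, rfl⟩
      refine ⟨?_, ?_⟩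
      · rw [extE_of_mem e (hAs hx)]
        exact e.map_source (hAs hx)
      · show extEi e (extE e x) ∈ A
        rw [extEi_extE e (hAs hx)]
        exact hx
    · rintro ⟨h1, h2⟩
      have h3 : extEi e y ∈ A := h2
      rw [extEi_of_mem e h1] at h3
      refine ⟨_, h3, ?_⟩
      rw [extE_of_mem e (hAs h3), e.right_inv h1]
  rw [h]
  exact e.open_target.measurableSet.inter ((extEi_measurable e) hA)

end ext

namespace Sys

variable {E : Type*} [NormedAddCommGroup E] [InnerProductSpace ℝ E] [MeasurableSpace E]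
  [BorelSpace E]

/-- the centres -/
noncomputable def ctr (S : Sys E) : Fin 4 → E := ![S.p, -S.p, S.σ S.p, -S.σ S.p]

lemma ctr_sep (S : Sys E) {i k : Fin 4} (hik : i ≠ k) : 1 ≤ ‖S.ctr i - S.ctr k‖ := by
  have h := one_le_sqrt_two
  have h01 := (eq_p_mp (S := S))
  have h02 := (eq_p_sp (S := S))
  have h03 := (eq_p_msp (S := S))
  have h12 := (eq_mp_sp (S := S))
  have h13 := (eq_mp_msp (S := S))
  have h23 := (eq_sp_msp (S := S))
  fin_cases i <;> fin_cases k <;> first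
    | exact absurd rfl hik
    | (show 1 ≤ ‖S.p - (-S.p)‖; rw [h01]; norm_num)
    | (show 1 ≤ ‖S.p - S.σ S.p‖; rw [h02]; exact h)
    | (show 1 ≤ ‖S.p - (-S.σ S.p)‖; rw [h03]; exact h)
    | (show 1 ≤ ‖(-S.p) - S.σ S.p‖; rw [h12]; exact h)
    | (show 1 ≤ ‖(-S.p) - (-S.σ S.p)‖; rw [h13]; exact h)
    | (show 1 ≤ ‖S.σ S.p - (-S.σ S.p)‖; rw [h23]; norm_num)
    | (show 1 ≤ ‖(-S.p) - S.p‖; rw [norm_sub_rev, h01]; norm_num)
    | (show 1 ≤ ‖S.σ S.p - S.p‖; rw [norm_sub_rev, h02]; exact h)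
    | (show 1 ≤ ‖(-S.σ S.p) - S.p‖; rw [norm_sub_rev, h03]; exact h)
    | (show 1 ≤ ‖S.σ S.p - (-S.p)‖; rw [norm_sub_rev, h12]; exact h)
    | (show 1 ≤ ‖(-S.σ S.p) - (-S.p)‖; rw [norm_sub_rev, h13]; exact h)
    | (show 1 ≤ ‖(-S.σ S.p) - S.σ S.p‖; rw [norm_sub_rev, h23]; norm_num)

lemma ctr_norm (S : Sys E) (i : Fin 4) : ‖S.ctr i‖ = 1 := by
  fin_cases i
  · exact S.hp
  · show ‖-S.p‖ = 1
    rw [norm_neg, S.hp]
  · exact S.norm_sigma_p
  · show ‖-S.σ S.p‖ = 1
    rw [norm_neg, S.norm_sigma_p]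

/-- disjointness of the four images and the centre -/
theorem disjoint_facts (S : Sys E) (K : Set E) (e : Fin 4 → E → E) (hK : ∀ x ∈ K, ‖x‖ < S.δ)
    (he : ∀ i, ∀ x ∈ K, ‖e i x - S.ctr i‖ < S.δ) :
    (∀ i, Disjoint K (e i '' K)) ∧ (∀ i k, i ≠ k → Disjoint (e i '' K) (e k '' K)) := by
  constructor
  · intro i
    rw [Set.disjoint_left]
    rintro w hw ⟨x, hx, rfl⟩
    have h1 : ‖e i x - 0‖ < S.δ := by
      rw [sub_zero]
      exact hK _ hw
    refine sep (S := S) h1 (he i x hx) ?_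
    rw [zero_sub, norm_neg, S.ctr_norm]
  · intro i k hik
    rw [Set.disjoint_left]
    rintro w ⟨x, hx, rfl⟩ ⟨x', hx', hw⟩
    refine sep (S := S) (he i x hx) ?_ (S.ctr_sep hik)
    rw [← hw]
    exact he k x' hx'

end Sys

section data

variable {N : ℕ}

/-- existence of the system and local diffeomorphisms -/
theorem exists_data (N : ℕ) {s : ℝ} (hs : 0 < s) :
    ∃ (S : Sys (EuclideanSpace ℝ (Fin (N + 2)))) (ε : ℝ)
      (e : Fin 4 → OpenPartialHomeomorph (EuclideanSpace ℝ (Fin (N + 2)))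
        (EuclideanSpace ℝ (Fin (N + 2)))),
      S.s = s ∧ 0 < ε ∧ S.A = cube (N + 2) ε ∧
      (∀ i, ContDiffOn ℝ ∞ (e i) (e i).source) ∧ (∀ i, ContDiffOn ℝ ∞ (e i).symm (e i).target) ∧
      (∀ i, ccube (N + 2) ε ⊆ (e i).source) ∧ (∀ i, ∀ x ∈ S.A, S.YY i x = e i x) ∧
      (∀ i, Disjoint (ccube (N + 2) ε) (e i '' ccube (N + 2) ε)) ∧
      (∀ i k, i ≠ k → Disjoint (e i '' ccube (N + 2) ε) (e k '' ccube (N + 2) ε)) := by
  set κ := kap s with hκ
  set p := e0 N with hp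
  set σ := swapσ N with hσ
  have hpn : ‖p‖ = 1 := e0_norm
  obtain ⟨δ, hδ, hδ1, hδ2, hδ3, hδ4, hδ5⟩ := exists_delta hs κ
  obtain ⟨Y, Z, eY, eZ, h0Y, h0Z, hYe, hZe, hYs, hYis, hZs, hZis, hY0, hZ0, D, hDo, hYD, hZD,
    hYc, hZc, hE⟩ := exists_sheet (κ := κ) hs hpn le_rfl
  have hnear := near0 (κ := κ) hs hpn hDo (hYD h0Y) hYc hZc hY0 hZ0 hδ
  have hs1 : ∀ᶠ x in 𝓝 (0 : EuclideanSpace ℝ (Fin (N + 2))), x ∈ eY.source :=
    eY.open_source.mem_nhds h0Y
  have hs2 : ∀ᶠ x in 𝓝 (0 : EuclideanSpace ℝ (Fin (N + 2))), x ∈ eZ.source :=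
    eZ.open_source.mem_nhds h0Z
  have hnear2 := hnear.and (hs1.and hs2)
  obtain ⟨r, hr, hball⟩ := Metric.eventually_nhds_iff_ball.mp hnear2
  -- the size of the cube
  set ε : ℝ := r / (N + 4) with hε
  have hN4 : (0 : ℝ) < (N : ℝ) + 4 := by positivity
  have hεpos : 0 < ε := div_pos hr hN4
  have hcc : ∀ x ∈ ccube (N + 2) ε, x ∈ Metric.ball (0 : EuclideanSpace ℝ (Fin (N + 2))) r := by
    intro x hx
    have h1 := ccube_norm hεpos hx
    rw [mem_ball_zero_iff]
    have h2 : (((N + 2 : ℕ) : ℝ) + 1) * ε < r := by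
      rw [hε]
      push_cast
      rw [mul_div_assoc', div_lt_iff₀ hN4]
      nlinarith
    linarith
  have hσball : ∀ x, x ∈ Metric.ball (0 : EuclideanSpace ℝ (Fin (N + 2))) r →
      σ x ∈ Metric.ball (0 : EuclideanSpace ℝ (Fin (N + 2))) r := by
    intro x hx
    rw [mem_ball_zero_iff] at hx ⊢
    rwa [LinearIsometryEquiv.norm_map]
  have hAsub : ∀ x ∈ cube (N + 2) ε, x ∈ Metric.ball (0 : EuclideanSpace ℝ (Fin (N + 2))) r :=
    fun x hx => hcc x (cube_subset_ccube _ _ hx)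
  have hAsY : cube (N + 2) ε ⊆ eY.source := fun x hx => (hball x (hAsub x hx)).2.1
  have hAsZ : cube (N + 2) ε ⊆ eZ.source := fun x hx => (hball x (hAsub x hx)).2.2
  -- on the cube the total extensions are the original maps
  have hYx : ∀ x ∈ cube (N + 2) ε, extE eY x = Y x := fun x hx => by
    rw [extE_of_mem eY (hAsY hx), hYe]
  have hZx : ∀ x ∈ cube (N + 2) ε, extE eZ x = Z x := fun x hx => by
    rw [extE_of_mem eZ (hAsZ hx), hZe]
  have hEq := fun x (hx : x ∈ cube (N + 2) ε) => hE x (hYD (hAsY hx))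
  have hC := fun x (hx : x ∈ cube (N + 2) ε) => (hball x (hAsub x hx)).1
  let S : Sys (EuclideanSpace ℝ (Fin (N + 2))) :=
    { s := s
      hs := hs
      κ := κ
      hκ := le_rfl
      p := p
      hp := hpn
      σ := σ
      hσσ := swapσ_swapσ
      hσp := e0_perp
      A := cube (N + 2) ε
      hσA := fun x hx => swapσ_cube hx
      Y := extE eY
      Z := extE eZ
      δ := δ
      hδ := hδ
      hδ1 := hδ1
      hδ2 := hδ2
      hδ3 := hδ3
      hδ4 := hδ4
      hδ5 := hδ5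
      hE1 := fun x hx => by
        rw [hYx x hx, hZx x hx]
        exact (hEq x hx).1
      hE2 := fun x hx => by
        rw [hYx x hx, hZx x hx]
        exact (hEq x hx).2
      hA := fun x hx => (hC x hx).1
      hY := fun x hx => by
        rw [hYx x hx]
        exact (hC x hx).2.1
      hZ := fun x hx => by
        rw [hZx x hx]
        exact (hC x hx).2.2.1
      hub1 := fun x hx => by
        rw [hYx x hx]
        exact (hC x hx).2.2.2.1
      hub2 := fun x hx => by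
        rw [hYx x hx]
        exact (hC x hx).2.2.2.2.1
      huc1 := fun x hx => by
        rw [hYx x hx, hZx x hx]
        exact (hC x hx).2.2.2.2.2.1
      huc2 := fun x hx => by
        rw [hYx x hx, hZx x hx]
        exact (hC x hx).2.2.2.2.2.2
      Yi := extEi eY
      Zi := extEi eZ
      hYi := fun x hx => extEi_extE eY (hAsY hx)
      hZi := fun x hx => extEi_extE eZ (hAsZ hx)
      hAm := measurableSet_cube _ _
      hYm := extE_measurable eY
      hZm := extE_measurable eZ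
      hYim := extEi_measurable eY
      hZim := extEi_measurable eZ
      hP1m := extE_image_measurable eY (measurableSet_cube _ _) hAsY
      hP2m := extE_image_measurable eZ (measurableSet_cube _ _) hAsZ }
  let e : Fin 4 → OpenPartialHomeomorph (EuclideanSpace ℝ (Fin (N + 2)))
      (EuclideanSpace ℝ (Fin (N + 2))) := ![eY, eZ, conjE σ eY, conjE σ eZ]
  have hcenters : ∀ i, ∀ x ∈ ccube (N + 2) ε, ‖e i x - S.ctr i‖ < S.δ := by
    intro i x hx
    have hx1 := hcc x hx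
    have hx2 := hσball x hx1
    have h1 := (hball x hx1).1
    have h2 := (hball (σ x) hx2).1
    fin_cases i
    · show ‖eY x - p‖ < δ
      rw [hYe]
      exact h1.2.1
    · show ‖eZ x - (-p)‖ < δ
      rw [hZe, sub_neg_eq_add]
      exact h1.2.2.1
    · show ‖σ (eY (σ x)) - σ p‖ < δ
      rw [← map_sub, LinearIsometryEquiv.norm_map, hYe]
      exact h2.2.1
    · show ‖σ (eZ (σ x)) - (-σ p)‖ < δ
      rw [← map_neg, ← map_sub, LinearIsometryEquiv.norm_map, hZe, sub_neg_eq_add]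
      exact h2.2.2.1
  have hKnorm : ∀ x ∈ ccube (N + 2) ε, ‖x‖ < S.δ := fun x hx => (hball x (hcc x hx)).1.1
  obtain ⟨hd1, hd2⟩ := Sys.disjoint_facts S (ccube (N + 2) ε) (fun i => e i) hKnorm hcenters
  refine ⟨S, ε, e, rfl, hεpos, rfl, ?_, ?_, ?_, ?_, hd1, hd2⟩
  · intro i
    fin_cases i
    · exact hYs
    · exact hZs
    · exact conjE_contDiff σ hYs
    · exact conjE_contDiff σ hZs
  · intro i
    fin_cases i
    · exact hYis
    · exact hZis
    · exact conjE_symm_contDiff σ hYis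
    · exact conjE_symm_contDiff σ hZis
  · intro i x hx
    have hx1 := hcc x hx
    have hx2 := hσball x hx1
    fin_cases i
    · exact (hball x hx1).2.1
    · exact (hball x hx1).2.2
    · exact (hball (σ x) hx2).2.1
    · exact (hball (σ x) hx2).2.2
  · intro i x hx
    have hsx : σ x ∈ cube (N + 2) ε := swapσ_cube hx
    fin_cases i
    · exact extE_of_mem eY (hAsY hx)
    · exact extE_of_mem eZ (hAsZ hx)
    · show σ (extE eY (σ x)) = σ (eY (σ x))
      rw [extE_of_mem eY (hAsY hsx)]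
    · show σ (extE eZ (σ x)) = σ (eZ (σ x))
      rw [extE_of_mem eZ (hAsZ hsx)]

end data

end Crest.Agent.Lib.NM
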