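import Crest.Agent.Lib.NM.Build2

/-! The final assembly of the counterexample. -/

set_option autoImplicit false
set_option linter.unusedSectionVars false
open MeasureTheory Set Topology Filter
open scoped ENNReal ContDiff RealInnerProductSpace
open Crest.AnalysisR.OT

namespace Crest.Agent.Lib.NM

/-- splitting the cube measure -/
theorem exists_split (N : ℕ) {ε : ℝ} (hε : 0 < ε) (c : ℝ) {d : ℝ} (hd : 0 < d) :
    ∃ (Ψ dec : Fin 2 → EuclideanSpace ℝ (Fin (N + 2)) → EuclideanSpace ℝ (Fin (N + 2)))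
      (R : Fin 2 → Set (EuclideanSpace ℝ (Fin (N + 2)))),
      (∀ j, Measurable (Ψ j)) ∧ (∀ j, Measurable (dec j)) ∧
      (∀ j, MeasurableSet (R j)) ∧ (∀ j, R j ⊆ cube (N + 2) ε) ∧
      (∀ w, w ∈ R 0 → w ∈ R 1 → False) ∧
      (∀ j, ∀ x ∈ cube (N + 2) ε, Ψ j x ∈ R j) ∧
      (∀ j, ∀ x ∈ cube (N + 2) ε, dec j (Ψ j x) = x) ∧
      (∀ j, ∀ x ∈ cube (N + 2) ε, ‖Ψ j x - x‖ ≤ d) ∧
      (∀ f : EuclideanSpace ℝ (Fin (N + 2)) → ℝ≥0∞, Measurable f →
        ∫⁻ x, f x * ENNReal.ofReal (prodW (N := N + 1) c (fun t => (eta ε t) ^ 2) x)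
          = 2⁻¹ * ((∫⁻ x, f (Ψ 0 x) * ENNReal.ofReal (prodW (N := N + 1) c (fun t => (eta ε t) ^ 2) x))
            + (∫⁻ x, f (Ψ 1 x) * ENNReal.ofReal (prodW (N := N + 1) c (fun t => (eta ε t) ^ 2) x)))) := by
  have hgc : Continuous (fun t => (eta ε t) ^ 2) := ((eta_contDiff ε).continuous).pow 2
  obtain ⟨φ, D, b, hφ, hD, hb, hprop, hid⟩ := split_1D (g := fun t => (eta ε t) ^ 2) hε hgc
    (fun t ht => pow_pos (eta_pos hε ht) 2)
    (fun t ht => by simp [eta_zero hε ht]) hd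
  have hcoord : Measurable (fun x : EuclideanSpace ℝ (Fin (N + 2)) => x 0) := by fun_prop
  refine ⟨fun j => shiftMap (N := N + 1) (φ j), fun _ => shiftMap (N := N + 1) D,
    fun j => {x | x ∈ cube (N + 2) ε ∧ b (x 0) = ((j : ℕ) : ℤ)}, ?_, ?_, ?_, ?_, ?_, ?_, ?_, ?_, ?_⟩
  · exact fun j => shiftMap_measurable (hφ j)
  · exact fun _ => shiftMap_measurable hD
  · intro j
    refine (measurableSet_cube _ _).inter ?_
    exact (hb.comp hcoord) (measurableSet_singleton _)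
  · exact fun j x hx => hx.1
  · rintro w ⟨_, h0⟩ ⟨_, h1⟩
    rw [h0] at h1
    simp at h1
  · intro j x hx
    have hx0 : x 0 ∈ Ioo (-ε) ε := abs_lt.mp (hx 0)
    obtain ⟨h1, _, h3, _⟩ := hprop j (x 0) hx0
    refine ⟨?_, ?_⟩
    · intro i
      refine Fin.cases ?_ (fun k => ?_) i
      · rw [shiftMap_zero]
        exact abs_lt.mpr h1
      · rw [shiftMap_succ]
        exact hx _
    · rw [shiftMap_zero]
      exact h3
  · intro j x hx
    have hx0 : x 0 ∈ Ioo (-ε) ε := abs_lt.mp (hx 0)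
    obtain ⟨_, h2, _, _⟩ := hprop j (x 0) hx0
    ext i
    refine Fin.cases ?_ (fun k => ?_) i
    · rw [shiftMap_zero, shiftMap_zero]
      exact h2
    · rw [shiftMap_succ, shiftMap_succ]
  · intro j x hx
    have hx0 : x 0 ∈ Ioo (-ε) ε := abs_lt.mp (hx 0)
    obtain ⟨_, _, _, h4⟩ := hprop j (x 0) hx0
    rw [shiftMap_norm]
    exact h4
  · intro f hf
    exact split_lift (fun t => sq_nonneg _) hgc.measurable c hφ hid hf

/-- the main theorem for dimension `N + 2` -/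
theorem main_N (N : ℕ) (s : ℝ) (hs : 0 < s) :
    ∃ ρ : EuclideanSpace ℝ (Fin (N + 2)) → ℝ, (∀ x, 0 ≤ ρ x) ∧ ContDiff ℝ ∞ ρ ∧
      HasCompactSupport ρ ∧
      ContDiff ℝ ∞ (fun x => Real.sqrt (ρ x)) ∧ ∫ x, ρ x = 1 ∧
      ∃ π₀ : Measure (EuclideanSpace ℝ (Fin (N + 2)) × EuclideanSpace ℝ (Fin (N + 2)) ×
          EuclideanSpace ℝ (Fin (N + 2))),
        IsCoupling₃ (measOfDensity ρ) π₀ ∧ ∫⁻ p, tripleCost s p ∂π₀ < ⊤ ∧
        (∀ π : Measure (EuclideanSpace ℝ (Fin (N + 2)) × EuclideanSpace ℝ (Fin (N + 2)) ×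
            EuclideanSpace ℝ (Fin (N + 2))), IsCoupling₃ (measOfDensity ρ) π →
          ∫⁻ p, tripleCost s p ∂π₀ ≤ ∫⁻ p, tripleCost s p ∂π) ∧
        (∀ T₂ T₃ : EuclideanSpace ℝ (Fin (N + 2)) → EuclideanSpace ℝ (Fin (N + 2)),
          Measurable T₂ → Measurable T₃ →
          (measOfDensity ρ).map T₂ = measOfDensity ρ → (measOfDensity ρ).map T₃ = measOfDensity ρ →
          ∫⁻ p, tripleCost s p ∂π₀ < ∫⁻ x, tripleCost s (x, T₂ x, T₃ x) ∂(measOfDensity ρ)) ∧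
        (∀ ε : ℝ≥0∞, 0 < ε → ∃ T₂ T₃ : EuclideanSpace ℝ (Fin (N + 2)) →
            EuclideanSpace ℝ (Fin (N + 2)), Measurable T₂ ∧ Measurable T₃ ∧
          (measOfDensity ρ).map T₂ = measOfDensity ρ ∧ (measOfDensity ρ).map T₃ = measOfDensity ρ ∧
          ∫⁻ x, tripleCost s (x, T₂ x, T₃ x) ∂(measOfDensity ρ) < ∫⁻ p, tripleCost s p ∂π₀ + ε) := by
  obtain ⟨S, ε, e, hSs, hε, hA, he, hes, hKs, hYY, hd1, hd2⟩ := exists_data N hs
  subst hSs
  -- the central bump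
  have hψ₀s := cubeBump_contDiff (N + 2) ε
  have hψ₀c : HasCompactSupport (cubeBump (N + 2) ε) := cubeBump_compact hε
  have hψ₀n := cubeBump_nonneg (N + 2) ε
  have hsqc : HasCompactSupport (fun x => (cubeBump (N + 2) ε x) ^ 2) :=
    hψ₀c.comp_left (g := fun r : ℝ => r ^ 2) (by simp)
  have hsqcont : Continuous (fun x => (cubeBump (N + 2) ε x) ^ 2) := hψ₀s.continuous.pow 2
  have h00 : (0 : EuclideanSpace ℝ (Fin (N + 2))) ∈ cube (N + 2) ε := by
    intro i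
    simpa using hε
  have hJ : 0 < ∫ x, (cubeBump (N + 2) ε x) ^ 2 :=
    hsqcont.integral_pos_of_hasCompactSupport_nonneg_nonzero hsqc (fun x => sq_nonneg _)
      (x := 0) (pow_ne_zero 2 (cubeBump_pos hε h00).ne')
  set J := ∫ x, (cubeBump (N + 2) ε x) ^ 2 with hJdef
  set a := Real.sqrt (1 / (3 * J)) with ha
  have ha2 : a ^ 2 = 1 / (3 * J) := Real.sq_sqrt (by positivity)
  have ha0 : 0 ≤ a := Real.sqrt_nonneg _
  let ψ : EuclideanSpace ℝ (Fin (N + 2)) → ℝ := fun x => a * cubeBump (N + 2) ε x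
  have hψs : ContDiff ℝ ∞ ψ := contDiff_const.mul hψ₀s
  have hψn : ∀ x, 0 ≤ ψ x := fun x => mul_nonneg ha0 (hψ₀n x)
  have hψz : ∀ x, x ∉ cube (N + 2) ε → ψ x = 0 := fun x hx => by
    show a * cubeBump (N + 2) ε x = 0
    rw [cubeBump_zero hε hx, mul_zero]
  have hψt : tsupport ψ ⊆ ccube (N + 2) ε := by
    apply closure_minimal _ (isClosed_ccube _ _)
    intro x hx
    apply cube_subset_ccube
    by_contra hc
    exact hx (hψz x hc)
  have hψc : HasCompactSupport ψ :=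
    (ccube_compact hε).of_isClosed_subset (isClosed_tsupport _) hψt
  have hψW : ∀ x, (ψ x) ^ 2 = prodW (N := N + 1) (a ^ 2) (fun t => (eta ε t) ^ 2) x := by
    intro x
    show (a * ∏ i, eta ε (x i)) ^ 2 = a ^ 2 * ∏ i, (eta ε (x i)) ^ 2
    rw [mul_pow, Finset.prod_pow]
  have hψ2m : Measurable (fun x => ENNReal.ofReal ((ψ x) ^ 2)) :=
    ENNReal.measurable_ofReal.comp ((hψs.continuous.pow 2).measurable)
  -- the measures
  let m : Measure (EuclideanSpace ℝ (Fin (N + 2))) :=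
    volume.withDensity (fun x => ENNReal.ofReal ((ψ x) ^ 2))
  let ρ : EuclideanSpace ℝ (Fin (N + 2)) → ℝ := fun y => (totalPsi e ψ y) ^ 2
  have hKs' : ∀ i, tsupport ψ ⊆ (e i).source := fun i => hψt.trans (hKs i)
  have hd1' : ∀ i, Disjoint (tsupport ψ) (e i '' tsupport ψ) := fun i =>
    (hd1 i).mono hψt (image_mono hψt)
  have hd2' : ∀ i k, i ≠ k → Disjoint (e i '' tsupport ψ) (e k '' tsupport ψ) := fun i k hik =>
    (hd2 i k hik).mono (image_mono hψt) (image_mono hψt)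
  have hTs : ContDiff ℝ ∞ (totalPsi e ψ) := totalPsi_contDiff he hes hψs hψc hKs'
  have hTc : HasCompactSupport (totalPsi e ψ) := totalPsi_hasCompactSupport hψc hKs'
  have hTn := totalPsi_nonneg (e := e) hψn
  have hρcont : Continuous ρ := hTs.continuous.pow 2
  have hρm : Measurable (fun x => ENNReal.ofReal (ρ x)) :=
    ENNReal.measurable_ofReal.comp hρcont.measurable
  have hmint : ∀ f : EuclideanSpace ℝ (Fin (N + 2)) → ℝ≥0∞, Measurable f →
      ∫⁻ x, f x ∂m = ∫⁻ x, f x * ENNReal.ofReal ((ψ x) ^ 2) := by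
    intro f hf
    show ∫⁻ x, f x ∂(volume.withDensity (fun x => ENNReal.ofReal ((ψ x) ^ 2))) = _
    rw [lintegral_withDensity_eq_lintegral_mul _ hψ2m hf]
    apply lintegral_congr
    intro x
    simp only [Pi.mul_apply]
    rw [mul_comm]
  have hμint : ∀ f : EuclideanSpace ℝ (Fin (N + 2)) → ℝ≥0∞, Measurable f →
      ∫⁻ x, f x ∂(measOfDensity ρ) = ∫⁻ x, f x * ENNReal.ofReal ((totalPsi e ψ x) ^ 2) := by
    intro f hf
    show ∫⁻ x, f x ∂(volume.withDensity (fun x => ENNReal.ofReal (ρ x))) = _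
    rw [lintegral_withDensity_eq_lintegral_mul _ hρm hf]
    apply lintegral_congr
    intro x
    simp only [Pi.mul_apply]
    rw [mul_comm]
  have hμ : ∀ f : EuclideanSpace ℝ (Fin (N + 2)) → ℝ≥0∞, Measurable f →
      ∫⁻ w, f w ∂(measOfDensity ρ) = ∫⁻ x, f x ∂m + 2⁻¹ * ∑ i, ∫⁻ x, f (S.YY i x) ∂m := by
    intro f hf
    rw [hμint f hf, total_lintegral he hes hψs hψc hKs' hd1' hd2' hf, hmint f hf]
    congr 2
    apply Finset.sum_congr rfl
    intro i _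
    rw [hmint (fun x => f (S.YY i x)) (hf.comp (Sys.measurable_YY i))]
    apply lintegral_congr
    intro x
    by_cases hx : x ∈ S.A
    · rw [hYY i x hx]
    · have hx' : x ∉ cube (N + 2) ε := fun h => hx (hA ▸ h)
      rw [hψz x hx']
      simp
  have hmA : m S.Aᶜ = 0 := by
    have hm : MeasurableSet S.Aᶜ := S.hAm.compl
    show (volume.withDensity (fun x => ENNReal.ofReal ((ψ x) ^ 2))) S.Aᶜ = 0
    rw [withDensity_apply _ hm]
    have : ∫⁻ x in S.Aᶜ, ENNReal.ofReal ((ψ x) ^ 2) = ∫⁻ _ in S.Aᶜ, 0 := by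
      apply setLIntegral_congr_fun hm
      intro x hx
      have hx' : x ∉ cube (N + 2) ε := fun h => hx (hA ▸ h)
      simp only
      rw [hψz x hx']
      simp
    rw [this]
    simp
  have hψsq : ∀ x, (ψ x) ^ 2 = a ^ 2 * (cubeBump (N + 2) ε x) ^ 2 := fun x => by
    show (a * cubeBump (N + 2) ε x) ^ 2 = _
    rw [mul_pow]
  have hmass : m univ = 3⁻¹ := by
    show (volume.withDensity (fun x => ENNReal.ofReal ((ψ x) ^ 2))) univ = 3⁻¹
    rw [withDensity_apply _ MeasurableSet.univ, setLIntegral_univ]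
    have hint : Integrable (fun x => (ψ x) ^ 2) := by
      have h1 : Continuous (fun x => (ψ x) ^ 2) := hψs.continuous.pow 2
      have h2 : HasCompactSupport (fun x => (ψ x) ^ 2) :=
        hψc.comp_left (g := fun r : ℝ => r ^ 2) (by simp)
      exact h1.integrable_of_hasCompactSupport h2
    rw [← ofReal_integral_eq_lintegral_ofReal hint (ae_of_all _ fun x => sq_nonneg _)]
    have h3 : ∫ x, (ψ x) ^ 2 = 1 / 3 := by
      simp_rw [hψsq]
      rw [integral_const_mul, ← hJdef, ha2]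
      field_simp
    rw [h3, one_div, ENNReal.ofReal_inv_of_pos (by norm_num), ENNReal.ofReal_ofNat]
  have hfin : IsFiniteMeasure m := ⟨by rw [hmass]; simp⟩
  have hsplit : ∀ d : ℝ, 0 < d → ∃ (Ψ dec : Fin 2 → EuclideanSpace ℝ (Fin (N + 2)) →
        EuclideanSpace ℝ (Fin (N + 2))) (R : Fin 2 → Set (EuclideanSpace ℝ (Fin (N + 2)))),
      (∀ j, Measurable (Ψ j)) ∧ (∀ j, Measurable (dec j)) ∧
      (∀ j, MeasurableSet (R j)) ∧ (∀ j, R j ⊆ S.A) ∧
      (∀ w, w ∈ R 0 → w ∈ R 1 → False) ∧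
      (∀ j, ∀ x ∈ S.A, Ψ j x ∈ R j) ∧ (∀ j, ∀ x ∈ S.A, dec j (Ψ j x) = x) ∧
      (∀ j, ∀ x ∈ S.A, ‖Ψ j x - x‖ ≤ d) ∧
      (∀ f : EuclideanSpace ℝ (Fin (N + 2)) → ℝ≥0∞, Measurable f →
        ∫⁻ x, f x ∂m = 2⁻¹ * (∫⁻ x, f (Ψ 0 x) ∂m + ∫⁻ x, f (Ψ 1 x) ∂m)) := by
    intro d hd
    obtain ⟨Ψ, dec, R, h1, h2, h3, h4, h5, h6, h7, h8, h9⟩ := exists_split N hε (a ^ 2) hd
    rw [← hA] at h4 h6 h7 h8
    refine ⟨Ψ, dec, R, h1, h2, h3, h4, h5, h6, h7, h8, ?_⟩
    intro f hf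
    rw [hmint f hf, hmint (fun x => f (Ψ 0 x)) (hf.comp (h1 0)),
      hmint (fun x => f (Ψ 1 x)) (hf.comp (h1 1))]
    simp_rw [hψW]
    exact h9 f hf
  refine ⟨ρ, fun x => sq_nonneg _, hTs.pow 2, hTc.comp_left (g := fun r : ℝ => r ^ 2) (by simp),
    ?_, ?_, ?_⟩
  · have : (fun x => Real.sqrt (ρ x)) = totalPsi e ψ := by
      funext x
      exact Real.sqrt_sq (hTn x)
    rw [this]
    exact hTs
  · have huniv := Sys.mu_univ hmass hμ
    have h1 : measOfDensity ρ univ = ∫⁻ x, ENNReal.ofReal (ρ x) := by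
      show (volume.withDensity (fun x => ENNReal.ofReal (ρ x))) univ = _
      rw [withDensity_apply _ MeasurableSet.univ, setLIntegral_univ]
    rw [integral_eq_lintegral_of_nonneg_ae (ae_of_all _ fun x => sq_nonneg _)
      hρcont.aestronglyMeasurable, ← h1, huniv]
    simp
  · exact Sys.abstract_main hmA hmass hμ hsplit

end Crest.Agent.Lib.NM
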