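import Crest.Agent.Lib.NM.Tangent

/-! Calculus of the gradient field `G`. -/

set_option autoImplicit false
open scoped RealInnerProductSpace ContDiff

namespace Crest.Agent.Lib.NM

variable {E : Type*} [NormedAddCommGroup E] [InnerProductSpace ℝ E]

/-- derivative of `G` -/
noncomputable def DG (s : ℝ) (r : E) : E →L[ℝ] E :=
  (-s * ‖r‖ ^ (-s - 2)) • ContinuousLinearMap.id ℝ E +
    (innerSL ℝ r).smulRight ((s * (s + 2) * ‖r‖ ^ (-s - 4)) • r)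

lemma DG_apply (s : ℝ) (r v : E) :
    DG s r v = (-s * ‖r‖ ^ (-s - 2)) • v + ⟪r, v⟫ • ((s * (s + 2) * ‖r‖ ^ (-s - 4)) • r) := by
  simp [DG]

lemma hasFDerivAt_G (s : ℝ) {r : E} (hr : r ≠ 0) : HasFDerivAt (G s) (DG s r) r := by
  have hn : ‖r‖ ≠ 0 := norm_ne_zero_iff.mpr hr
  have hn2 : ‖r‖ ^ 2 ≠ 0 := pow_ne_zero _ hn
  have h1 : HasFDerivAt (fun q : E => ‖q‖ ^ 2) (2 • innerSL ℝ r) r :=
    (hasStrictFDerivAt_norm_sq r).hasFDerivAt
  have h2 := h1.rpow_const (p := (-s - 2) / 2) (Or.inl hn2)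
  have h3 : HasFDerivAt (fun q : E => -s * (‖q‖ ^ 2) ^ ((-s - 2) / 2))
      (-s • (((-s - 2) / 2 * (‖r‖ ^ 2) ^ ((-s - 2) / 2 - 1)) • (2 • innerSL ℝ r))) r :=
    h2.const_mul (-s)
  have h4 := h3.smul (hasFDerivAt_id r)
  have e : G s = (fun q : E => -s * (‖q‖ ^ 2) ^ ((-s - 2) / 2)) • (id : E → E) := by
    funext q
    simp only [G, id, Pi.smul_apply']
    rw [norm_rpow_eq_sq q (-s - 2)]
  rw [e]
  refine h4.congr_fderiv ?_
  ext v
  rw [DG_apply]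
  simp only [ContinuousLinearMap.add_apply, ContinuousLinearMap.smul_apply,
    ContinuousLinearMap.smulRight_apply, ContinuousLinearMap.id_apply, id]
  have e1 : (‖r‖ ^ 2) ^ ((-s - 2) / 2) = ‖r‖ ^ (-s - 2) := (norm_rpow_eq_sq r _).symm
  have e2 : (‖r‖ ^ 2) ^ ((-s - 2) / 2 - 1) = ‖r‖ ^ (-s - 4) := by
    rw [norm_rpow_eq_sq r (-s - 4)]
    congr 1; ring
  rw [e1, e2]
  simp only [innerSL_apply_apply, nsmul_eq_mul, smul_eq_mul, Nat.cast_ofNat]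
  congr 1
  rw [smul_smul]
  congr 1
  ring

lemma contDiffAt_G (s : ℝ) {r : E} (hr : r ≠ 0) : ContDiffAt ℝ ∞ (G s) r := by
  have hn : ‖r‖ ≠ 0 := norm_ne_zero_iff.mpr hr
  have h1 : ContDiffAt ℝ ∞ (fun q : E => ‖q‖) r := contDiffAt_norm ℝ hr
  have h2 : ContDiffAt ℝ ∞ (fun q : E => ‖q‖ ^ (-s - 2)) r := h1.rpow_const_of_ne hn
  have h3 : ContDiffAt ℝ ∞ (fun q : E => -s * ‖q‖ ^ (-s - 2)) r := contDiffAt_const.mul h2
  exact h3.smul contDiffAt_id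

lemma contDiffAt_V (s : ℝ) {r : E} (hr : r ≠ 0) : ContDiffAt ℝ ∞ (V s) r := by
  have hn : ‖r‖ ≠ 0 := norm_ne_zero_iff.mpr hr
  have h1 : ContDiffAt ℝ ∞ (fun q : E => ‖q‖) r := contDiffAt_norm ℝ hr
  exact h1.rpow_const_of_ne hn

/-- value at a unit vector -/
lemma DG_unit (s : ℝ) {p : E} (hp : ‖p‖ = 1) (v : E) :
    DG s p v = (-s) • v + (s * (s + 2) * ⟪p, v⟫) • p := by
  rw [DG_apply, hp]
  simp only [Real.one_rpow, mul_one, smul_smul]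
  congr 1
  ring_nf

lemma DG_neg_unit (s : ℝ) {p : E} (hp : ‖p‖ = 1) (v : E) :
    DG s (-p) v = (-s) • v + (s * (s + 2) * ⟪p, v⟫) • p := by
  rw [DG_apply, norm_neg, hp]
  simp only [Real.one_rpow, mul_one, smul_smul, inner_neg_left, smul_neg]
  congr 1
  rw [← neg_smul]
  congr 1
  ring

/-- at twice a unit vector -/
lemma DG_two_unit (s : ℝ) {p : E} (hp : ‖p‖ = 1) (v : E) :
    DG s ((2 : ℝ) • p) v = (2 : ℝ) ^ (-s - 2) • DG s p v := by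
  rw [DG_unit s hp, DG_apply, norm_smul, hp]
  have h2 : (0 : ℝ) < 2 := by norm_num
  have e : (2 : ℝ) ^ (-s - 4) * 4 = (2 : ℝ) ^ (-s - 2) := by
    rw [show (-s - 2) = (-s - 4) + 2 by ring, Real.rpow_add h2]
    norm_num
  simp only [Real.norm_eq_abs, abs_of_pos h2, mul_one, inner_smul_left, smul_add, smul_smul,
    conj_trivial]
  congr 1
  · congr 1; ring
  · congr 1
    have : 2 * ⟪p, v⟫ * (s * (s + 2) * (2:ℝ) ^ (-s - 4) * 2)
        = s * (s + 2) * ⟪p, v⟫ * ((2 : ℝ) ^ (-s - 4) * 4) := by ring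
    rw [this, e]; ring

end Crest.Agent.Lib.NM
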