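import Mathlib

/-! Splitting Lebesgue measure on an interval by doubling inside small cells. -/

set_option autoImplicit false
open MeasureTheory Set
open scoped ENNReal

namespace Crest.Agent.Lib.NM

/-- the two branches of the doubling map inside a cell of size `L` -/
noncomputable def eL (L : ℝ) (j : ℕ) (u : ℝ) : ℝ :=
  L * (⌊u / L⌋ + (Int.fract (u / L) + j) / 2)

/-- the doubling map inside a cell of size `L` -/
noncomputable def dL (L w : ℝ) : ℝ := L * (⌊w / L⌋ + Int.fract (2 * Int.fract (w / L)))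

/-- the binary digit -/
noncomputable def bL (L w : ℝ) : ℤ := ⌊2 * Int.fract (w / L)⌋

lemma measurable_eL (L : ℝ) (j : ℕ) : Measurable (eL L j) := by
  unfold eL
  have h1 : Measurable (fun u : ℝ => ((⌊u / L⌋ : ℤ) : ℝ)) :=
    measurable_from_top.comp (Int.measurable_floor.comp (measurable_id.div_const L))
  have h2 : Measurable (fun u : ℝ => Int.fract (u / L)) :=
    measurable_fract.comp (measurable_id.div_const L)
  exact (h1.add ((h2.add_const _).div_const _)).const_mul L

lemma measurable_dL (L : ℝ) : Measurable (dL L) := by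
  unfold dL
  have h1 : Measurable (fun u : ℝ => ((⌊u / L⌋ : ℤ) : ℝ)) :=
    measurable_from_top.comp (Int.measurable_floor.comp (measurable_id.div_const L))
  have h2 : Measurable (fun u : ℝ => Int.fract (u / L)) :=
    measurable_fract.comp (measurable_id.div_const L)
  have h3 : Measurable (fun u : ℝ => Int.fract (2 * Int.fract (u / L))) :=
    measurable_fract.comp (h2.const_mul 2)
  exact (h1.add h3).const_mul L

lemma measurable_bL (L : ℝ) : Measurable (bL L) := by
  unfold bL
  have h2 : Measurable (fun u : ℝ => Int.fract (u / L)) :=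
    measurable_fract.comp (measurable_id.div_const L)
  exact Int.measurable_floor.comp (h2.const_mul 2)

lemma half_bounds {j : ℕ} (hj : j ≤ 1) {v : ℝ} (h0 : 0 ≤ v) (h1 : v < 1) :
    0 ≤ (v + j) / 2 ∧ (v + j) / 2 < 1 := by
  have : (j : ℝ) ≤ 1 := by exact_mod_cast hj
  have h3 : (0 : ℝ) ≤ j := by positivity
  constructor <;> linarith

lemma eL_div {L : ℝ} (hL : 0 < L) (j : ℕ) (u : ℝ) :
    eL L j u / L = ⌊u / L⌋ + (Int.fract (u / L) + j) / 2 := by
  unfold eL
  field_simp

lemma floor_eL {L : ℝ} (hL : 0 < L) {j : ℕ} (hj : j ≤ 1) (u : ℝ) :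
    ⌊eL L j u / L⌋ = ⌊u / L⌋ := by
  have h : ⌊(Int.fract (u / L) + j) / 2⌋ = 0 :=
    Int.floor_eq_zero_iff.mpr (half_bounds hj (Int.fract_nonneg _) (Int.fract_lt_one _))
  rw [eL_div hL, Int.floor_intCast_add, h, add_zero]

lemma fract_eL {L : ℝ} (hL : 0 < L) {j : ℕ} (hj : j ≤ 1) (u : ℝ) :
    Int.fract (eL L j u / L) = (Int.fract (u / L) + j) / 2 := by
  rw [eL_div hL, Int.fract_intCast_add, Int.fract_eq_self]
  exact half_bounds hj (Int.fract_nonneg _) (Int.fract_lt_one _)

lemma dL_eL {L : ℝ} (hL : 0 < L) {j : ℕ} (hj : j ≤ 1) (u : ℝ) : dL L (eL L j u) = u := by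
  unfold dL
  rw [floor_eL hL hj, fract_eL hL hj]
  have e1 : 2 * ((Int.fract (u / L) + j) / 2) = Int.fract (u / L) + j := by ring
  rw [e1, Int.fract_add_natCast, Int.fract_fract]
  have e2 : (⌊u / L⌋ : ℝ) + Int.fract (u / L) = u / L := Int.floor_add_fract _
  rw [e2]
  field_simp

lemma bL_eL {L : ℝ} (hL : 0 < L) {j : ℕ} (hj : j ≤ 1) (u : ℝ) : bL L (eL L j u) = j := by
  unfold bL
  rw [fract_eL hL hj]
  have e1 : 2 * ((Int.fract (u / L) + j) / 2) = Int.fract (u / L) + j := by ring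
  have h : ⌊Int.fract (u / L)⌋ = 0 :=
    Int.floor_eq_zero_iff.mpr ⟨Int.fract_nonneg _, Int.fract_lt_one _⟩
  rw [e1, Int.floor_add_natCast, h, zero_add]

lemma eL_dist {L : ℝ} (hL : 0 < L) {j : ℕ} (hj : j ≤ 1) (u : ℝ) : |eL L j u - u| ≤ L := by
  have e : eL L j u - u = L * ((j - Int.fract (u / L)) / 2) := by
    have e2 : (⌊u / L⌋ : ℝ) = u / L - Int.fract (u / L) := by
      have := Int.floor_add_fract (u / L)
      linarith
    unfold eL
    rw [e2]
    field_simp
    ring
  rw [e, abs_mul, abs_of_pos hL]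
  have h0 := Int.fract_nonneg (u / L)
  have h1 := Int.fract_lt_one (u / L)
  have hj' : (j : ℝ) ≤ 1 := by exact_mod_cast hj
  have hj0 : (0 : ℝ) ≤ j := by positivity
  have : |((j : ℝ) - Int.fract (u / L)) / 2| ≤ 1 := by
    rw [abs_le]
    constructor <;> linarith
  nlinarith

lemma eL_range {L : ℝ} (hL : 0 < L) {j : ℕ} (hj : j ≤ 1) {N : ℕ} {u : ℝ}
    (hu : u ∈ Ioo 0 (N * L)) : eL L j u ∈ Ioo 0 (N * L) := by
  have h1 : 0 < u / L := div_pos hu.1 hL
  have h2 : u / L < N := by
    rw [div_lt_iff₀ hL]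
    exact hu.2
  have hk0 : 0 ≤ ⌊u / L⌋ := Int.floor_nonneg.mpr h1.le
  have hk1 : ⌊u / L⌋ < N := Int.floor_lt.mpr (by exact_mod_cast h2)
  have hk1' : ((⌊u / L⌋ : ℤ) : ℝ) + 1 ≤ N := by
    have : ⌊u / L⌋ + 1 ≤ (N : ℤ) := hk1
    exact_mod_cast this
  have hk0' : (0 : ℝ) ≤ ((⌊u / L⌋ : ℤ) : ℝ) := by exact_mod_cast hk0
  obtain ⟨h3, h4⟩ := half_bounds hj (Int.fract_nonneg (u / L)) (Int.fract_lt_one (u / L))
  constructor
  · unfold eL
    apply mul_pos hL
    have hsum := Int.floor_add_fract (u / L)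
    have hj0 : (0 : ℝ) ≤ j := by positivity
    have h5 := Int.fract_nonneg (u / L)
    by_cases hf : Int.fract (u / L) = 0
    · have hk : (0 : ℝ) < ((⌊u / L⌋ : ℤ) : ℝ) := by
        rw [hf, add_zero] at hsum
        linarith
      linarith
    · have h6 : 0 < Int.fract (u / L) := lt_of_le_of_ne h5 (Ne.symm hf)
      linarith
  · unfold eL
    have : (⌊u / L⌋ : ℝ) + (Int.fract (u / L) + j) / 2 < N := by linarith
    calc L * ((⌊u / L⌋ : ℝ) + (Int.fract (u / L) + j) / 2) < L * N :=
          mul_lt_mul_of_pos_left this hL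
      _ = N * L := mul_comm _ _

lemma eL_on_cell {L : ℝ} (hL : 0 < L) (j : ℕ) (k : ℕ) {u : ℝ}
    (hu : u ∈ Ico (k * L) (k * L + L)) : eL L j u = (u + (k * L + j * L)) / 2 := by
  have h1 : ⌊u / L⌋ = (k : ℤ) := by
    rw [Int.floor_eq_iff]
    constructor
    · rw [le_div_iff₀ hL]
      exact_mod_cast hu.1
    · rw [div_lt_iff₀ hL]
      have := hu.2
      push_cast
      nlinarith
  have h2 : Int.fract (u / L) = u / L - k := by
    unfold Int.fract
    rw [h1]
    simp
  unfold eL
  rw [h1, h2]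
  push_cast
  field_simp
  ring

lemma ofReal_half : ENNReal.ofReal (1 / 2) = 2⁻¹ := by
  rw [one_div, ENNReal.ofReal_inv_of_pos two_pos, ENNReal.ofReal_ofNat]

/-- affine substitution with slope one half -/
lemma lintegral_half_subst (a b c : ℝ) (F : ℝ → ℝ≥0∞) :
    ∫⁻ u in ((fun u => (u + c) / 2) '' Ico a b), F u
      = 2⁻¹ * ∫⁻ u in Ico a b, F ((u + c) / 2) := by
  have h := lintegral_image_eq_lintegral_abs_deriv_mul (s := Ico a b)
    (f := fun u => (u + c) / 2) (f' := fun _ => 1 / 2) measurableSet_Ico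
    (fun u _ => (((hasDerivAt_id u).add_const c).div_const 2).hasDerivWithinAt)
    (fun x _ y _ hxy => by
      have : x + c = y + c := by
        have h2 : (x + c) / 2 = (y + c) / 2 := hxy
        linarith
      linarith) F
  rw [h]
  simp only [abs_of_pos (by norm_num : (0 : ℝ) < 1 / 2), ofReal_half]
  rw [lintegral_const_mul' _ _ (by simp)]

lemma image_half_Ico (a b c : ℝ) :
    (fun u => (u + c) / 2) '' Ico a b = Ico ((a + c) / 2) ((b + c) / 2) := by
  ext w
  constructor
  · rintro ⟨u, hu, rfl⟩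
    exact ⟨by have := hu.1; simp only; linarith, by have := hu.2; simp only; linarith⟩
  · rintro ⟨h1, h2⟩
    refine ⟨2 * w - c, ⟨by linarith, by linarith⟩, ?_⟩
    simp only
    ring

/-- the identity on one cell -/
lemma cell_id {F : ℝ → ℝ≥0∞} (a L : ℝ) (hL : 0 < L) :
    ∫⁻ u in Ico a (a + L), F u = 2⁻¹ * ((∫⁻ u in Ico a (a + L), F ((u + a) / 2))
      + (∫⁻ u in Ico a (a + L), F ((u + (a + L)) / 2))) := by
  have h1 := lintegral_half_subst a (a + L) a F
  have h2 := lintegral_half_subst a (a + L) (a + L) F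
  rw [image_half_Ico] at h1 h2
  rw [mul_add, ← h1, ← h2]
  have e1 : (a + a) / 2 = a := by ring
  have e2 : (a + L + a) / 2 = a + L / 2 := by ring
  have e3 : (a + (a + L)) / 2 = a + L / 2 := by ring
  have e4 : (a + L + (a + L)) / 2 = a + L := by ring
  rw [e1, e2, e3, e4, ← lintegral_union measurableSet_Ico, Ico_union_Ico_eq_Ico]
  · linarith
  · linarith
  · exact Ico_disjoint_Ico_same

/-- the identity for many cells -/
lemma split_cells {F : ℝ → ℝ≥0∞} {L : ℝ} (hL : 0 < L) (N : ℕ) :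
    ∫⁻ u in Ico 0 (N * L), F u = 2⁻¹ * ((∫⁻ u in Ico 0 (N * L), F (eL L 0 u))
      + (∫⁻ u in Ico 0 (N * L), F (eL L 1 u))) := by
  induction N with
  | zero => simp
  | succ n ih =>
    have hsplit : Ico (0 : ℝ) (((n + 1 : ℕ) : ℝ) * L)
        = Ico 0 (n * L) ∪ Ico (n * L) (n * L + L) := by
      push_cast
      rw [add_mul, one_mul, Ico_union_Ico_eq_Ico (by positivity) (by linarith)]
    have hd : Disjoint (Ico (0 : ℝ) (n * L)) (Ico (n * L) (n * L + L)) := Ico_disjoint_Ico_same
    rw [hsplit, lintegral_union measurableSet_Ico hd, lintegral_union measurableSet_Ico hd,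
      lintegral_union measurableSet_Ico hd, ih, cell_id (n * L) L hL]
    have c0 : ∫⁻ u in Ico (n * L) (n * L + L), F (eL L 0 u)
        = ∫⁻ u in Ico (n * L) (n * L + L), F ((u + n * L) / 2) := by
      apply setLIntegral_congr_fun measurableSet_Ico
      intro u hu
      simp only
      rw [eL_on_cell hL 0 n hu]
      congr 2
      push_cast
      ring
    have c1 : ∫⁻ u in Ico (n * L) (n * L + L), F (eL L 1 u)
        = ∫⁻ u in Ico (n * L) (n * L + L), F ((u + (n * L + L)) / 2) := by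
      apply setLIntegral_congr_fun measurableSet_Ico
      intro u hu
      simp only
      rw [eL_on_cell hL 1 n hu]
      congr 2
      push_cast
      ring
    rw [c0, c1]
    ring

end Crest.Agent.Lib.NM
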