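import Mathlib

/-! Local diffeomorphisms from the inverse function theorem, in finite dimension. -/

set_option autoImplicit false
open scoped ContDiff Topology
open Set

namespace Crest.Agent.Lib.NM

variable {F : Type*} [NormedAddCommGroup F] [NormedSpace ℝ F] [FiniteDimensional ℝ F]

lemma exists_equiv_of_det_ne {A : F →L[ℝ] F} (h : A.det ≠ 0) :
    ∃ B : F ≃L[ℝ] F, (B : F →L[ℝ] F) = A := by
  have hu : IsUnit (A : F →ₗ[ℝ] F) :=
    (LinearMap.isUnit_iff_isUnit_det _).mpr (isUnit_iff_ne_zero.mpr h)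
  have hinj : Function.Injective (A : F →ₗ[ℝ] F) :=
    (Module.End.isUnit_iff _).mp hu |>.1
  refine ⟨(LinearEquiv.ofInjectiveEndo (A : F →ₗ[ℝ] F) hinj).toContinuousLinearEquiv, ?_⟩
  ext v
  simp

lemma det_ne_of_injective {A : F →L[ℝ] F} (h : Function.Injective A) : A.det ≠ 0 := by
  have hu : IsUnit (A : F →ₗ[ℝ] F) := by
    rw [Module.End.isUnit_iff]
    exact ⟨h, LinearMap.injective_iff_surjective.mp h⟩
  have := (LinearMap.isUnit_iff_isUnit_det _).mp hu
  exact this.ne_zero

/-- A map, smooth on an open set, with injective derivative at a point, restricts to a smooth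
partial homeomorphism with smooth inverse near the point. -/
lemma exists_localDiffeo {f : F → F} {a : F} {U : Set F} (hU : IsOpen U) (ha : a ∈ U)
    (hf : ContDiffOn ℝ ∞ f U) (hinj : Function.Injective (fderiv ℝ f a)) :
    ∃ e : OpenPartialHomeomorph F F, a ∈ e.source ∧ e.source ⊆ U ∧ (∀ x, e x = f x) ∧
      ContDiffOn ℝ ∞ e e.source ∧ ContDiffOn ℝ ∞ e.symm e.target := by
  have hfa : ContDiffAt ℝ ∞ f a := hf.contDiffAt (hU.mem_nhds ha)
  have hdiff : DifferentiableAt ℝ f a := hfa.differentiableAt (by simp)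
  obtain ⟨L, hL⟩ := exists_equiv_of_det_ne (det_ne_of_injective hinj)
  have hL' : HasFDerivAt f (L : F →L[ℝ] F) a := by rw [hL]; exact hdiff.hasFDerivAt
  let e₀ := hfa.toOpenPartialHomeomorph f hL' (by simp)
  have he₀ : (e₀ : F → F) = f := hfa.toOpenPartialHomeomorph_coe hL' (by simp)
  have hcont : ContinuousOn (fun x => (fderiv ℝ f x).det) U :=
    ContinuousLinearMap.continuous_det.comp_continuousOn
      (hf.continuousOn_fderiv_of_isOpen hU (by simp))
  have hU₁ : IsOpen (U ∩ (fun x => (fderiv ℝ f x).det) ⁻¹' {0}ᶜ) :=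
    hcont.isOpen_inter_preimage hU isOpen_compl_singleton
  let e := e₀.restrOpen _ hU₁
  have hes : e.source = e₀.source ∩ (U ∩ (fun x => (fderiv ℝ f x).det) ⁻¹' {0}ᶜ) :=
    e₀.restrOpen_source _ hU₁
  have hcoe : (e : F → F) = f := by
    change (e₀ : F → F) = f
    exact he₀
  refine ⟨e, ?_, ?_, ?_, ?_, ?_⟩
  · rw [hes]
    refine ⟨hfa.mem_toOpenPartialHomeomorph_source hL' (by simp), ha, ?_⟩
    exact det_ne_of_injective hinj
  · rw [hes]
    exact fun x hx => hx.2.1
  · intro x; rw [hcoe]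
  · rw [hcoe]
    refine hf.mono ?_
    rw [hes]
    exact fun x hx => hx.2.1
  · intro y hy
    have hx : e.symm y ∈ e.source := e.map_target hy
    rw [hes] at hx
    have hxU : e.symm y ∈ U := hx.2.1
    have hdet : (fderiv ℝ f (e.symm y)).det ≠ 0 := hx.2.2
    obtain ⟨B, hB⟩ := exists_equiv_of_det_ne hdet
    have hfx : ContDiffAt ℝ ∞ f (e.symm y) := hf.contDiffAt (hU.mem_nhds hxU)
    refine (e.contDiffAt_symm (f₀' := B) hy ?_ ?_).contDiffWithinAt
    · rw [hB, hcoe]
      exact (hfx.differentiableAt (by simp)).hasFDerivAt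
    · rw [hcoe]; exact hfx

/-- derivative of a smooth inverse is injective; the chain rule. -/
lemma fderiv_symm_injective (e : OpenPartialHomeomorph F F)
    (he : ContDiffOn ℝ ∞ e e.source) (hs : ContDiffOn ℝ ∞ e.symm e.target) {y : F}
    (hy : y ∈ e.target) : Function.Injective (fderiv ℝ e.symm y) := by
  have hy' : e.symm y ∈ e.source := e.map_target hy
  have h1 : HasFDerivAt e.symm (fderiv ℝ e.symm y) y :=
    ((hs.contDiffAt (e.open_target.mem_nhds hy)).differentiableAt (by simp)).hasFDerivAt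
  have h2 : HasFDerivAt e (fderiv ℝ e (e.symm y)) (e.symm y) :=
    ((he.contDiffAt (e.open_source.mem_nhds hy')).differentiableAt (by simp)).hasFDerivAt
  have h3 := h2.comp y h1
  have h4 : HasFDerivAt (e ∘ e.symm) (ContinuousLinearMap.id ℝ F) y := by
    refine (hasFDerivAt_id y).congr_of_eventuallyEq ?_
    filter_upwards [e.open_target.mem_nhds hy] with z hz
    exact e.right_inv hz
  have h5 := h3.unique h4
  intro a b hab
  have := congrArg (fun T : F →L[ℝ] F => T a) h5
  have h6 := congrArg (fun T : F →L[ℝ] F => T b) h5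
  simp only [ContinuousLinearMap.coe_comp, Function.comp, ContinuousLinearMap.id_apply] at this h6
  rw [← this, ← h6, hab]

end Crest.Agent.Lib.NM
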