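import Crest.Agent.Lib.NM.Abs

/-! The abstract main theorem for a system. -/

set_option autoImplicit false
set_option linter.unusedSectionVars false
open scoped ENNReal RealInnerProductSpace
open Set MeasureTheory
open Crest.AnalysisR.OT

namespace Crest.Agent.Lib.NM

namespace Sys

variable {E : Type*} [NormedAddCommGroup E] [InnerProductSpace ℝ E] [MeasurableSpace E]
  [BorelSpace E] [SecondCountableTopology E] (S : Sys E)

/-- the four sheets -/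
noncomputable def YY : Fin 4 → E → E :=
  ![S.Y, S.Z, fun x => S.σ (S.Y (S.σ x)), fun x => S.σ (S.Z (S.σ x))]

/-- their inverses -/
noncomputable def YYi : Fin 4 → E → E :=
  ![S.Yi, S.Zi, fun x => S.σ (S.Yi (S.σ x)), fun x => S.σ (S.Zi (S.σ x))]

/-- the four patches -/
def PP : Fin 4 → Set E := ![S.P1, S.P2, S.P3, S.P4]

variable {S}

lemma YY_mem_PP (i : Fin 4) {x : E} (hx : x ∈ S.A) : S.YY i x ∈ S.PP i := by
  fin_cases i
  · exact Y_mem_P1 hx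
  · exact Z_mem_P2 hx
  · exact sY_mem_P3 (S.hσA x hx)
  · exact sZ_mem_P4 (S.hσA x hx)

lemma PP_sub_Out (i : Fin 4) : S.PP i ⊆ S.Out := by
  intro w hw
  fin_cases i
  · exact Or.inl (Or.inl (Or.inl hw))
  · exact Or.inl (Or.inl (Or.inr hw))
  · exact Or.inl (Or.inr hw)
  · exact Or.inr hw

lemma YY_mem_SS (i : Fin 4) {x : E} (hx : x ∈ S.A) : S.YY i x ∈ S.SS :=
  Or.inr (PP_sub_Out i (YY_mem_PP i hx))

lemma PP_not_A (i : Fin 4) {w : E} (h : w ∈ S.PP i) : w ∉ S.A := by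
  fin_cases i
  · exact P1_not_A h
  · exact P2_not_A h
  · exact P3_not_A h
  · exact P4_not_A h

lemma PP_disj {i k : Fin 4} (hik : i ≠ k) {w : E} (hi : w ∈ S.PP i) (hk : w ∈ S.PP k) : False := by
  fin_cases i <;> fin_cases k <;> first
    | exact hik rfl
    | exact P2_not_P1 hi hk
    | exact P3_not_P1 hi hk
    | exact P4_not_P1 hi hk
    | exact P3_not_P2 hi hk
    | exact P4_not_P2 hi hk
    | exact P4_not_P3 hi hk
    | exact P2_not_P1 hk hi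
    | exact P3_not_P1 hk hi
    | exact P4_not_P1 hk hi
    | exact P3_not_P2 hk hi
    | exact P4_not_P2 hk hi
    | exact P4_not_P3 hk hi

lemma measurable_YY (i : Fin 4) : Measurable (S.YY i) := by
  fin_cases i
  · exact S.hYm
  · exact S.hZm
  · exact measurable_sigma.comp (S.hYm.comp measurable_sigma)
  · exact measurable_sigma.comp (S.hZm.comp measurable_sigma)

lemma measurable_YYi (i : Fin 4) : Measurable (S.YYi i) := by
  fin_cases i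
  · exact S.hYim
  · exact S.hZim
  · exact measurable_sigma.comp (S.hYim.comp measurable_sigma)
  · exact measurable_sigma.comp (S.hZim.comp measurable_sigma)

lemma YYi_YY (i : Fin 4) {x : E} (hx : x ∈ S.A) : S.YYi i (S.YY i x) = x := by
  fin_cases i
  · exact S.hYi x hx
  · exact S.hZi x hx
  · show S.σ (S.Yi (S.σ (S.σ (S.Y (S.σ x))))) = x
    rw [S.hσσ, S.hYi _ (S.hσA x hx), S.hσσ]
  · show S.σ (S.Zi (S.σ (S.σ (S.Z (S.σ x))))) = x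
    rw [S.hσσ, S.hZi _ (S.hσA x hx), S.hσσ]

lemma PP_measurable (i : Fin 4) : MeasurableSet (S.PP i) := by
  fin_cases i
  · exact S.hP1m
  · exact S.hP2m
  · exact measurableSet_P3
  · exact measurableSet_P4

lemma YY_image (i : Fin 4) : S.YY i '' S.A = S.PP i := by
  apply Subset.antisymm
  · rintro _ ⟨x, hx, rfl⟩
    exact YY_mem_PP i hx
  · intro w hw
    fin_cases i
    · exact hw
    · exact hw
    · obtain ⟨_, ⟨x, hx, rfl⟩, rfl⟩ := hw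
      refine ⟨S.σ x, S.hσA x hx, ?_⟩
      show S.σ (S.Y (S.σ (S.σ x))) = _
      rw [S.hσσ]
    · obtain ⟨_, ⟨x, hx, rfl⟩, rfl⟩ := hw
      refine ⟨S.σ x, S.hσA x hx, ?_⟩
      show S.σ (S.Z (S.σ (S.σ x))) = _
      rw [S.hσσ]

variable (S)

/-- the labelled family of maps -/
noncomputable def iota (Ψ : Fin 2 → E → E) (a : Fin 2 × Fin 3) : E → E :=
  ![![Ψ 0, S.YY 0, S.YY 1], ![Ψ 1, S.YY 2, S.YY 3]] a.1 a.2

variable {S}

lemma sum_iota (Ψ : Fin 2 → E → E) (g : (E → E) → ℝ≥0∞) :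
    ∑ a, g (S.iota Ψ a) = g (Ψ 0) + g (Ψ 1) + ∑ i, g (S.YY i) := by
  rw [Fintype.sum_prod_type, Fin.sum_univ_two, Fin.sum_univ_three, Fin.sum_univ_three,
    Fin.sum_univ_four]
  simp only [iota, Matrix.cons_val_zero, Matrix.cons_val_one, Matrix.cons_val]
  ring

lemma iota_measurable {Ψ : Fin 2 → E → E} (hΨ : ∀ j, Measurable (Ψ j)) (a : Fin 2 × Fin 3) :
    Measurable (S.iota Ψ a) := by
  obtain ⟨j, r⟩ := a
  fin_cases j <;> fin_cases r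
  · exact hΨ 0
  · exact measurable_YY 0
  · exact measurable_YY 1
  · exact hΨ 1
  · exact measurable_YY 2
  · exact measurable_YY 3

/-- cycle on labels -/
def tauE : Fin 2 × Fin 3 ≃ Fin 2 × Fin 3 := (Equiv.refl _).prodCongr (Equiv.addRight 1)

lemma cost_cycle (Ψ : Fin 2 → E → E) (s : ℝ) (a : Fin 2 × Fin 3) (x : E) :
    tripleCost s (S.iota Ψ a x, S.iota Ψ (tauE a) x, S.iota Ψ (tauE (tauE a)) x)
      = tripleCost s (S.iota Ψ (a.1, 0) x, S.iota Ψ (a.1, 1) x, S.iota Ψ (a.1, 2) x) := by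
  obtain ⟨j, r⟩ := a
  fin_cases r
  · rfl
  · exact (tripleCost_perm1 s _ _ _).symm
  · exact tripleCost_perm1 s _ _ _

lemma sum_fin23 (g : Fin 2 → ℝ≥0∞) :
    ∑ a : Fin 2 × Fin 3, g a.1 = 3 * (g 0 + g 1) := by
  rw [Fintype.sum_prod_type, Fin.sum_univ_two, Fin.sum_univ_three, Fin.sum_univ_three]
  simp only
  ring

section model

variable {m μ : Measure E}

lemma inv2_add_self (a : ℝ≥0∞) : 2⁻¹ * (a + a) = a := by
  rw [← two_mul, ← mul_assoc, ENNReal.inv_mul_cancel two_ne_zero ENNReal.ofNat_ne_top, one_mul]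

/-- the measure in model form -/
lemma hmodel (hμ : ∀ f : E → ℝ≥0∞, Measurable f →
      ∫⁻ w, f w ∂μ = ∫⁻ x, f x ∂m + 2⁻¹ * ∑ i, ∫⁻ x, f (S.YY i x) ∂m)
    {Ψ : Fin 2 → E → E} (hΨ : ∀ f : E → ℝ≥0∞, Measurable f →
      ∫⁻ x, f x ∂m = 2⁻¹ * (∫⁻ x, f (Ψ 0 x) ∂m + ∫⁻ x, f (Ψ 1 x) ∂m))
    {f : E → ℝ≥0∞} (hf : Measurable f) :
    ∫⁻ w, f w ∂μ = 2⁻¹ * ∑ a, ∫⁻ x, f (S.iota Ψ a x) ∂m := by
  rw [hμ f hf, sum_iota Ψ (fun h => ∫⁻ x, f (h x) ∂m), mul_add, ← hΨ f hf]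

/-- identity choice -/
abbrev idΨ : Fin 2 → E → E := fun _ x => x

lemma hΨ_id (f : E → ℝ≥0∞) (_hf : Measurable f) :
    ∫⁻ x, f x ∂m = 2⁻¹ * (∫⁻ x, f (idΨ 0 x) ∂m + ∫⁻ x, f (idΨ 1 x) ∂m) := by
  exact (inv2_add_self _).symm

end model

section estimates

/-- size of the gradient -/
lemma norm_G_le {s : ℝ} (hs : 0 < s) {r : E} (hr : 1 / 2 ≤ ‖r‖) :
    ‖G s r‖ ≤ s * (2 : ℝ) ^ (s + 1) := by
  have hr0 : 0 < ‖r‖ := by linarith
  unfold G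
  rw [norm_smul, norm_mul, norm_neg, Real.norm_of_nonneg hs.le,
    Real.norm_of_nonneg (by positivity)]
  have e : ‖r‖ ^ (-s - 2) * ‖r‖ = ‖r‖ ^ (-s - 1) := by
    have : (-s - 1) = (-s - 2) + 1 := by ring
    rw [this, Real.rpow_add hr0, Real.rpow_one]
  rw [mul_assoc, e]
  apply mul_le_mul_of_nonneg_left _ hs.le
  have h1 : ‖r‖ ^ (-s - 1) ≤ (1 / 2 : ℝ) ^ (-s - 1) :=
    Real.rpow_le_rpow_of_nonpos (by norm_num) hr (by linarith)
  have h2 : (1 / 2 : ℝ) ^ (-s - 1) = (2 : ℝ) ^ (s + 1) := by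
    rw [one_div, Real.inv_rpow (by norm_num), ← Real.rpow_neg (by norm_num)]
    congr 1; ring
  rwa [h2] at h1

lemma V_shift {x x' y : E} (hx : x ∈ S.A) (hx' : x' ∈ S.A) (hy : y ∈ S.Out) {d : ℝ}
    (hd : ‖x' - x‖ ≤ d) :
    V S.s (x' - y) ≤ V S.s (x - y) + (S.s * (2 : ℝ) ^ (S.s + 1) * d
      + S.s * (2 : ℝ) ^ (S.s + 2) / 2 * d ^ 2) := by
  have hs := S.hs
  have h1 := S.hA x hx
  have h1' := S.hA x' hx'
  have h2 := S.hδ1
  have hy1 : 1 - S.δ < ‖y‖ := by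
    have key : ∀ c : E, ‖c‖ = 1 → ‖y - c‖ < S.δ → 1 - S.δ < ‖y‖ := by
      intro c hc h
      have e : c = y - (y - c) := by abel
      have h3 : ‖c‖ ≤ ‖y‖ + ‖y - c‖ := by
        conv_lhs => rw [e]
        exact norm_sub_le _ _
      linarith
    rcases hy with ((h | h) | h) | h
    · exact key _ S.hp (mem_P1_dist h)
    · exact key _ (by rw [norm_neg, S.hp]) (mem_P2_dist h)
    · exact key _ S.norm_sigma_p (mem_P3_dist h)
    · exact key _ (by rw [norm_neg, S.norm_sigma_p]) (mem_P4_dist h)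
  have big : ∀ v : E, ‖v‖ < S.δ → 1 / 2 ≤ ‖v - y‖ := by
    intro v hv
    have e : y = v - (v - y) := by abel
    have h3 : ‖y‖ ≤ ‖v‖ + ‖v - y‖ := by
      conv_lhs => rw [e]
      exact norm_sub_le _ _
    linarith
  have b0 := big x' h1'
  have b1 := big x h1
  have r0 : x' - y ≠ 0 := by
    intro h; rw [h, norm_zero] at b0; norm_num at b0
  have r1 : x - y ≠ 0 := by
    intro h; rw [h, norm_zero] at b1; norm_num at b1
  have t := V_tangent hs r0 r1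
  have e : x - y - (x' - y) = -(x' - x) := by abel
  rw [e, inner_neg_right, norm_neg] at t
  have h3 := real_inner_le_norm (G S.s (x' - y)) (x' - x)
  have h4 := norm_G_le hs b0
  have h5 := K_bound (S := S) (r := x' - y) b0
  have hd0 : 0 ≤ d := (norm_nonneg _).trans hd
  have h6 : ‖G S.s (x' - y)‖ * ‖x' - x‖ ≤ S.s * (2 : ℝ) ^ (S.s + 1) * d :=
    mul_le_mul h4 hd (norm_nonneg _) (by positivity)
  have h7 : ‖x' - x‖ ^ 2 ≤ d ^ 2 := by gcongr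
  have h8 : S.s * ‖x' - y‖ ^ (-S.s - 2) * ‖x' - x‖ ^ 2 ≤ S.s * (2 : ℝ) ^ (S.s + 2) * d ^ 2 :=
    mul_le_mul h5 h7 (by positivity) (by positivity)
  have e1 : S.s * ‖x' - y‖ ^ (-S.s - 2) / 2 * ‖x' - x‖ ^ 2
      = (S.s * ‖x' - y‖ ^ (-S.s - 2) * ‖x' - x‖ ^ 2) / 2 := by ring
  have e2 : S.s * (2 : ℝ) ^ (S.s + 2) / 2 * d ^ 2 = (S.s * (2 : ℝ) ^ (S.s + 2) * d ^ 2) / 2 := by
    ring
  rw [e1] at t
  rw [e2]
  linarith

/-- moving the first point slightly -/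
lemma cost_shift {x x' y z : E} (hx : x ∈ S.A) (hx' : x' ∈ S.A) (hy : y ∈ S.Out) (hz : z ∈ S.Out)
    (hyz : y ≠ z) {d : ℝ} (hd : ‖x' - x‖ ≤ d) :
    tripleCost S.s (x', y, z) ≤ tripleCost S.s (x, y, z) + ENNReal.ofReal
      (2 * (S.s * (2 : ℝ) ^ (S.s + 1) * d + S.s * (2 : ℝ) ^ (S.s + 2) / 2 * d ^ 2)) := by
  have notA : ∀ {w v : E}, w ∈ S.A → v ∈ S.Out → w ≠ v := by
    rintro w v hw hv rfl
    rcases hv with ((h | h) | h) | h
    · exact P1_not_A h hw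
    · exact P2_not_A h hw
    · exact P3_not_A h hw
    · exact P4_not_A h hw
  rw [tripleCost_of_ne (notA hx' hy) (notA hx' hz) hyz, tripleCost_of_ne (notA hx hy) (notA hx hz) hyz]
  have h1 := V_shift hx hx' hy hd
  have h2 := V_shift hx hx' hz hd
  have hnn : 0 ≤ cc S.s x y z := by
    have := cc_nonneg_parts S.s x y z
    unfold cc
    linarith [this.1, this.2.1, this.2.2]
  have hd0 : 0 ≤ d := (norm_nonneg _).trans hd
  have hL : 0 ≤ 2 * (S.s * (2 : ℝ) ^ (S.s + 1) * d + S.s * (2 : ℝ) ^ (S.s + 2) / 2 * d ^ 2) := by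
    have := S.hs
    positivity
  rw [← ENNReal.ofReal_add hnn hL]
  apply ENNReal.ofReal_le_ofReal
  unfold cc
  unfold V at h1 h2
  linarith

end estimates

section main

variable {m μ : Measure E}

variable (S)

/-- the cyclic plans -/
noncomputable def planMap (Ψ : Fin 2 → E → E) (a : Fin 2 × Fin 3) : E → E × E × E :=
  fun x => (S.iota Ψ a x, S.iota Ψ (tauE a) x, S.iota Ψ (tauE (tauE a)) x)

/-- the optimal plan -/
noncomputable def pi0 (m : Measure E) : Measure (E × E × E) :=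
  (2⁻¹ : ℝ≥0∞) • ∑ a, m.map (S.planMap idΨ a)

variable {S}

lemma planMap_measurable {Ψ : Fin 2 → E → E} (hΨ : ∀ j, Measurable (Ψ j)) (a : Fin 2 × Fin 3) :
    Measurable (S.planMap Ψ a) :=
  (iota_measurable hΨ a).prodMk ((iota_measurable hΨ _).prodMk (iota_measurable hΨ _))

lemma idΨ_measurable : ∀ j, Measurable ((idΨ : Fin 2 → E → E) j) := fun _ => measurable_id

lemma lintegral_pi0 {g : E × E × E → ℝ≥0∞} (hg : Measurable g) :
    ∫⁻ q, g q ∂(S.pi0 m) = 2⁻¹ * ∑ a, ∫⁻ x, g (S.planMap idΨ a x) ∂m := by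
  unfold pi0
  rw [lintegral_smul_measure, lintegral_finsetSum_measure, smul_eq_mul]
  congr 1
  apply Finset.sum_congr rfl
  intro a _
  rw [lintegral_map hg (planMap_measurable idΨ_measurable a)]

lemma pi0_coupling (hμ : ∀ f : E → ℝ≥0∞, Measurable f →
      ∫⁻ w, f w ∂μ = ∫⁻ x, f x ∂m + 2⁻¹ * ∑ i, ∫⁻ x, f (S.YY i x) ∂m) :
    IsCoupling₃ μ (S.pi0 m) := by
  have m1 : Measurable (fun q : E × E × E => q.1) := measurable_fst
  have m2 : Measurable (fun q : E × E × E => q.2.1) := measurable_fst.comp measurable_snd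
  have m3 : Measurable (fun q : E × E × E => q.2.2) := measurable_snd.comp measurable_snd
  have key := fun (f : E → ℝ≥0∞) (hf : Measurable f) => hmodel hμ (Ψ := idΨ) (hΨ_id (m := m)) hf
  refine ⟨?_, ?_, ?_⟩
  · refine Measure.ext_of_lintegral _ fun f hf => ?_
    rw [lintegral_map hf m1, lintegral_pi0 (g := fun q => f q.1) (hf.comp m1), key f hf]
    rfl
  · refine Measure.ext_of_lintegral _ fun f hf => ?_
    rw [lintegral_map hf m2, lintegral_pi0 (g := fun q => f q.2.1) (hf.comp m2), key f hf]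
    congr 1
    exact Equiv.sum_comp tauE (fun a => ∫⁻ x, f (S.iota idΨ a x) ∂m)
  · refine Measure.ext_of_lintegral _ fun f hf => ?_
    rw [lintegral_map hf m3, lintegral_pi0 (g := fun q => f q.2.2) (hf.comp m3), key f hf]
    congr 1
    exact Equiv.sum_comp (tauE.trans tauE) (fun a => ∫⁻ x, f (S.iota idΨ a x) ∂m)

/-- sum over labels of the cost along a chart family -/
lemma sum_cost (Ψ : Fin 2 → E → E) :
    ∑ a, ∫⁻ x, tripleCost S.s (S.planMap Ψ a x) ∂m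
      = 3 * (∫⁻ x, tripleCost S.s (S.iota Ψ (0, 0) x, S.iota Ψ (0, 1) x, S.iota Ψ (0, 2) x) ∂m
        + ∫⁻ x, tripleCost S.s (S.iota Ψ (1, 0) x, S.iota Ψ (1, 1) x, S.iota Ψ (1, 2) x) ∂m) := by
  have h : ∀ a, ∫⁻ x, tripleCost S.s (S.planMap Ψ a x) ∂m
      = ∫⁻ x, tripleCost S.s (S.iota Ψ (a.1, 0) x, S.iota Ψ (a.1, 1) x, S.iota Ψ (a.1, 2) x) ∂m := by
    intro a
    congr 1
    ext x
    exact cost_cycle Ψ S.s a x
  rw [Finset.sum_congr rfl (fun a _ => h a)]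
  exact sum_fin23 (fun j =>
    ∫⁻ x, tripleCost S.s (S.iota Ψ (j, 0) x, S.iota Ψ (j, 1) x, S.iota Ψ (j, 2) x) ∂m)

lemma cost_integrate (hmA : m S.Aᶜ = 0) :
    ∫⁻ x, tripleCost S.s (S.iota idΨ (0, 0) x, S.iota idΨ (0, 1) x, S.iota idΨ (0, 2) x) ∂m
      = ∫⁻ x, S.U x ∂m + ∫⁻ x, S.U (S.YY 0 x) ∂m + ∫⁻ x, S.U (S.YY 1 x) ∂m ∧
    ∫⁻ x, tripleCost S.s (S.iota idΨ (1, 0) x, S.iota idΨ (1, 1) x, S.iota idΨ (1, 2) x) ∂m
      = ∫⁻ x, S.U x ∂m + ∫⁻ x, S.U (S.YY 2 x) ∂m + ∫⁻ x, S.U (S.YY 3 x) ∂m := by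
  have hAae : ∀ᵐ x ∂m, x ∈ S.A := by
    rw [ae_iff]
    exact hmA
  have hU := measurable_U (S := S)
  constructor
  · have m01 : Measurable (fun x => S.U x + S.U (S.YY 0 x)) := hU.add (hU.comp (measurable_YY 0))
    rw [← lintegral_add_left hU, ← lintegral_add_left m01]
    apply lintegral_congr_ae
    filter_upwards [hAae] with x hx
    exact cost_sheet hx
  · have m01 : Measurable (fun x => S.U x + S.U (S.YY 2 x)) := hU.add (hU.comp (measurable_YY 2))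
    rw [← lintegral_add_left hU, ← lintegral_add_left m01]
    apply lintegral_congr_ae
    filter_upwards [hAae] with x hx
    exact cost_sheet_sigma hx

/-- value of the plan `π₀` -/
lemma cost_pi0 (hmA : m S.Aᶜ = 0) (hμ : ∀ f : E → ℝ≥0∞, Measurable f →
      ∫⁻ w, f w ∂μ = ∫⁻ x, f x ∂m + 2⁻¹ * ∑ i, ∫⁻ x, f (S.YY i x) ∂m) :
    ∫⁻ q, tripleCost S.s q ∂(S.pi0 m) = 3 * ∫⁻ w, S.U w ∂μ := by
  rw [lintegral_pi0 (measurable_tripleCost S.s), sum_cost, (cost_integrate hmA).1,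
    (cost_integrate hmA).2, hμ S.U measurable_U, Fin.sum_univ_four]
  generalize ∫⁻ x, S.U x ∂m = a
  generalize ∫⁻ x, S.U (S.YY 0 x) ∂m = b0
  generalize ∫⁻ x, S.U (S.YY 1 x) ∂m = b1
  generalize ∫⁻ x, S.U (S.YY 2 x) ∂m = b2
  generalize ∫⁻ x, S.U (S.YY 3 x) ∂m = b3
  have h := inv2_add_self a
  calc 2⁻¹ * (3 * (a + b0 + b1 + (a + b2 + b3)))
      = 3 * (2⁻¹ * (a + a) + 2⁻¹ * (b0 + b1 + b2 + b3)) := by ring
    _ = 3 * (a + 2⁻¹ * (b0 + b1 + b2 + b3)) := by rw [h]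

lemma u_le_alph_all (w : E) : S.u w ≤ alph S.s := by
  by_cases h : w ∈ S.SS
  · exact u_le_alph h
  · have h1 : w ∉ S.A := fun h' => h (Or.inl h')
    have h2 : w ∉ S.P1 := fun h' => h (Or.inr (Or.inl (Or.inl (Or.inl h'))))
    have h3 : w ∉ S.P2 := fun h' => h (Or.inr (Or.inl (Or.inl (Or.inr h'))))
    have h4 : w ∉ S.P3 := fun h' => h (Or.inr (Or.inl (Or.inr h')))
    have h5 : w ∉ S.P4 := fun h' => h (Or.inr (Or.inr h'))
    simp only [u, if_neg h1, if_neg h2, if_neg h3, if_neg h4, if_neg h5]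
    have := alph_ge S.hs
    linarith

lemma mu_univ (hmass : m univ = 3⁻¹) (hμ : ∀ f : E → ℝ≥0∞, Measurable f →
      ∫⁻ w, f w ∂μ = ∫⁻ x, f x ∂m + 2⁻¹ * ∑ i, ∫⁻ x, f (S.YY i x) ∂m) :
    μ univ = 1 := by
  have h := hμ (fun _ => 1) measurable_const
  simp only [lintegral_one] at h
  rw [h, hmass, Fin.sum_univ_four]
  have h1 := inv2_add_self ((3 : ℝ≥0∞)⁻¹ + 3⁻¹)
  have h2 : (3 : ℝ≥0∞) * 3⁻¹ = 1 := ENNReal.mul_inv_cancel (by norm_num) (by norm_num)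
  calc (3 : ℝ≥0∞)⁻¹ + 2⁻¹ * (3⁻¹ + 3⁻¹ + 3⁻¹ + 3⁻¹)
      = 3⁻¹ + 2⁻¹ * ((3⁻¹ + 3⁻¹) + (3⁻¹ + 3⁻¹)) := by ring
    _ = 3⁻¹ + (3⁻¹ + 3⁻¹) := by rw [h1]
    _ = 3 * 3⁻¹ := by ring
    _ = 1 := h2

lemma lintegral_U_lt_top (hmass : m univ = 3⁻¹) (hμ : ∀ f : E → ℝ≥0∞, Measurable f →
      ∫⁻ w, f w ∂μ = ∫⁻ x, f x ∂m + 2⁻¹ * ∑ i, ∫⁻ x, f (S.YY i x) ∂m) :
    ∫⁻ w, S.U w ∂μ < ⊤ := by
  have h1 : ∫⁻ w, S.U w ∂μ ≤ ∫⁻ _, ENNReal.ofReal (alph S.s) ∂μ :=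
    lintegral_mono fun w => ENNReal.ofReal_le_ofReal (u_le_alph_all w)
  rw [lintegral_const, mu_univ hmass hμ, mul_one] at h1
  exact h1.trans_lt ENNReal.ofReal_lt_top

lemma mu_SS_compl (hmA : m S.Aᶜ = 0) (hμ : ∀ f : E → ℝ≥0∞, Measurable f →
      ∫⁻ w, f w ∂μ = ∫⁻ x, f x ∂m + 2⁻¹ * ∑ i, ∫⁻ x, f (S.YY i x) ∂m) :
    μ S.SSᶜ = 0 := by
  have hAae : ∀ᵐ x ∂m, x ∈ S.A := by
    rw [ae_iff]
    exact hmA
  have hSm : MeasurableSet (S.SSᶜ) := measurableSet_SS.compl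
  have hm1 : Measurable (S.SSᶜ.indicator (1 : E → ℝ≥0∞)) := measurable_one.indicator hSm
  have h := hμ (S.SSᶜ.indicator 1) hm1
  rw [lintegral_indicator_one hSm] at h
  rw [h]
  have h1 : ∫⁻ x, S.SSᶜ.indicator (1 : E → ℝ≥0∞) x ∂m = 0 := by
    rw [lintegral_eq_zero_iff hm1]
    filter_upwards [hAae] with x hx
    exact indicator_of_notMem (fun (hc : x ∉ S.SS) => hc (Or.inl hx)) _
  have h2 : ∀ i, ∫⁻ x, S.SSᶜ.indicator (1 : E → ℝ≥0∞) (S.YY i x) ∂m = 0 := by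
    intro i
    rw [show (fun x => S.SSᶜ.indicator (1 : E → ℝ≥0∞) (S.YY i x))
      = (S.SSᶜ.indicator 1) ∘ (S.YY i) from rfl,
      lintegral_eq_zero_iff (hm1.comp (measurable_YY i))]
    filter_upwards [hAae] with x hx
    exact indicator_of_notMem (fun (hc : S.YY i x ∉ S.SS) => hc (YY_mem_SS i hx)) _
  simp [h1, h2]

lemma m_le_mu (hμ : ∀ f : E → ℝ≥0∞, Measurable f →
      ∫⁻ w, f w ∂μ = ∫⁻ x, f x ∂m + 2⁻¹ * ∑ i, ∫⁻ x, f (S.YY i x) ∂m) : m ≤ μ := by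
  refine Measure.le_iff.mpr fun B hB => ?_
  have h := hμ (B.indicator 1) (measurable_one.indicator hB)
  rw [lintegral_indicator_one hB, lintegral_indicator_one hB] at h
  rw [h]
  exact le_self_add

/-- strictness for maps -/
theorem monge_strict [IsFiniteMeasure m] (hmA : m S.Aᶜ = 0) (hmass : m univ = 3⁻¹)
    (hμ : ∀ f : E → ℝ≥0∞, Measurable f →
      ∫⁻ w, f w ∂μ = ∫⁻ x, f x ∂m + 2⁻¹ * ∑ i, ∫⁻ x, f (S.YY i x) ∂m)
    {T₂ T₃ : E → E} (h2 : Measurable T₂) (h3 : Measurable T₃) (hT2 : μ.map T₂ = μ)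
    (hT3 : μ.map T₃ = μ) :
    3 * ∫⁻ w, S.U w ∂μ < ∫⁻ x, tripleCost S.s (x, T₂ x, T₃ x) ∂μ := by
  by_contra hcon
  push Not at hcon
  have hU := measurable_U (S := S)
  have hSS := mu_SS_compl hmA hμ
  have hSSm : MeasurableSet (S.SSᶜ) := measurableSet_SS.compl
  have a1 : ∀ᵐ x ∂μ, x ∈ S.SS := by
    rw [ae_iff]
    exact hSS
  have a2 : ∀ᵐ x ∂μ, T₂ x ∈ S.SS := by
    rw [ae_iff]
    have : μ {x | T₂ x ∉ S.SS} = (μ.map T₂) S.SSᶜ := by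
      rw [Measure.map_apply h2 hSSm]; rfl
    rw [this, hT2, hSS]
  have a3 : ∀ᵐ x ∂μ, T₃ x ∈ S.SS := by
    rw [ae_iff]
    have : μ {x | T₃ x ∉ S.SS} = (μ.map T₃) S.SSᶜ := by
      rw [Measure.map_apply h3 hSSm]; rfl
    rw [this, hT3, hSS]
  have hint : ∫⁻ x, (S.U x + S.U (T₂ x) + S.U (T₃ x)) ∂μ = 3 * ∫⁻ w, S.U w ∂μ := by
    have m12 : Measurable (fun x => S.U x + S.U (T₂ x)) := hU.add (hU.comp h2)
    rw [lintegral_add_left m12, lintegral_add_left hU]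
    have i2 : ∫⁻ x, S.U (T₂ x) ∂μ = ∫⁻ w, S.U w ∂μ := by
      conv_rhs => rw [← hT2]
      rw [lintegral_map hU h2]
    have i3 : ∫⁻ x, S.U (T₃ x) ∂μ = ∫⁻ w, S.U w ∂μ := by
      conv_rhs => rw [← hT3]
      rw [lintegral_map hU h3]
    rw [i2, i3]
    ring
  have hfin : ∫⁻ x, (S.U x + S.U (T₂ x) + S.U (T₃ x)) ∂μ ≠ ⊤ := by
    rw [hint]
    exact ENNReal.mul_ne_top (by norm_num) (lintegral_U_lt_top hmass hμ).ne
  have hmeas : Measurable (fun x => tripleCost S.s (x, T₂ x, T₃ x)) :=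
    (measurable_tripleCost S.s).comp (measurable_id.prodMk (h2.prodMk h3))
  have hae := ae_eq_of_ae_le_of_lintegral_le
    (f := fun x => S.U x + S.U (T₂ x) + S.U (T₃ x))
    (g := fun x => tripleCost S.s (x, T₂ x, T₃ x)) (μ := μ)
    (by
      filter_upwards [a1, a2, a3] with x h1 h2 h3
      exact cost_ge h1 h2 h3) hfin hmeas.aemeasurable (by rw [hint]; exact hcon)
  have hall : ∀ᵐ x ∂μ, x ∈ S.A → ∃ i, T₂ x = S.YY i x := by
    filter_upwards [hae, a2, a3] with x h1 h2 h3 hx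
    rcases cost_eq_classify hx h2 h3 h1.symm with h | h | h | h
    · exact ⟨0, h⟩
    · exact ⟨1, h⟩
    · exact ⟨2, h⟩
    · exact ⟨3, h⟩
  have hAae : ∀ᵐ x ∂m, x ∈ S.A := by
    rw [ae_iff]
    exact hmA
  have hac : m ≪ μ := Measure.absolutelyContinuous_of_le (m_le_mu hμ)
  have hall' : ∀ᵐ x ∂m, ∃ i, T₂ x = S.YY i x := by
    filter_upwards [hac.ae_le hall, hAae] with x h1 h2
    exact h1 h2
  have hz := monge_impossible S.hAm hmA S.YY S.YYi measurable_YY measurable_YYi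
    (fun i x hx => YYi_YY i hx)
    (fun i => by rw [YY_image]; exact PP_measurable i)
    (fun i k hik x hx x' hx' he => PP_disj hik (YY_mem_PP i hx) (he ▸ YY_mem_PP k hx'))
    (fun i x hx x' hx' he => PP_not_A i (he ▸ YY_mem_PP i hx') hx)
    hμ h2 hT2 hall'
  rw [hmass] at hz
  norm_num at hz

/-- Constructing almost optimal maps from a splitting of `m`. -/
theorem approx_exists [IsFiniteMeasure m] (hmA : m S.Aᶜ = 0) (hmass : m univ = 3⁻¹)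
    (hμ : ∀ f : E → ℝ≥0∞, Measurable f →
      ∫⁻ w, f w ∂μ = ∫⁻ x, f x ∂m + 2⁻¹ * ∑ i, ∫⁻ x, f (S.YY i x) ∂m)
    {d : ℝ} {Ψ dec : Fin 2 → E → E} {R : Fin 2 → Set E}
    (hΨm : ∀ j, Measurable (Ψ j)) (hdecm : ∀ j, Measurable (dec j))
    (hRm : ∀ j, MeasurableSet (R j)) (hRA : ∀ j, R j ⊆ S.A)
    (hR01 : ∀ w, w ∈ R 0 → w ∈ R 1 → False)
    (hΨ1 : ∀ j, ∀ x ∈ S.A, Ψ j x ∈ R j) (hΨ2 : ∀ j, ∀ x ∈ S.A, dec j (Ψ j x) = x)
    (hΨ3 : ∀ j, ∀ x ∈ S.A, ‖Ψ j x - x‖ ≤ d)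
    (hΨ : ∀ f : E → ℝ≥0∞, Measurable f →
      ∫⁻ x, f x ∂m = 2⁻¹ * (∫⁻ x, f (Ψ 0 x) ∂m + ∫⁻ x, f (Ψ 1 x) ∂m)) :
    ∃ T₂ T₃ : E → E, Measurable T₂ ∧ Measurable T₃ ∧ μ.map T₂ = μ ∧ μ.map T₃ = μ ∧
      ∫⁻ x, tripleCost S.s (x, T₂ x, T₃ x) ∂μ ≤ ∫⁻ q, tripleCost S.s q ∂(S.pi0 m) + ENNReal.ofReal
        (2 * (S.s * (2 : ℝ) ^ (S.s + 1) * d + S.s * (2 : ℝ) ^ (S.s + 2) / 2 * d ^ 2)) := by
  have hAae : ∀ᵐ x ∂m, x ∈ S.A := by
    rw [ae_iff]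
    exact hmA
  let dec' : Fin 2 × Fin 3 → E → E := fun a =>
    ![![dec 0, S.YYi 0, S.YYi 1], ![dec 1, S.YYi 2, S.YYi 3]] a.1 a.2
  let code : Fin 2 × Fin 3 → Fin 2 ⊕ Fin 4 := fun a =>
    ![![Sum.inl 0, Sum.inr 0, Sum.inr 1], ![Sum.inl 1, Sum.inr 2, Sum.inr 3]] a.1 a.2
  have hcode : ∀ a b, code a = code b → a = b := by decide
  let RR : Fin 2 ⊕ Fin 4 → Set E := Sum.elim R S.PP
  let Ran : Fin 2 × Fin 3 → Set E := fun a => RR (code a)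
  have hdec'm : ∀ a, Measurable (dec' a) := by
    rintro ⟨j, r⟩
    fin_cases j <;> fin_cases r
    · exact hdecm 0
    · exact measurable_YYi 0
    · exact measurable_YYi 1
    · exact hdecm 1
    · exact measurable_YYi 2
    · exact measurable_YYi 3
  have hRanm : ∀ a, MeasurableSet (Ran a) := by
    rintro ⟨j, r⟩
    fin_cases j <;> fin_cases r
    · exact hRm 0
    · exact PP_measurable 0
    · exact PP_measurable 1
    · exact hRm 1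
    · exact PP_measurable 2
    · exact PP_measurable 3
  have hRR : ∀ c c' w, w ∈ RR c → w ∈ RR c' → c = c' := by
    rintro (j | i) (j' | i') w h h'
    · fin_cases j <;> fin_cases j' <;> first
        | rfl
        | exact (hR01 w h h').elim
        | exact (hR01 w h' h).elim
    · exact (PP_not_A i' h' (hRA j h)).elim
    · exact (PP_not_A i h (hRA j' h')).elim
    · by_cases hik : i = i'
      · rw [hik]
      · exact (PP_disj hik h h').elim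
  have hdisj : ∀ a b w, w ∈ Ran a → w ∈ Ran b → a = b := fun a b w h h' =>
    hcode a b (hRR _ _ w h h')
  have hmem : ∀ a, ∀ x ∈ S.A, S.iota Ψ a x ∈ Ran a := by
    rintro ⟨j, r⟩ x hx
    fin_cases j <;> fin_cases r
    · exact hΨ1 0 x hx
    · exact YY_mem_PP 0 hx
    · exact YY_mem_PP 1 hx
    · exact hΨ1 1 x hx
    · exact YY_mem_PP 2 hx
    · exact YY_mem_PP 3 hx
  have hleft : ∀ a, ∀ x ∈ S.A, dec' a (S.iota Ψ a x) = x := by
    rintro ⟨j, r⟩ x hx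
    fin_cases j <;> fin_cases r
    · exact hΨ2 0 x hx
    · exact YYi_YY 0 hx
    · exact YYi_YY 1 hx
    · exact hΨ2 1 x hx
    · exact YYi_YY 2 hx
    · exact YYi_YY 3 hx
  obtain ⟨T₂, hT₂m, hT₂⟩ := exists_piecewise_map (A := S.A) (S.iota Ψ) dec' Ran
    (iota_measurable hΨm) hdec'm hRanm hdisj hmem hleft tauE
  obtain ⟨T₃, hT₃m, hT₃⟩ := exists_piecewise_map (A := S.A) (S.iota Ψ) dec' Ran
    (iota_measurable hΨm) hdec'm hRanm hdisj hmem hleft (tauE.trans tauE)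
  have key := fun (f : E → ℝ≥0∞) (hf : Measurable f) => hmodel hμ (Ψ := Ψ) hΨ hf
  refine ⟨T₂, T₃, hT₂m, hT₃m, ?_, ?_, ?_⟩
  · refine Measure.ext_of_lintegral _ fun f hf => ?_
    rw [lintegral_map hf hT₂m, key (fun w => f (T₂ w)) (hf.comp hT₂m), key f hf]
    congr 1
    have h1 : ∀ a, ∫⁻ x, f (T₂ (S.iota Ψ a x)) ∂m = ∫⁻ x, f (S.iota Ψ (tauE a) x) ∂m := by
      intro a
      apply lintegral_congr_ae
      filter_upwards [hAae] with x hx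
      rw [hT₂ a x hx]
    rw [Finset.sum_congr rfl (fun a _ => h1 a)]
    exact Equiv.sum_comp tauE (fun a => ∫⁻ x, f (S.iota Ψ a x) ∂m)
  · refine Measure.ext_of_lintegral _ fun f hf => ?_
    rw [lintegral_map hf hT₃m, key (fun w => f (T₃ w)) (hf.comp hT₃m), key f hf]
    congr 1
    have h1 : ∀ a, ∫⁻ x, f (T₃ (S.iota Ψ a x)) ∂m
        = ∫⁻ x, f (S.iota Ψ ((tauE.trans tauE) a) x) ∂m := by
      intro a
      apply lintegral_congr_ae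
      filter_upwards [hAae] with x hx
      rw [hT₃ a x hx]
    rw [Finset.sum_congr rfl (fun a _ => h1 a)]
    exact Equiv.sum_comp (tauE.trans tauE) (fun a => ∫⁻ x, f (S.iota Ψ a x) ∂m)
  · -- cost
    have hmeas : Measurable (fun x => tripleCost S.s (x, T₂ x, T₃ x)) :=
      (measurable_tripleCost S.s).comp (measurable_id.prodMk (hT₂m.prodMk hT₃m))
    rw [key _ hmeas, lintegral_pi0 (measurable_tripleCost S.s), sum_cost]
    have h1 : ∀ a, ∫⁻ x, tripleCost S.s (S.iota Ψ a x, T₂ (S.iota Ψ a x), T₃ (S.iota Ψ a x)) ∂m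
        = ∫⁻ x, tripleCost S.s (S.planMap Ψ a x) ∂m := by
      intro a
      apply lintegral_congr_ae
      filter_upwards [hAae] with x hx
      rw [hT₂ a x hx, hT₃ a x hx]
      rfl
    rw [Finset.sum_congr rfl (fun a _ => h1 a), sum_cost]
    set L := ENNReal.ofReal
        (2 * (S.s * (2 : ℝ) ^ (S.s + 1) * d + S.s * (2 : ℝ) ^ (S.s + 2) / 2 * d ^ 2)) with hL
    have bound : ∀ (j : Fin 2) (i₁ i₂ : Fin 4), i₁ ≠ i₂ →
        ∫⁻ x, tripleCost S.s (Ψ j x, S.YY i₁ x, S.YY i₂ x) ∂m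
          ≤ ∫⁻ x, tripleCost S.s (x, S.YY i₁ x, S.YY i₂ x) ∂m + L * 3⁻¹ := by
      intro j i₁ i₂ hi
      have hmeas : Measurable (fun x => tripleCost S.s (x, S.YY i₁ x, S.YY i₂ x)) :=
        (measurable_tripleCost S.s).comp
          (measurable_id.prodMk ((measurable_YY i₁).prodMk (measurable_YY i₂)))
      have hc : ∫⁻ _, L ∂m = L * 3⁻¹ := by
        rw [lintegral_const, hmass]
      rw [← hc, ← lintegral_add_left hmeas]
      apply lintegral_mono_ae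
      filter_upwards [hAae] with x hx
      apply cost_shift hx (hRA j (hΨ1 j x hx)) (PP_sub_Out i₁ (YY_mem_PP i₁ hx))
        (PP_sub_Out i₂ (YY_mem_PP i₂ hx)) _ (hΨ3 j x hx)
      intro he
      exact PP_disj hi (YY_mem_PP i₁ hx) (he ▸ YY_mem_PP i₂ hx)
    have b0 := bound 0 0 1 (by decide)
    have b1 := bound 1 2 3 (by decide)
    have e0 : ∫⁻ x, tripleCost S.s (S.iota Ψ (0, 0) x, S.iota Ψ (0, 1) x, S.iota Ψ (0, 2) x) ∂m
        = ∫⁻ x, tripleCost S.s (Ψ 0 x, S.YY 0 x, S.YY 1 x) ∂m := rfl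
    have e1 : ∫⁻ x, tripleCost S.s (S.iota Ψ (1, 0) x, S.iota Ψ (1, 1) x, S.iota Ψ (1, 2) x) ∂m
        = ∫⁻ x, tripleCost S.s (Ψ 1 x, S.YY 2 x, S.YY 3 x) ∂m := rfl
    have e0' : ∫⁻ x, tripleCost S.s (S.iota idΨ (0, 0) x, S.iota idΨ (0, 1) x, S.iota idΨ (0, 2) x) ∂m
        = ∫⁻ x, tripleCost S.s (x, S.YY 0 x, S.YY 1 x) ∂m := rfl
    have e1' : ∫⁻ x, tripleCost S.s (S.iota idΨ (1, 0) x, S.iota idΨ (1, 1) x, S.iota idΨ (1, 2) x) ∂m
        = ∫⁻ x, tripleCost S.s (x, S.YY 2 x, S.YY 3 x) ∂m := rfl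
    rw [e0, e1, e0', e1']
    generalize ∫⁻ x, tripleCost S.s (Ψ 0 x, S.YY 0 x, S.YY 1 x) ∂m = a₀ at b0
    generalize ∫⁻ x, tripleCost S.s (Ψ 1 x, S.YY 2 x, S.YY 3 x) ∂m = a₁ at b1
    generalize ∫⁻ x, tripleCost S.s (x, S.YY 0 x, S.YY 1 x) ∂m = c₀ at b0
    generalize ∫⁻ x, tripleCost S.s (x, S.YY 2 x, S.YY 3 x) ∂m = c₁ at b1
    have h3 : (3 : ℝ≥0∞) * 3⁻¹ = 1 := ENNReal.mul_inv_cancel (by norm_num) (by norm_num)
    calc 2⁻¹ * (3 * (a₀ + a₁)) ≤ 2⁻¹ * (3 * ((c₀ + L * 3⁻¹) + (c₁ + L * 3⁻¹))) := by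
          gcongr
      _ = 2⁻¹ * (3 * (c₀ + c₁)) + (2⁻¹ * (L * (3 * 3⁻¹) + L * (3 * 3⁻¹))) := by ring
      _ = 2⁻¹ * (3 * (c₀ + c₁)) + L := by
          rw [h3, mul_one, inv2_add_self]

/-- The abstract main theorem. -/
theorem abstract_main [IsFiniteMeasure m] (hmA : m S.Aᶜ = 0) (hmass : m univ = 3⁻¹)
    (hμ : ∀ f : E → ℝ≥0∞, Measurable f →
      ∫⁻ w, f w ∂μ = ∫⁻ x, f x ∂m + 2⁻¹ * ∑ i, ∫⁻ x, f (S.YY i x) ∂m)
    (hsplit : ∀ d : ℝ, 0 < d → ∃ (Ψ dec : Fin 2 → E → E) (R : Fin 2 → Set E),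
      (∀ j, Measurable (Ψ j)) ∧ (∀ j, Measurable (dec j)) ∧
      (∀ j, MeasurableSet (R j)) ∧ (∀ j, R j ⊆ S.A) ∧
      (∀ w, w ∈ R 0 → w ∈ R 1 → False) ∧
      (∀ j, ∀ x ∈ S.A, Ψ j x ∈ R j) ∧ (∀ j, ∀ x ∈ S.A, dec j (Ψ j x) = x) ∧
      (∀ j, ∀ x ∈ S.A, ‖Ψ j x - x‖ ≤ d) ∧
      (∀ f : E → ℝ≥0∞, Measurable f →
        ∫⁻ x, f x ∂m = 2⁻¹ * (∫⁻ x, f (Ψ 0 x) ∂m + ∫⁻ x, f (Ψ 1 x) ∂m))) :
    ∃ π₀ : Measure (E × E × E),
      IsCoupling₃ μ π₀ ∧ ∫⁻ q, tripleCost S.s q ∂π₀ < ⊤ ∧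
      (∀ π : Measure (E × E × E), IsCoupling₃ μ π →
        ∫⁻ q, tripleCost S.s q ∂π₀ ≤ ∫⁻ q, tripleCost S.s q ∂π) ∧
      (∀ T₂ T₃ : E → E, Measurable T₂ → Measurable T₃ → μ.map T₂ = μ → μ.map T₃ = μ →
        ∫⁻ q, tripleCost S.s q ∂π₀ < ∫⁻ x, tripleCost S.s (x, T₂ x, T₃ x) ∂μ) ∧
      (∀ ε : ℝ≥0∞, 0 < ε → ∃ T₂ T₃ : E → E, Measurable T₂ ∧ Measurable T₃ ∧
        μ.map T₂ = μ ∧ μ.map T₃ = μ ∧
        ∫⁻ x, tripleCost S.s (x, T₂ x, T₃ x) ∂μ < ∫⁻ q, tripleCost S.s q ∂π₀ + ε) := by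
  have hval := cost_pi0 hmA hμ
  have hfin : ∫⁻ q, tripleCost S.s q ∂(S.pi0 m) < ⊤ := by
    rw [hval]
    exact ENNReal.mul_lt_top (by norm_num) (lintegral_U_lt_top hmass hμ)
  refine ⟨S.pi0 m, pi0_coupling hμ, hfin, ?_, ?_, ?_⟩
  · intro π hπ
    rw [hval]
    exact coupling_lower_bound hπ measurableSet_SS (mu_SS_compl hmA hμ) measurable_U
      (fun a ha b hb d hd => cost_ge ha hb hd)
  · intro T₂ T₃ h2 h3 hT2 hT3
    rw [hval]
    exact monge_strict hmA hmass hμ h2 h3 hT2 hT3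
  · intro ε hε
    obtain ⟨η, hη0, hηε⟩ := ENNReal.lt_iff_exists_nnreal_btwn.mp hε
    have hη0' : (0 : ℝ) < η := by exact_mod_cast hη0
    have hs := S.hs
    set C : ℝ := S.s * (2 : ℝ) ^ (S.s + 1) + S.s * (2 : ℝ) ^ (S.s + 2) / 2 with hC
    have hC0 : 0 < C := by rw [hC]; positivity
    set d : ℝ := min 1 (η / (2 * C)) with hd
    have hd0 : 0 < d := lt_min one_pos (by positivity)
    have hd1 : d ≤ 1 := min_le_left _ _
    have hd2 : d ≤ η / (2 * C) := min_le_right _ _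
    obtain ⟨Ψ, dec, R, h1, h2, h3, h4, h5, h6, h7, h8, h9⟩ := hsplit d hd0
    obtain ⟨T₂, T₃, m2, m3, p2, p3, hcost⟩ :=
      approx_exists hmA hmass hμ h1 h2 h3 h4 h5 h6 h7 h8 h9
    refine ⟨T₂, T₃, m2, m3, p2, p3, hcost.trans_lt ?_⟩
    apply ENNReal.add_lt_add_left hfin.ne
    refine lt_of_le_of_lt ?_ hηε
    rw [← ENNReal.ofReal_coe_nnreal]
    apply ENNReal.ofReal_le_ofReal
    have h10 : d ^ 2 ≤ d := by nlinarith
    have h11 : S.s * (2 : ℝ) ^ (S.s + 1) * d + S.s * (2 : ℝ) ^ (S.s + 2) / 2 * d ^ 2 ≤ C * d := by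
      have h12 : 0 ≤ S.s * (2 : ℝ) ^ (S.s + 2) / 2 := by positivity
      have h13 := mul_le_mul_of_nonneg_left h10 h12
      rw [hC]
      linarith
    have h14 : 2 * (C * d) ≤ η := by
      have := mul_le_mul_of_nonneg_left hd2 (by positivity : (0 : ℝ) ≤ 2 * C)
      rw [mul_div_cancel₀ _ (by positivity : (2 * C) ≠ 0)] at this
      linarith
    linarith

end main

end Sys

end Crest.Agent.Lib.NM
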