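import Crest.Agent.Lib.NM.Sys

/-! The piecewise potential and the case analysis of the cost inequality. -/

set_option autoImplicit false
set_option linter.unusedSectionVars false
open scoped RealInnerProductSpace ContDiff Topology
open Set

namespace Crest.Agent.Lib.NM

namespace Sys

variable {E : Type*} [NormedAddCommGroup E] [InnerProductSpace ℝ E] [MeasurableSpace E]
  [BorelSpace E] (S : Sys E)

/-- first outer patch -/
def P1 : Set E := S.Y '' S.A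
/-- second outer patch -/
def P2 : Set E := S.Z '' S.A
/-- third outer patch -/
def P3 : Set E := S.σ '' S.P1
/-- fourth outer patch -/
def P4 : Set E := S.σ '' S.P2
/-- the four outer patches -/
def Out : Set E := S.P1 ∪ S.P2 ∪ S.P3 ∪ S.P4
/-- the support -/
def SS : Set E := S.A ∪ S.Out

open Classical in
/-- the potential -/
noncomputable def u (w : E) : ℝ :=
  if w ∈ S.A then S.ua w else
  if w ∈ S.P1 then S.ub w else
  if w ∈ S.P2 then S.uc (S.Zi w) else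
  if w ∈ S.P3 then S.ub (S.σ w) else
  if w ∈ S.P4 then S.uc (S.Zi (S.σ w)) else 0

variable {S}

lemma mem_P1_dist {w : E} (h : w ∈ S.P1) : ‖w - S.p‖ < S.δ := by
  obtain ⟨x, hx, rfl⟩ := h
  exact S.hY x hx

lemma mem_P2_dist {w : E} (h : w ∈ S.P2) : ‖w - (-S.p)‖ < S.δ := by
  obtain ⟨x, hx, rfl⟩ := h
  rw [sub_neg_eq_add]
  exact S.hZ x hx

lemma mem_P3_dist {w : E} (h : w ∈ S.P3) : ‖w - S.σ S.p‖ < S.δ := by
  obtain ⟨y, hy, rfl⟩ := h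
  rw [← map_sub, LinearIsometryEquiv.norm_map]
  exact mem_P1_dist hy

lemma mem_P4_dist {w : E} (h : w ∈ S.P4) : ‖w - (-S.σ S.p)‖ < S.δ := by
  obtain ⟨y, hy, rfl⟩ := h
  rw [← map_neg, ← map_sub, LinearIsometryEquiv.norm_map]
  exact mem_P2_dist hy

lemma mem_A_dist {w : E} (h : w ∈ S.A) : ‖w - 0‖ < S.δ := by
  rw [sub_zero]
  exact S.hA w h

lemma sep {a b w : E} (h1 : ‖w - a‖ < S.δ) (h2 : ‖w - b‖ < S.δ) (h : 1 ≤ ‖a - b‖) : False := by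
  have h3 : ‖a - b‖ ≤ ‖w - a‖ + ‖w - b‖ := by
    have e : a - b = (w - b) - (w - a) := by abel
    rw [e, add_comm]
    exact norm_sub_le _ _
  have := S.hδ1
  linarith

lemma one_le_sqrt_two : (1 : ℝ) ≤ Real.sqrt 2 := by
  apply Real.le_sqrt_of_sq_le; norm_num

lemma sep_0_p : (1 : ℝ) ≤ ‖(0 : E) - S.p‖ := by rw [zero_sub, norm_neg, S.hp]
lemma sep_0_mp : (1 : ℝ) ≤ ‖(0 : E) - (-S.p)‖ := by rw [zero_sub, neg_neg, S.hp]
lemma sep_0_sp : (1 : ℝ) ≤ ‖(0 : E) - S.σ S.p‖ := by rw [zero_sub, norm_neg, S.norm_sigma_p]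
lemma sep_0_msp : (1 : ℝ) ≤ ‖(0 : E) - (-S.σ S.p)‖ := by rw [zero_sub, neg_neg, S.norm_sigma_p]
lemma eq_p_mp : ‖S.p - (-S.p)‖ = 2 := by
  rw [sub_neg_eq_add, ← two_smul ℝ, norm_smul, S.hp]; norm_num
lemma eq_sp_msp : ‖S.σ S.p - (-S.σ S.p)‖ = 2 := by
  rw [sub_neg_eq_add, ← two_smul ℝ, norm_smul, S.norm_sigma_p]; norm_num
lemma eq_p_sp : ‖S.p - S.σ S.p‖ = Real.sqrt 2 := S.norm_sub_perp
lemma eq_p_msp : ‖S.p - (-S.σ S.p)‖ = Real.sqrt 2 := by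
  rw [sub_neg_eq_add]; exact S.norm_add_perp
lemma eq_mp_sp : ‖(-S.p) - S.σ S.p‖ = Real.sqrt 2 := by
  have e : (-S.p) - S.σ S.p = -(S.p + S.σ S.p) := by abel
  rw [e, norm_neg]; exact S.norm_add_perp
lemma eq_mp_msp : ‖(-S.p) - (-S.σ S.p)‖ = Real.sqrt 2 := by
  have e : (-S.p) - (-S.σ S.p) = -(S.p - S.σ S.p) := by abel
  rw [e, norm_neg]; exact S.norm_sub_perp

lemma P1_not_A {w : E} (h : w ∈ S.P1) : w ∉ S.A := fun h' =>
  sep (mem_A_dist h') (mem_P1_dist h) sep_0_p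

lemma P2_not_A {w : E} (h : w ∈ S.P2) : w ∉ S.A := fun h' =>
  sep (mem_A_dist h') (mem_P2_dist h) sep_0_mp

lemma P3_not_A {w : E} (h : w ∈ S.P3) : w ∉ S.A := fun h' =>
  sep (mem_A_dist h') (mem_P3_dist h) sep_0_sp

lemma P4_not_A {w : E} (h : w ∈ S.P4) : w ∉ S.A := fun h' =>
  sep (mem_A_dist h') (mem_P4_dist h) sep_0_msp

lemma P2_not_P1 {w : E} (h : w ∈ S.P2) : w ∉ S.P1 := fun h' =>
  sep (mem_P1_dist h') (mem_P2_dist h) (by rw [eq_p_mp]; norm_num)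

lemma P3_not_P1 {w : E} (h : w ∈ S.P3) : w ∉ S.P1 := fun h' =>
  sep (mem_P1_dist h') (mem_P3_dist h) (by rw [eq_p_sp]; exact one_le_sqrt_two)

lemma P4_not_P1 {w : E} (h : w ∈ S.P4) : w ∉ S.P1 := fun h' =>
  sep (mem_P1_dist h') (mem_P4_dist h) (by rw [eq_p_msp]; exact one_le_sqrt_two)

lemma P3_not_P2 {w : E} (h : w ∈ S.P3) : w ∉ S.P2 := fun h' =>
  sep (mem_P2_dist h') (mem_P3_dist h) (by rw [eq_mp_sp]; exact one_le_sqrt_two)

lemma P4_not_P2 {w : E} (h : w ∈ S.P4) : w ∉ S.P2 := fun h' =>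
  sep (mem_P2_dist h') (mem_P4_dist h) (by rw [eq_mp_msp]; exact one_le_sqrt_two)

lemma P4_not_P3 {w : E} (h : w ∈ S.P4) : w ∉ S.P3 := fun h' =>
  sep (mem_P3_dist h') (mem_P4_dist h) (by rw [eq_sp_msp]; norm_num)

lemma Y_mem_P1 {x : E} (h : x ∈ S.A) : S.Y x ∈ S.P1 := ⟨x, h, rfl⟩
lemma Z_mem_P2 {x : E} (h : x ∈ S.A) : S.Z x ∈ S.P2 := ⟨x, h, rfl⟩
lemma sY_mem_P3 {x : E} (h : x ∈ S.A) : S.σ (S.Y x) ∈ S.P3 := ⟨_, Y_mem_P1 h, rfl⟩
lemma sZ_mem_P4 {x : E} (h : x ∈ S.A) : S.σ (S.Z x) ∈ S.P4 := ⟨_, Z_mem_P2 h, rfl⟩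

lemma u_of_A {x : E} (h : x ∈ S.A) : S.u x = S.ua x := by
  simp only [u, if_pos h]

lemma u_of_P1 {w : E} (h : w ∈ S.P1) : S.u w = S.ub w := by
  simp only [u, if_neg (P1_not_A h), if_pos h]

lemma u_of_P2 {w : E} (h : w ∈ S.P2) : S.u w = S.uc (S.Zi w) := by
  simp only [u, if_neg (P2_not_A h), if_neg (P2_not_P1 h), if_pos h]

lemma u_of_P3 {w : E} (h : w ∈ S.P3) : S.u w = S.ub (S.σ w) := by
  simp only [u, if_neg (P3_not_A h), if_neg (P3_not_P1 h), if_neg (P3_not_P2 h), if_pos h]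

lemma u_of_P4 {w : E} (h : w ∈ S.P4) : S.u w = S.uc (S.Zi (S.σ w)) := by
  simp only [u, if_neg (P4_not_A h), if_neg (P4_not_P1 h), if_neg (P4_not_P2 h),
    if_neg (P4_not_P3 h), if_pos h]

lemma u_Y {x : E} (h : x ∈ S.A) : S.u (S.Y x) = S.ub (S.Y x) := u_of_P1 (Y_mem_P1 h)
lemma u_Z {x : E} (h : x ∈ S.A) : S.u (S.Z x) = S.uc x := by
  rw [u_of_P2 (Z_mem_P2 h), S.hZi x h]
lemma u_sY {x : E} (h : x ∈ S.A) : S.u (S.σ (S.Y x)) = S.ub (S.Y x) := by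
  rw [u_of_P3 (sY_mem_P3 h), S.hσσ]
lemma u_sZ {x : E} (h : x ∈ S.A) : S.u (S.σ (S.Z x)) = S.uc x := by
  rw [u_of_P4 (sZ_mem_P4 h), S.hσσ, S.hZi x h]

lemma ub_bounds {x : E} (h : x ∈ S.A) :
    tau S.s - gg S.s < S.ub (S.Y x) ∧ S.ub (S.Y x) < tau S.s + gg S.s :=
  ⟨S.hub1 x h, S.hub2 x h⟩

lemma uc_bounds {x : E} (h : x ∈ S.A) :
    tau S.s - gg S.s < S.uc x ∧ S.uc x < tau S.s + gg S.s :=
  ⟨S.huc1 x h, S.huc2 x h⟩

lemma u_bounds_out {w : E} (h : w ∈ S.Out) :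
    tau S.s - gg S.s < S.u w ∧ S.u w < tau S.s + gg S.s := by
  rcases h with (((⟨x, hx, rfl⟩ | ⟨x, hx, rfl⟩) | ⟨y, ⟨x, hx, rfl⟩, rfl⟩) | ⟨y, ⟨x, hx, rfl⟩, rfl⟩)
  · rw [u_Y hx]; exact ub_bounds hx
  · rw [u_Z hx]; exact uc_bounds hx
  · rw [u_sY hx]; exact ub_bounds hx
  · rw [u_sZ hx]; exact uc_bounds hx

lemma gg_le_tau {s : ℝ} (_hs : 0 < s) : gg s ≤ tau s / 2 := min_le_left _ _

lemma gg_le_gap {s : ℝ} : gg s ≤ gap s / 8 := min_le_right _ _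

lemma tau_le {s : ℝ} (hs : 0 < s) : tau s ≤ 1 / 4 := by
  have := two_rpow_neg_le_one hs
  unfold tau
  linarith

lemma ua_bounds {x : E} (h : x ∈ S.A) : 1 / 2 ≤ S.ua x ∧ S.ua x ≤ alph S.s := by
  have h1 := S.hA x h
  have h2 := S.hδ5
  have h3 : ‖x‖ ^ 2 ≤ S.δ ^ 2 := by
    gcongr
  have hκ : 0 ≤ S.κ := by
    have := S.hκ
    have h0 := S.hs
    unfold kap at this
    have h4 : 0 ≤ 4 * S.s * (2 : ℝ) ^ (S.s + 2) := by positivity
    have h5 : 0 ≤ 4 * S.s * (S.s + 3) := by positivity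
    linarith
  have h4 : S.κ * ‖x‖ ^ 2 ≤ S.κ * S.δ ^ 2 := mul_le_mul_of_nonneg_left h3 hκ
  have h5 := alph_ge S.hs
  have h6 : 0 ≤ S.κ * ‖x‖ ^ 2 := by positivity
  constructor
  · unfold ua
    have e : S.κ / 2 * ‖x‖ ^ 2 = (S.κ * ‖x‖ ^ 2) / 2 := by ring
    rw [e]
    linarith
  · unfold ua
    have e : S.κ / 2 * ‖x‖ ^ 2 = (S.κ * ‖x‖ ^ 2) / 2 := by ring
    rw [e]
    linarith

lemma tau_gg_lt_alph (s : ℝ) (hs : 0 < s) : tau s + gg s ≤ alph s := by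
  have h1 := gg_le_tau hs
  have h2 := tau_le hs
  have h3 := alph_ge hs
  linarith

lemma tau_sub_gg_pos (s : ℝ) (hs : 0 < s) : 0 < tau s - gg s := by
  have h1 := gg_le_tau hs
  have h2 := tau_pos s
  linarith

lemma u_le_alph {w : E} (h : w ∈ S.SS) : S.u w ≤ alph S.s := by
  rcases h with h | h
  · rw [u_of_A h]; exact (ua_bounds h).2
  · have h1 := (u_bounds_out h).2
    have := tau_gg_lt_alph S.s S.hs
    linarith

lemma u_pos {w : E} (h : w ∈ S.SS) : 0 < S.u w := by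
  rcases h with h | h
  · rw [u_of_A h]
    have := (ua_bounds h).1
    linarith
  · have h1 := (u_bounds_out h).1
    have := tau_sub_gg_pos S.s S.hs
    linarith

lemma cc_perm1 (s : ℝ) (a b c : E) : cc s a b c = cc s b c a := by
  rw [cc_swap12, cc_swap23]

lemma cc_nonneg_parts (s : ℝ) (a b c : E) :
    0 ≤ ‖a - b‖ ^ (-s) ∧ 0 ≤ ‖a - c‖ ^ (-s) ∧ 0 ≤ ‖b - c‖ ^ (-s) :=
  ⟨by positivity, by positivity, by positivity⟩

/-- two points in the centre -/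
lemma two_A {a b c : E} (ha : a ∈ S.A) (hb : b ∈ S.A) (hc : c ∈ S.SS) (hab : a ≠ b) :
    S.u a + S.u b + S.u c < cc S.s a b c := by
  have h1 := u_le_alph (Or.inl ha : a ∈ S.SS)
  have h2 := u_le_alph (Or.inl hb : b ∈ S.SS)
  have h3 := u_le_alph hc
  have h4 : ‖a - b‖ < 2 * S.δ := by
    have := norm_sub_le a b
    have h5 := S.hA a ha
    have h6 := S.hA b hb
    linarith
  have h5 : 0 < ‖a - b‖ := norm_pos_iff.mpr (sub_ne_zero.mpr hab)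
  have h6 : (2 * S.δ) ^ (-S.s) ≤ ‖a - b‖ ^ (-S.s) :=
    Real.rpow_le_rpow_of_nonpos h5 h4.le (by linarith [S.hs])
  have h7 := S.hδ2
  have h8 := cc_nonneg_parts S.s a b c
  unfold cc
  linarith [h8.1, h8.2.1, h8.2.2]

lemma norm_lt_of_out {w : E} (h : w ∈ S.Out) : ‖w‖ < 1 + S.δ := by
  have key : ∀ c : E, ‖c‖ = 1 → ‖w - c‖ < S.δ → ‖w‖ < 1 + S.δ := by
    intro c hc h1
    have : ‖w‖ ≤ ‖w - c‖ + ‖c‖ := by
      have e : w = (w - c) + c := by abel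
      conv_lhs => rw [e]
      exact norm_add_le _ _
    linarith
  rcases h with ((h | h) | h) | h
  · exact key _ S.hp (mem_P1_dist h)
  · exact key _ (by rw [norm_neg, S.hp]) (mem_P2_dist h)
  · exact key _ S.norm_sigma_p (mem_P3_dist h)
  · exact key _ (by rw [norm_neg, S.norm_sigma_p]) (mem_P4_dist h)

/-- all points outside -/
lemma all_out {a b c : E} (ha : a ∈ S.Out) (hb : b ∈ S.Out) (hc : c ∈ S.Out)
    (hab : a ≠ b) (hac : a ≠ c) (hbc : b ≠ c) :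
    S.u a + S.u b + S.u c < cc S.s a b c := by
  have h1 := (u_bounds_out ha).2
  have h2 := (u_bounds_out hb).2
  have h3 := (u_bounds_out hc).2
  have na := norm_lt_of_out ha
  have nb := norm_lt_of_out hb
  have nc := norm_lt_of_out hc
  have key : ∀ v w : E, v ≠ w → ‖v‖ < 1 + S.δ → ‖w‖ < 1 + S.δ →
      (2 + 2 * S.δ) ^ (-S.s) ≤ ‖v - w‖ ^ (-S.s) := by
    intro v w hvw h4 h5
    have h6 : 0 < ‖v - w‖ := norm_pos_iff.mpr (sub_ne_zero.mpr hvw)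
    have h7 : ‖v - w‖ ≤ 2 + 2 * S.δ := by
      have := norm_sub_le v w
      linarith
    exact Real.rpow_le_rpow_of_nonpos h6 h7 (by linarith [S.hs])
  have k1 := key a b hab na nb
  have k2 := key a c hac na nc
  have k3 := key b c hbc nb nc
  have h7 := S.hδ4
  unfold cc
  linarith

/-- far configurations -/
lemma far_case {x y z a b : E} (hx : x ∈ S.A) (hy : ‖y - a‖ < S.δ) (hz : ‖z - b‖ < S.δ)
    (ha : ‖a‖ = 1) (hb : ‖b‖ = 1) (hab : ‖a - b‖ ≤ Real.sqrt 2)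
    (uy : S.u y < tau S.s + gg S.s) (uz : S.u z < tau S.s + gg S.s)
    (hxy : x ≠ y) (hxz : x ≠ z) (hyz : y ≠ z) :
    S.u x + S.u y + S.u z < cc S.s x y z := by
  have hx1 := S.hA x hx
  have h1 := (ua_bounds hx).2
  rw [← u_of_A hx] at h1
  have n1 : ‖x - y‖ ≤ 1 + 2 * S.δ := by
    have e : x - y = x - (y - a) - a := by abel
    rw [e]
    have h2 := norm_sub_le (x - (y - a)) a
    have h3 := norm_sub_le x (y - a)
    linarith
  have n2 : ‖x - z‖ ≤ 1 + 2 * S.δ := by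
    have e : x - z = x - (z - b) - b := by abel
    rw [e]
    have h2 := norm_sub_le (x - (z - b)) b
    have h3 := norm_sub_le x (z - b)
    linarith
  have n3 : ‖y - z‖ ≤ Real.sqrt 2 + 2 * S.δ := by
    have e : y - z = (y - a) + (a - b) - (z - b) := by abel
    rw [e]
    have h2 := norm_sub_le ((y - a) + (a - b)) (z - b)
    have h3 := norm_add_le (y - a) (a - b)
    linarith
  have hneg : -S.s ≤ 0 := by linarith [S.hs]
  have r1 := Real.rpow_le_rpow_of_nonpos (norm_pos_iff.mpr (sub_ne_zero.mpr hxy)) n1 hneg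
  have r2 := Real.rpow_le_rpow_of_nonpos (norm_pos_iff.mpr (sub_ne_zero.mpr hxz)) n2 hneg
  have r3 := Real.rpow_le_rpow_of_nonpos (norm_pos_iff.mpr (sub_ne_zero.mpr hyz)) n3 hneg
  have h7 := S.hδ3
  have h8 : gg S.s ≤ gap S.s / 8 := gg_le_gap
  have h9 := gap_pos S.hs
  have h10 : alph S.s + 2 * tau S.s = c0 S.s := by unfold alph; ring
  unfold cc
  linarith

/-- the exact sheet configuration -/
lemma sheet_case {x y xs : E} (hx : x ∈ S.A) (hy : y ∈ S.P1) (hxs : xs ∈ S.A) :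
    S.u x + S.u y + S.u (S.Z xs) ≤ cc S.s x y (S.Z xs) ∧
      (S.u x + S.u y + S.u (S.Z xs) = cc S.s x y (S.Z xs) → x = xs ∧ y = S.Y xs) := by
  have hxy : x ≠ y := fun h => P1_not_A hy (h ▸ hx)
  have hxz : x ≠ S.Z xs := fun h => P2_not_A (Z_mem_P2 hxs) (h ▸ hx)
  have hyz : y ≠ S.Z xs := fun h => P2_not_P1 (Z_mem_P2 hxs) (h ▸ hy)
  have key := sheet_ineq hxs hxy hxz hyz
  rw [u_of_A hx, u_of_P1 hy, u_Z hxs]
  have hK : 0 < S.s * (2 : ℝ) ^ (S.s + 2) / 2 := by have := S.hs; positivity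
  have h0 : 0 ≤ ‖x - xs‖ ^ 2 + ‖y - S.Y xs‖ ^ 2 := by positivity
  have h1 := mul_nonneg hK.le h0
  refine ⟨by linarith, fun h => ?_⟩
  have h2 : S.s * (2 : ℝ) ^ (S.s + 2) / 2 * (‖x - xs‖ ^ 2 + ‖y - S.Y xs‖ ^ 2) ≤ 0 := by linarith
  have h3 : ‖x - xs‖ ^ 2 + ‖y - S.Y xs‖ ^ 2 ≤ 0 := by
    by_contra hc
    push Not at hc
    have := mul_pos hK hc
    linarith
  have h4 : ‖x - xs‖ ^ 2 = 0 := by
    have a1 : 0 ≤ ‖x - xs‖ ^ 2 := by positivity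
    have a2 : 0 ≤ ‖y - S.Y xs‖ ^ 2 := by positivity
    linarith
  have h5 : ‖y - S.Y xs‖ ^ 2 = 0 := by
    have a1 : 0 ≤ ‖x - xs‖ ^ 2 := by positivity
    have a2 : 0 ≤ ‖y - S.Y xs‖ ^ 2 := by positivity
    linarith
  constructor
  · have := pow_eq_zero_iff (two_ne_zero) |>.mp h4
    exact sub_eq_zero.mp (norm_eq_zero.mp this)
  · have := pow_eq_zero_iff (two_ne_zero) |>.mp h5
    exact sub_eq_zero.mp (norm_eq_zero.mp this)

/-- the same after applying `σ` -/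
lemma sheet_case_sigma {x y xs : E} (hx : x ∈ S.A) (hy : y ∈ S.P1) (hxs : xs ∈ S.A) :
    S.u x + S.u (S.σ y) + S.u (S.σ (S.Z xs)) ≤ cc S.s x (S.σ y) (S.σ (S.Z xs)) ∧
      (S.u x + S.u (S.σ y) + S.u (S.σ (S.Z xs)) = cc S.s x (S.σ y) (S.σ (S.Z xs)) →
        S.σ x = xs ∧ y = S.Y xs) := by
  have hsx : S.σ x ∈ S.A := S.hσA x hx
  have key := sheet_case hsx hy hxs
  have e1 : cc S.s x (S.σ y) (S.σ (S.Z xs)) = cc S.s (S.σ x) y (S.Z xs) := by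
    have := S.cc_sigma (S.σ x) y (S.Z xs)
    rw [S.hσσ] at this
    exact this
  have e2 : S.u x = S.u (S.σ x) := by
    rw [u_of_A hx, u_of_A hsx, S.ua_sigma]
  have e3 : S.u (S.σ y) = S.u y := by
    rw [u_of_P3 ⟨y, hy, rfl⟩, S.hσσ, u_of_P1 hy]
  have e4 : S.u (S.σ (S.Z xs)) = S.u (S.Z xs) := by
    rw [u_sZ hxs, u_Z hxs]
  rw [e1, e2, e3, e4]
  exact key

/-- equality means one of the four sheet values -/
def OnSheet (S : Sys E) (x y : E) : Prop :=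
  y = S.Y x ∨ y = S.Z x ∨ y = S.σ (S.Y (S.σ x)) ∨ y = S.σ (S.Z (S.σ x))

/-- one point in the centre, two outside -/
lemma out_case {x y z : E} (hx : x ∈ S.A) (hy : y ∈ S.Out) (hz : z ∈ S.Out) (hyz : y ≠ z) :
    S.u x + S.u y + S.u z ≤ cc S.s x y z ∧
      (S.u x + S.u y + S.u z = cc S.s x y z → S.OnSheet x y) := by
  have hxy : x ≠ y := by
    rintro rfl
    rcases hy with ((h | h) | h) | h
    · exact P1_not_A h hx
    · exact P2_not_A h hx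
    · exact P3_not_A h hx
    · exact P4_not_A h hx
  have hxz : x ≠ z := by
    rintro rfl
    rcases hz with ((h | h) | h) | h
    · exact P1_not_A h hx
    · exact P2_not_A h hx
    · exact P3_not_A h hx
    · exact P4_not_A h hx
  have uy := (u_bounds_out hy).2
  have uz := (u_bounds_out hz).2
  have far : ∀ a b : E, ‖y - a‖ < S.δ → ‖z - b‖ < S.δ → ‖a‖ = 1 → ‖b‖ = 1 →
      ‖a - b‖ ≤ Real.sqrt 2 →
      S.u x + S.u y + S.u z ≤ cc S.s x y z ∧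
      (S.u x + S.u y + S.u z = cc S.s x y z → S.OnSheet x y) := by
    intro a b h1 h2 h3 h4 h5
    have := far_case hx h1 h2 h3 h4 h5 uy uz hxy hxz hyz
    exact ⟨this.le, fun h => absurd h this.ne⟩
  have np : ‖S.p‖ = 1 := S.hp
  have nmp : ‖-S.p‖ = 1 := by rw [norm_neg, S.hp]
  have nsp : ‖S.σ S.p‖ = 1 := S.norm_sigma_p
  have nmsp : ‖-S.σ S.p‖ = 1 := by rw [norm_neg, S.norm_sigma_p]
  have s0 : (0 : ℝ) ≤ Real.sqrt 2 := Real.sqrt_nonneg _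
  have e1 : ‖S.p - S.σ S.p‖ ≤ Real.sqrt 2 := eq_p_sp.le
  have e2 : ‖S.p - (-S.σ S.p)‖ ≤ Real.sqrt 2 := eq_p_msp.le
  have e3 : ‖(-S.p) - S.σ S.p‖ ≤ Real.sqrt 2 := eq_mp_sp.le
  have e4 : ‖(-S.p) - (-S.σ S.p)‖ ≤ Real.sqrt 2 := eq_mp_msp.le
  have e5 : ‖S.σ S.p - S.p‖ ≤ Real.sqrt 2 := by rw [norm_sub_rev]; exact e1
  have e6 : ‖(-S.σ S.p) - S.p‖ ≤ Real.sqrt 2 := by rw [norm_sub_rev]; exact e2
  have e7 : ‖S.σ S.p - (-S.p)‖ ≤ Real.sqrt 2 := by rw [norm_sub_rev]; exact e3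
  have e8 : ‖(-S.σ S.p) - (-S.p)‖ ≤ Real.sqrt 2 := by rw [norm_sub_rev]; exact e4
  have self : ∀ a : E, ‖a - a‖ ≤ Real.sqrt 2 := by
    intro a; rw [sub_self, norm_zero]; exact s0
  rcases hy with ((hy | hy) | hy) | hy <;> rcases hz with ((hz | hz) | hz) | hz
  · exact far _ _ (mem_P1_dist hy) (mem_P1_dist hz) np np (self _)
  · -- y ∈ P1, z ∈ P2
    obtain ⟨xs, hxs, rfl⟩ := hz
    obtain ⟨h1, h2⟩ := sheet_case hx hy hxs
    refine ⟨h1, fun h => ?_⟩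
    obtain ⟨rfl, h4⟩ := h2 h
    exact Or.inl h4
  · exact far _ _ (mem_P1_dist hy) (mem_P3_dist hz) np nsp e1
  · exact far _ _ (mem_P1_dist hy) (mem_P4_dist hz) np nmsp e2
  · -- y ∈ P2, z ∈ P1
    obtain ⟨xs, hxs, rfl⟩ := hy
    obtain ⟨h1, h2⟩ := sheet_case hx hz hxs
    rw [cc_swap23]
    refine ⟨by linarith, fun h => ?_⟩
    obtain ⟨rfl, _⟩ := h2 (by linarith)
    exact Or.inr (Or.inl rfl)
  · exact far _ _ (mem_P2_dist hy) (mem_P2_dist hz) nmp nmp (self _)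
  · exact far _ _ (mem_P2_dist hy) (mem_P3_dist hz) nmp nsp e3
  · exact far _ _ (mem_P2_dist hy) (mem_P4_dist hz) nmp nmsp e4
  · exact far _ _ (mem_P3_dist hy) (mem_P1_dist hz) nsp np e5
  · exact far _ _ (mem_P3_dist hy) (mem_P2_dist hz) nsp nmp e7
  · exact far _ _ (mem_P3_dist hy) (mem_P3_dist hz) nsp nsp (self _)
  · -- y ∈ P3, z ∈ P4
    obtain ⟨y', hy', rfl⟩ := hy
    obtain ⟨z', ⟨xs, hxs, rfl⟩, rfl⟩ := hz
    obtain ⟨h1, h2⟩ := sheet_case_sigma hx hy' hxs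
    refine ⟨h1, fun h => ?_⟩
    obtain ⟨rfl, h4⟩ := h2 h
    refine Or.inr (Or.inr (Or.inl ?_))
    rw [h4]
  · exact far _ _ (mem_P4_dist hy) (mem_P1_dist hz) nmsp np e6
  · exact far _ _ (mem_P4_dist hy) (mem_P2_dist hz) nmsp nmp e8
  · -- y ∈ P4, z ∈ P3
    obtain ⟨z', hz', rfl⟩ := hz
    obtain ⟨y', ⟨xs, hxs, rfl⟩, rfl⟩ := hy
    obtain ⟨h1, h2⟩ := sheet_case_sigma hx hz' hxs
    rw [cc_swap23]
    refine ⟨by linarith, fun h => ?_⟩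
    obtain ⟨rfl, _⟩ := h2 (by linarith)
    exact Or.inr (Or.inr (Or.inr rfl))
  · exact far _ _ (mem_P4_dist hy) (mem_P4_dist hz) nmsp nmsp (self _)

/-- the main inequality -/
theorem main_ineq {a b c : E} (ha : a ∈ S.SS) (hb : b ∈ S.SS) (hc : c ∈ S.SS)
    (hab : a ≠ b) (hac : a ≠ c) (hbc : b ≠ c) :
    S.u a + S.u b + S.u c ≤ cc S.s a b c := by
  by_cases ha' : a ∈ S.A
  · by_cases hb' : b ∈ S.A
    · exact (two_A ha' hb' hc hab).le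
    · have hb'' : b ∈ S.Out := hb.resolve_left hb'
      by_cases hc' : c ∈ S.A
      · have := two_A ha' hc' hb hac
        rw [cc_swap23]
        linarith
      · exact (out_case ha' hb'' (hc.resolve_left hc') hbc).1
  · have ha'' : a ∈ S.Out := ha.resolve_left ha'
    by_cases hb' : b ∈ S.A
    · by_cases hc' : c ∈ S.A
      · have := two_A hb' hc' ha hbc
        rw [cc_perm1]
        linarith
      · have := (out_case hb' ha'' (hc.resolve_left hc') hac).1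
        rw [cc_swap12]
        linarith
    · have hb'' : b ∈ S.Out := hb.resolve_left hb'
      by_cases hc' : c ∈ S.A
      · have := (out_case hc' ha'' hb'' hab).1
        rw [cc_perm1, cc_perm1]
        linarith
      · exact (all_out ha'' hb'' (hc.resolve_left hc') hab hac hbc).le

/-- equality on the sheet: the first pair -/
lemma sheet_eq {x : E} (hx : x ∈ S.A) :
    S.u x + S.u (S.Y x) + S.u (S.Z x) = cc S.s x (S.Y x) (S.Z x) := by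
  rw [u_of_A hx, u_Y hx, u_Z hx]
  simp only [uc]
  ring

/-- equality on the sheet: the second pair -/
lemma sheet_eq_sigma {x : E} (hx : x ∈ S.A) :
    S.u x + S.u (S.σ (S.Y (S.σ x))) + S.u (S.σ (S.Z (S.σ x)))
      = cc S.s x (S.σ (S.Y (S.σ x))) (S.σ (S.Z (S.σ x))) := by
  have hsx : S.σ x ∈ S.A := S.hσA x hx
  have h := sheet_eq hsx
  have e1 : cc S.s x (S.σ (S.Y (S.σ x))) (S.σ (S.Z (S.σ x)))
      = cc S.s (S.σ x) (S.Y (S.σ x)) (S.Z (S.σ x)) := by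
    have := S.cc_sigma (S.σ x) (S.Y (S.σ x)) (S.Z (S.σ x))
    rw [S.hσσ] at this
    exact this
  rw [e1, ← h, u_sY hsx, u_sZ hsx, u_Y hsx, u_Z hsx, u_of_A hx, u_of_A hsx, S.ua_sigma]

end Sys

end Crest.Agent.Lib.NM
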