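import Crest.Agent.Lib.NM.Pot
import Crest.Prelude.Def_MultiMarginal

/-! The extended-real form of the cost inequality. -/

set_option autoImplicit false
set_option linter.unusedSectionVars false
open scoped RealInnerProductSpace ContDiff Topology ENNReal
open Set MeasureTheory
open Crest.AnalysisR.OT

namespace Crest.Agent.Lib.NM

section cost

variable {E : Type*} [NormedAddCommGroup E]

lemma pairCost_of_ne {s : ℝ} {a b : E} (hab : a ≠ b) :
    pairCost s a b = ENNReal.ofReal (‖a - b‖ ^ (-s)) := by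
  unfold pairCost
  rw [ENNReal.ofReal_rpow_of_pos (norm_pos_iff.mpr (sub_ne_zero.mpr hab))]

lemma pairCost_self {s : ℝ} (hs : 0 < s) (a : E) : pairCost s a a = ⊤ := by
  unfold pairCost
  rw [sub_self, norm_zero, ENNReal.ofReal_zero, ENNReal.zero_rpow_of_neg (by linarith)]

lemma tripleCost_of_ne {s : ℝ} {a b c : E} (hab : a ≠ b) (hac : a ≠ c) (hbc : b ≠ c) :
    tripleCost s (a, b, c) = ENNReal.ofReal (cc s a b c) := by
  unfold tripleCost cc
  simp only
  rw [pairCost_of_ne hab, pairCost_of_ne hac, pairCost_of_ne hbc,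
    ENNReal.ofReal_add (by positivity) (by positivity),
    ENNReal.ofReal_add (by positivity) (by positivity)]

lemma tripleCost_top_of_not {s : ℝ} (hs : 0 < s) {a b c : E} (h : ¬ (a ≠ b ∧ a ≠ c ∧ b ≠ c)) :
    tripleCost s (a, b, c) = ⊤ := by
  unfold tripleCost
  simp only
  by_cases hab : a = b
  · subst hab
    rw [pairCost_self hs]
    simp
  by_cases hac : a = c
  · subst hac
    rw [pairCost_self hs]
    simp
  by_cases hbc : b = c
  · subst hbc
    rw [pairCost_self hs]
    simp
  exact absurd ⟨hab, hac, hbc⟩ h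

lemma tripleCost_perm1 (s : ℝ) (a b c : E) :
    tripleCost s (a, b, c) = tripleCost s (b, c, a) := by
  unfold tripleCost pairCost
  simp only
  rw [norm_sub_rev c a, norm_sub_rev b a]
  ring

lemma tripleCost_swap23 (s : ℝ) (a b c : E) :
    tripleCost s (a, b, c) = tripleCost s (a, c, b) := by
  unfold tripleCost pairCost
  simp only
  rw [norm_sub_rev c b]
  ring

end cost

section meas

variable {E : Type*} [NormedAddCommGroup E] [MeasurableSpace E] [BorelSpace E]
  [SecondCountableTopology E]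

lemma measurable_pairCost (s : ℝ) :
    Measurable (fun q : E × E => pairCost s q.1 q.2) := by
  unfold pairCost
  fun_prop

lemma measurable_tripleCost (s : ℝ) : Measurable (fun q : E × E × E => tripleCost s q) := by
  unfold tripleCost
  have h := measurable_pairCost (E := E) s
  refine Measurable.add (Measurable.add ?_ ?_) ?_
  · exact h.comp (measurable_fst.prodMk (measurable_fst.comp measurable_snd))
  · exact h.comp (measurable_fst.prodMk (measurable_snd.comp measurable_snd))
  · exact h.comp ((measurable_fst.comp measurable_snd).prodMk (measurable_snd.comp measurable_snd))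

lemma measurable_cc (s : ℝ) {α : Type*} [MeasurableSpace α] {f g h : α → E}
    (hf : Measurable f) (hg : Measurable g) (hh : Measurable h) :
    Measurable (fun x => cc s (f x) (g x) (h x)) := by
  unfold cc
  fun_prop

end meas

namespace Sys

variable {E : Type*} [NormedAddCommGroup E] [InnerProductSpace ℝ E] [MeasurableSpace E]
  [BorelSpace E] (S : Sys E)

/-- the extended potential -/
noncomputable def U (w : E) : ℝ≥0∞ := ENNReal.ofReal (S.u w)

variable {S}

lemma add3_U {a b c : E} (ha : a ∈ S.SS) (hb : b ∈ S.SS) (hc : c ∈ S.SS) :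
    S.U a + S.U b + S.U c = ENNReal.ofReal (S.u a + S.u b + S.u c) := by
  unfold U
  rw [ENNReal.ofReal_add (add_nonneg (u_pos ha).le (u_pos hb).le) (u_pos hc).le,
    ENNReal.ofReal_add (u_pos ha).le (u_pos hb).le]

/-- inequality I -/
theorem cost_ge {a b c : E} (ha : a ∈ S.SS) (hb : b ∈ S.SS) (hc : c ∈ S.SS) :
    S.U a + S.U b + S.U c ≤ tripleCost S.s (a, b, c) := by
  by_cases h : a ≠ b ∧ a ≠ c ∧ b ≠ c
  · rw [add3_U ha hb hc, tripleCost_of_ne h.1 h.2.1 h.2.2]
    exact ENNReal.ofReal_le_ofReal (main_ineq ha hb hc h.1 h.2.1 h.2.2)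
  · rw [tripleCost_top_of_not S.hs h]
    exact le_top

/-- classification II -/
theorem cost_eq_classify {x y z : E} (hx : x ∈ S.A) (hy : y ∈ S.SS) (hz : z ∈ S.SS)
    (h : tripleCost S.s (x, y, z) = S.U x + S.U y + S.U z) : S.OnSheet x y := by
  have hx' : x ∈ S.SS := Or.inl hx
  have hfin : tripleCost S.s (x, y, z) ≠ ⊤ := by
    rw [h, add3_U hx' hy hz]
    exact ENNReal.ofReal_ne_top
  have hne : x ≠ y ∧ x ≠ z ∧ y ≠ z := by
    by_contra hc
    exact hfin (tripleCost_top_of_not S.hs hc)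
  obtain ⟨h1, h2, h3⟩ := hne
  rw [add3_U hx' hy hz, tripleCost_of_ne h1 h2 h3] at h
  have hnn : 0 ≤ S.u x + S.u y + S.u z :=
    add_nonneg (add_nonneg (u_pos hx').le (u_pos hy).le) (u_pos hz).le
  have hcc : 0 ≤ cc S.s x y z := by
    have := cc_nonneg_parts S.s x y z
    unfold cc
    linarith [this.1, this.2.1, this.2.2]
  have hreal : cc S.s x y z = S.u x + S.u y + S.u z := (ENNReal.ofReal_eq_ofReal_iff hcc hnn).mp h
  by_cases hy' : y ∈ S.A
  · have := two_A hx hy' hz h1
    linarith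
  by_cases hz' : z ∈ S.A
  · have := two_A hx hz' hy h2
    rw [cc_swap23] at hreal
    linarith
  exact (out_case hx (hy.resolve_left hy') (hz.resolve_left hz') h3).2 hreal.symm

lemma Y_mem_SS {x : E} (hx : x ∈ S.A) : S.Y x ∈ S.SS := Or.inr (Or.inl (Or.inl (Or.inl (Y_mem_P1 hx))))
lemma Z_mem_SS {x : E} (hx : x ∈ S.A) : S.Z x ∈ S.SS := Or.inr (Or.inl (Or.inl (Or.inr (Z_mem_P2 hx))))
lemma sY_mem_SS {x : E} (hx : x ∈ S.A) : S.σ (S.Y (S.σ x)) ∈ S.SS :=
  Or.inr (Or.inl (Or.inr (sY_mem_P3 (S.hσA x hx))))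
lemma sZ_mem_SS {x : E} (hx : x ∈ S.A) : S.σ (S.Z (S.σ x)) ∈ S.SS :=
  Or.inr (Or.inr (sZ_mem_P4 (S.hσA x hx)))

/-- equality on the first sheet -/
theorem cost_sheet {x : E} (hx : x ∈ S.A) :
    tripleCost S.s (x, S.Y x, S.Z x) = S.U x + S.U (S.Y x) + S.U (S.Z x) := by
  have hx' : x ∈ S.SS := Or.inl hx
  have h1 : x ≠ S.Y x := fun h => P1_not_A (Y_mem_P1 hx) (h ▸ hx)
  have h2 : x ≠ S.Z x := fun h => P2_not_A (Z_mem_P2 hx) (h ▸ hx)
  have h3 : S.Y x ≠ S.Z x := fun h => P2_not_P1 (Z_mem_P2 hx) (h ▸ Y_mem_P1 hx)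
  rw [add3_U hx' (Y_mem_SS hx) (Z_mem_SS hx), tripleCost_of_ne h1 h2 h3, sheet_eq hx]

/-- equality on the second sheet -/
theorem cost_sheet_sigma {x : E} (hx : x ∈ S.A) :
    tripleCost S.s (x, S.σ (S.Y (S.σ x)), S.σ (S.Z (S.σ x)))
      = S.U x + S.U (S.σ (S.Y (S.σ x))) + S.U (S.σ (S.Z (S.σ x))) := by
  have hx' : x ∈ S.SS := Or.inl hx
  have hsx := S.hσA x hx
  have h1 : x ≠ S.σ (S.Y (S.σ x)) := fun h => P3_not_A (sY_mem_P3 hsx) (h ▸ hx)
  have h2 : x ≠ S.σ (S.Z (S.σ x)) := fun h => P4_not_A (sZ_mem_P4 hsx) (h ▸ hx)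
  have h3 : S.σ (S.Y (S.σ x)) ≠ S.σ (S.Z (S.σ x)) := fun h =>
    P4_not_P3 (sZ_mem_P4 hsx) (h ▸ sY_mem_P3 hsx)
  rw [add3_U hx' (sY_mem_SS hx) (sZ_mem_SS hx), tripleCost_of_ne h1 h2 h3, sheet_eq_sigma hx]

section measurability

variable [SecondCountableTopology E]

lemma measurableSet_P1 : MeasurableSet S.P1 := S.hP1m
lemma measurableSet_P2 : MeasurableSet S.P2 := S.hP2m

lemma sigma_image_eq (B : Set E) : S.σ '' B = S.σ ⁻¹' B := by
  ext w
  constructor
  · rintro ⟨v, hv, rfl⟩
    show S.σ (S.σ v) ∈ B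
    rwa [S.hσσ]
  · intro h
    exact ⟨S.σ w, h, S.hσσ w⟩

lemma measurable_sigma : Measurable S.σ := S.σ.continuous.measurable

lemma measurableSet_P3 : MeasurableSet S.P3 := by
  unfold P3
  rw [sigma_image_eq]
  exact measurable_sigma S.hP1m

lemma measurableSet_P4 : MeasurableSet S.P4 := by
  unfold P4
  rw [sigma_image_eq]
  exact measurable_sigma S.hP2m

lemma measurableSet_Out : MeasurableSet S.Out :=
  ((measurableSet_P1.union measurableSet_P2).union measurableSet_P3).union measurableSet_P4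

lemma measurableSet_SS : MeasurableSet S.SS := S.hAm.union measurableSet_Out

lemma measurable_ua : Measurable S.ua := by
  unfold ua
  fun_prop

lemma measurable_ub : Measurable S.ub := by
  have : Continuous S.ub := by
    unfold ub
    fun_prop
  exact this.measurable

lemma measurable_uc : Measurable S.uc := by
  unfold uc
  have h1 := measurable_cc S.s (measurable_id (α := E)) S.hYm S.hZm
  exact (h1.sub measurable_ua).sub (measurable_ub.comp S.hYm)

lemma measurable_u : Measurable S.u := by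
  unfold u
  refine Measurable.ite S.hAm measurable_ua ?_
  refine Measurable.ite S.hP1m measurable_ub ?_
  refine Measurable.ite S.hP2m (measurable_uc.comp S.hZim) ?_
  refine Measurable.ite measurableSet_P3 (measurable_ub.comp measurable_sigma) ?_
  refine Measurable.ite measurableSet_P4 ((measurable_uc.comp S.hZim).comp measurable_sigma) ?_
  exact measurable_const

lemma measurable_U : Measurable S.U := ENNReal.measurable_ofReal.comp measurable_u

end measurability

end Sys

end Crest.Agent.Lib.NM
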