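import Crest.Agent.Lib.NM.Diffeo

/-! Square roots of push-forward densities under local diffeomorphisms. -/

set_option autoImplicit false
set_option linter.unusedSectionVars false
open MeasureTheory Set Topology
open scoped ENNReal ContDiff

namespace Crest.Agent.Lib.NM

section det

variable {E : Type*} [NormedAddCommGroup E] [NormedSpace ℝ E] [FiniteDimensional ℝ E]
  {F : Type*} [NormedAddCommGroup F] [NormedSpace ℝ F]

lemma contDiffOn_det {s : Set F} {D : F → E →L[ℝ] E} (hD : ContDiffOn ℝ ∞ D s) :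
    ContDiffOn ℝ ∞ (fun y => (D y).det) s := by
  classical
  let b := Module.finBasis ℝ E
  have h1 : ∀ y, (D y).det = Matrix.det (LinearMap.toMatrix b b (D y : E →ₗ[ℝ] E)) := by
    intro y
    rw [LinearMap.det_toMatrix]
  have hentry : ∀ i j, ContDiffOn ℝ ∞ (fun y => LinearMap.toMatrix b b (D y : E →ₗ[ℝ] E) i j) s := by
    intro i j
    have h2 : ContDiffOn ℝ ∞ (fun y => D y (b j)) s := hD.clm_apply contDiffOn_const
    have h3 : ContDiffOn ℝ ∞
        (fun y => LinearMap.toContinuousLinearMap (b.coord i) (D y (b j))) s :=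
      (ContinuousLinearMap.contDiff _).comp_contDiffOn h2
    refine h3.congr ?_
    intro y _
    simp [LinearMap.toMatrix_apply]
  simp only [h1, Matrix.det_apply']
  refine ContDiffOn.sum fun σ _ => contDiffOn_const.mul ?_
  exact contDiffOn_prod fun i _ => hentry _ _

end det

section push

variable {E : Type*} [NormedAddCommGroup E] [NormedSpace ℝ E] [FiniteDimensional ℝ E]
  [MeasureSpace E] [BorelSpace E] [(volume : Measure E).IsAddHaarMeasure]

/-- square root of the density of `(1/2) e_# (ψ² dx)` -/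
noncomputable def pushPsi (e : OpenPartialHomeomorph E E) (ψ : E → ℝ) (y : E) : ℝ :=
  open Classical in
  if y ∈ e.target then ψ (e.symm y) * Real.sqrt (2⁻¹ * |(fderiv ℝ e.symm y).det|) else 0

variable {e : OpenPartialHomeomorph E E} {ψ : E → ℝ}

lemma pushPsi_of_mem {y : E} (hy : y ∈ e.target) :
    pushPsi e ψ y = ψ (e.symm y) * Real.sqrt (2⁻¹ * |(fderiv ℝ e.symm y).det|) := by
  simp only [pushPsi, if_pos hy]

lemma pushPsi_of_notMem {y : E} (hy : y ∉ e.target) : pushPsi e ψ y = 0 := by
  simp only [pushPsi, if_neg hy]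

lemma pushPsi_nonneg (hψ : ∀ x, 0 ≤ ψ x) (y : E) : 0 ≤ pushPsi e ψ y := by
  by_cases hy : y ∈ e.target
  · rw [pushPsi_of_mem hy]
    exact mul_nonneg (hψ _) (Real.sqrt_nonneg _)
  · rw [pushPsi_of_notMem hy]

lemma det_symm_ne (he : ContDiffOn ℝ ∞ e e.source) (hes : ContDiffOn ℝ ∞ e.symm e.target) {y : E}
    (hy : y ∈ e.target) : (fderiv ℝ e.symm y).det ≠ 0 := by
  have hinj := fderiv_symm_injective e he hes hy
  exact det_ne_of_injective hinj

lemma pushPsi_eq_zero_of_notMem_image {K : Set E} (hK : tsupport ψ ⊆ K) {y : E} (hy : y ∉ e '' K) :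
    pushPsi e ψ y = 0 := by
  by_cases hyt : y ∈ e.target
  · rw [pushPsi_of_mem hyt]
    have : e.symm y ∉ tsupport ψ := by
      intro hc
      exact hy ⟨e.symm y, hK hc, e.right_inv hyt⟩
    rw [image_eq_zero_of_notMem_tsupport this, zero_mul]
  · exact pushPsi_of_notMem hyt

lemma pushPsi_contDiff (he : ContDiffOn ℝ ∞ e e.source) (hes : ContDiffOn ℝ ∞ e.symm e.target)
    (hψ : ContDiff ℝ ∞ ψ) (hKc : HasCompactSupport ψ) (hKs : tsupport ψ ⊆ e.source) :
    ContDiff ℝ ∞ (pushPsi e ψ) := by
  have himg : IsClosed (e '' tsupport ψ) :=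
    (hKc.isCompact.image_of_continuousOn (e.continuousOn.mono hKs)).isClosed
  have himg_t : e '' tsupport ψ ⊆ e.target := by
    rintro _ ⟨x, hx, rfl⟩
    exact e.map_source (hKs hx)
  rw [contDiff_iff_contDiffAt]
  intro y
  by_cases hy : y ∈ e.target
  · -- smooth on the target
    have hD : ContDiffOn ℝ ∞ (fderiv ℝ e.symm) e.target :=
      hes.fderiv_of_isOpen e.open_target (by simp)
    have hdet := contDiffOn_det hD
    have hy' := e.open_target.mem_nhds hy
    have h1 : ContDiffAt ℝ ∞ (fun z => (fderiv ℝ e.symm z).det) y := hdet.contDiffAt hy'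
    have h2 : ContDiffAt ℝ ∞ (fun z => |(fderiv ℝ e.symm z).det|) y :=
      h1.abs (det_symm_ne he hes hy)
    have hne : 2⁻¹ * |(fderiv ℝ e.symm y).det| ≠ 0 :=
      mul_ne_zero (by norm_num) (abs_ne_zero.mpr (det_symm_ne he hes hy))
    have h3 : ContDiffAt ℝ ∞ (fun z => Real.sqrt (2⁻¹ * |(fderiv ℝ e.symm z).det|)) y :=
      (contDiffAt_const.mul h2).sqrt hne
    have h4 : ContDiffAt ℝ ∞ (fun z => ψ (e.symm z)) y :=
      hψ.contDiffAt.comp y (hes.contDiffAt hy')
    refine (h4.mul h3).congr_of_eventuallyEq ?_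
    filter_upwards [hy'] with z hz
    exact pushPsi_of_mem hz
  · -- vanishes nearby
    have hy2 : y ∉ e '' tsupport ψ := fun h => hy (himg_t h)
    have hn : (e '' tsupport ψ)ᶜ ∈ 𝓝 y := himg.isOpen_compl.mem_nhds hy2
    refine (contDiffAt_const (c := (0 : ℝ))).congr_of_eventuallyEq ?_
    filter_upwards [hn] with z hz
    exact pushPsi_eq_zero_of_notMem_image subset_rfl hz

lemma pushPsi_tsupport (hKc : HasCompactSupport ψ) (hKs : tsupport ψ ⊆ e.source) :
    tsupport (pushPsi e ψ) ⊆ e '' tsupport ψ := by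
  have himg : IsClosed (e '' tsupport ψ) :=
    (hKc.isCompact.image_of_continuousOn (e.continuousOn.mono hKs)).isClosed
  apply closure_minimal _ himg
  intro y hy
  by_contra hc
  exact hy (pushPsi_eq_zero_of_notMem_image subset_rfl hc)

lemma pushPsi_hasCompactSupport (hKc : HasCompactSupport ψ) (hKs : tsupport ψ ⊆ e.source) :
    HasCompactSupport (pushPsi e ψ) :=
  (hKc.isCompact.image_of_continuousOn (e.continuousOn.mono hKs)).of_isClosed_subset
    (isClosed_tsupport _) (pushPsi_tsupport hKc hKs)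

/-- change of variables for the push-forward density -/
lemma pushPsi_lintegral (hes : ContDiffOn ℝ ∞ e.symm e.target)
    (hKs : Function.support ψ ⊆ e.source) (F : E → ℝ≥0∞) :
    ∫⁻ y, F y * ENNReal.ofReal ((pushPsi e ψ y) ^ 2)
      = 2⁻¹ * ∫⁻ x, F (e x) * ENNReal.ofReal ((ψ x) ^ 2) := by
  have himage : e.symm '' e.target = e.source := e.symm_image_target_eq_source
  have hcv := lintegral_image_eq_lintegral_abs_det_fderiv_mul (volume : Measure E)
    e.open_target.measurableSet
    (f := e.symm) (f' := fderiv ℝ e.symm)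
    (fun y hy => ((hes.contDiffAt (e.open_target.mem_nhds hy)).differentiableAt
      (by simp)).hasFDerivAt.hasFDerivWithinAt)
    e.symm.injOn (fun x => F (e x) * ENNReal.ofReal ((ψ x) ^ 2))
  rw [himage] at hcv
  have hsrc : ∫⁻ x, F (e x) * ENNReal.ofReal ((ψ x) ^ 2)
      = ∫⁻ x in e.source, F (e x) * ENNReal.ofReal ((ψ x) ^ 2) := by
    rw [← lintegral_indicator e.open_source.measurableSet]
    apply lintegral_congr
    intro x
    by_cases hx : x ∈ e.source
    · rw [indicator_of_mem hx]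
    · rw [indicator_of_notMem hx]
      have : ψ x = 0 := by
        by_contra hne
        exact hx (hKs hne)
      simp [this]
  rw [hsrc, hcv, ← lintegral_const_mul' _ _ (by simp)]
  rw [← lintegral_indicator e.open_target.measurableSet
    (fun y => 2⁻¹ * (ENNReal.ofReal |(fderiv ℝ e.symm y).det| *
      (F (e (e.symm y)) * ENNReal.ofReal ((ψ (e.symm y)) ^ 2))))]
  apply lintegral_congr
  intro y
  by_cases hy : y ∈ e.target
  · rw [indicator_of_mem hy, pushPsi_of_mem hy, e.right_inv hy, mul_pow,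
      Real.sq_sqrt (by positivity)]
    have hd : 0 ≤ |(fderiv ℝ e.symm y).det| := abs_nonneg _
    rw [mul_comm ((ψ (e.symm y)) ^ 2), ENNReal.ofReal_mul (by positivity),
      ENNReal.ofReal_mul (by norm_num)]
    have h2 : ENNReal.ofReal (2⁻¹ : ℝ) = 2⁻¹ := by
      rw [ENNReal.ofReal_inv_of_pos two_pos, ENNReal.ofReal_ofNat]
    rw [h2]
    ring
  · rw [indicator_of_notMem hy, pushPsi_of_notMem hy]
    simp

end push

end Crest.Agent.Lib.NM
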