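import Crest.Agent.Lib.NM.Calc
import Crest.Agent.Lib.NM.Diffeo

/-! The sheet: solving the first-order equations by the inverse function theorem. -/

set_option autoImplicit false
open scoped RealInnerProductSpace ContDiff Topology
open Set

namespace Crest.Agent.Lib.NM

variable {E : Type*} [NormedAddCommGroup E] [InnerProductSpace ℝ E]

/-- the constant `κ` -/
noncomputable def kap (s : ℝ) : ℝ := 4 * s * (2 : ℝ) ^ (s + 2) + 4 * (s * (s + 3)) + 1

/-- the force at the base point -/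
noncomputable def Fb (s : ℝ) (p : E) : E := G s p + G s ((2 : ℝ) • p)

/-- the first order system -/
noncomputable def Theta (s κ : ℝ) (p : E) (q : E × E × E) : E × E × E :=
  (q.1, G s (q.1 - q.2.1) + G s (q.1 - q.2.2) + κ • q.1,
    - G s (q.1 - q.2.1) + G s (q.2.1 - q.2.2) + κ • (q.2.1 - p) - Fb s p)

lemma Theta_base (s κ : ℝ) (p : E) : Theta s κ p (0, p, -p) = 0 := by
  have h2 : p - -p = (2 : ℝ) • p := by rw [two_smul, sub_neg_eq_add]
  simp only [Theta, Fb, zero_sub, sub_neg_eq_add, zero_add, smul_zero, add_zero, sub_self, h2,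
    G_neg]
  rw [two_smul] at *
  ext <;> simp

/-- the operator `H = DG(p)` -/
lemma H_inner_ge {s : ℝ} (hs : 0 < s) {p : E} (hp : ‖p‖ = 1) (v : E) :
    -s * ‖v‖ ^ 2 ≤ ⟪DG s p v, v⟫ := by
  rw [DG_unit s hp, inner_add_left, inner_smul_left, inner_smul_left, real_inner_self_eq_norm_sq]
  simp only [conj_trivial]
  have : 0 ≤ s * (s + 2) * ⟪p, v⟫ * ⟪p, v⟫ := by
    have : 0 ≤ s * (s + 2) := by positivity
    nlinarith [mul_self_nonneg ⟪p, v⟫]
  linarith

lemma H_norm_le {s : ℝ} (hs : 0 < s) {p : E} (hp : ‖p‖ = 1) (v : E) :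
    ‖DG s p v‖ ≤ s * (s + 3) * ‖v‖ := by
  rw [DG_unit s hp]
  have h1 : ‖(-s) • v‖ = s * ‖v‖ := by
    rw [norm_smul, Real.norm_eq_abs, abs_neg, abs_of_pos hs]
  have h2 : ‖(s * (s + 2) * ⟪p, v⟫) • p‖ ≤ s * (s + 2) * ‖v‖ := by
    rw [norm_smul, hp, mul_one, Real.norm_eq_abs, abs_mul, abs_of_pos (by positivity)]
    have : |⟪p, v⟫| ≤ ‖p‖ * ‖v‖ := abs_real_inner_le_norm p v
    rw [hp, one_mul] at this
    exact mul_le_mul_of_nonneg_left this (by positivity)
  calc _ ≤ ‖(-s) • v‖ + ‖(s * (s + 2) * ⟪p, v⟫) • p‖ := norm_add_le _ _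
    _ ≤ s * ‖v‖ + s * (s + 2) * ‖v‖ := by rw [h1]; linarith
    _ = _ := by ring

lemma H_inj {s : ℝ} (hs : 0 < s) {p : E} (hp : ‖p‖ = 1) {v : E} (h : DG s p v = 0) : v = 0 := by
  rw [DG_unit s hp] at h
  have h1 : ⟪p, (-s) • v + (s * (s + 2) * ⟪p, v⟫) • p⟫ = 0 := by rw [h, inner_zero_right]
  rw [inner_add_right, inner_smul_right, inner_smul_right, real_inner_self_eq_norm_sq, hp] at h1
  have h2 : s * (s + 1) * ⟪p, v⟫ = 0 := by nlinarith
  have h3 : ⟪p, v⟫ = 0 := by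
    have : s * (s + 1) ≠ 0 := by positivity
    exact (mul_eq_zero.mp h2).resolve_left this
  rw [h3] at h
  simp only [mul_zero, zero_smul, add_zero] at h
  have : (-s) ≠ 0 := by linarith
  exact (smul_eq_zero.mp h).resolve_left this

/-- the linearisation -/
noncomputable def LL (s κ : ℝ) (p : E) : (E × E × E) →L[ℝ] (E × E × E) :=
  let π₁ : (E × E × E) →L[ℝ] E := ContinuousLinearMap.fst ℝ E (E × E)
  let π₂ : (E × E × E) →L[ℝ] E :=
    (ContinuousLinearMap.fst ℝ E E).comp (ContinuousLinearMap.snd ℝ E (E × E))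
  let π₃ : (E × E × E) →L[ℝ] E :=
    (ContinuousLinearMap.snd ℝ E E).comp (ContinuousLinearMap.snd ℝ E (E × E))
  π₁.prod (((DG s (-p)).comp (π₁ - π₂) + (DG s p).comp (π₁ - π₃) + κ • π₁).prod
    (-(DG s (-p)).comp (π₁ - π₂) + (DG s ((2 : ℝ) • p)).comp (π₂ - π₃) + κ • π₂))

lemma LL_apply (s κ : ℝ) (p : E) (a b c : E) :
    LL s κ p (a, b, c) = (a, DG s (-p) (a - b) + DG s p (a - c) + κ • a,
      - DG s (-p) (a - b) + DG s ((2 : ℝ) • p) (b - c) + κ • b) := by
  simp [LL]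

lemma hasFDerivAt_Theta (s κ : ℝ) {p : E} (hp : ‖p‖ = 1) :
    HasFDerivAt (Theta s κ p) (LL s κ p) ((0 : E), p, -p) := by
  have hp0 : p ≠ 0 := by
    intro h; rw [h, norm_zero] at hp; norm_num at hp
  have h2 : p - -p = (2 : ℝ) • p := by rw [two_smul, sub_neg_eq_add]
  have h20 : (2 : ℝ) • p ≠ 0 := smul_ne_zero (by norm_num) hp0
  let π₁ : (E × E × E) →L[ℝ] E := ContinuousLinearMap.fst ℝ E (E × E)
  let π₂ : (E × E × E) →L[ℝ] E :=
    (ContinuousLinearMap.fst ℝ E E).comp (ContinuousLinearMap.snd ℝ E (E × E))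
  let π₃ : (E × E × E) →L[ℝ] E :=
    (ContinuousLinearMap.snd ℝ E E).comp (ContinuousLinearMap.snd ℝ E (E × E))
  have q12 : (π₁ - π₂) ((0 : E), p, -p) = -p := by simp [π₁, π₂]
  have q13 : (π₁ - π₃) ((0 : E), p, -p) = p := by simp [π₁, π₃]
  have q23 : (π₂ - π₃) ((0 : E), p, -p) = (2 : ℝ) • p := by simp [π₂, π₃, h2]
  have hA : HasFDerivAt (fun q : E × E × E => G s ((π₁ - π₂) q))
      ((DG s (-p)).comp (π₁ - π₂)) ((0 : E), p, -p) := by
    have := hasFDerivAt_G s (neg_ne_zero.mpr hp0)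
    rw [← q12] at this
    have h := this.comp ((0 : E), p, -p) (π₁ - π₂).hasFDerivAt
    rw [q12] at h
    exact h
  have hB : HasFDerivAt (fun q : E × E × E => G s ((π₁ - π₃) q))
      ((DG s p).comp (π₁ - π₃)) ((0 : E), p, -p) := by
    have := hasFDerivAt_G s hp0
    rw [← q13] at this
    have h := this.comp ((0 : E), p, -p) (π₁ - π₃).hasFDerivAt
    rw [q13] at h
    exact h
  have hC : HasFDerivAt (fun q : E × E × E => G s ((π₂ - π₃) q))
      ((DG s ((2 : ℝ) • p)).comp (π₂ - π₃)) ((0 : E), p, -p) := by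
    have := hasFDerivAt_G s h20
    rw [← q23] at this
    have h := this.comp ((0 : E), p, -p) (π₂ - π₃).hasFDerivAt
    rw [q23] at h
    exact h
  have h1 : HasFDerivAt (fun q : E × E × E => π₁ q) π₁ ((0 : E), p, -p) := π₁.hasFDerivAt
  have h22 : HasFDerivAt (fun q : E × E × E => π₂ q) π₂ ((0 : E), p, -p) := π₂.hasFDerivAt
  have hsecond := ((hA.add hB).add (h1.const_smul κ))
  have hthird := ((hA.neg.add hC).add ((h22.sub_const p).const_smul κ)).sub_const (Fb s p)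
  have := h1.prodMk (hsecond.prodMk hthird)
  exact this

lemma contDiffOn_Theta (s κ : ℝ) (p : E) :
    ContDiffOn ℝ ∞ (Theta s κ p) {q : E × E × E | q.1 - q.2.1 ≠ 0 ∧ q.1 - q.2.2 ≠ 0 ∧
      q.2.1 - q.2.2 ≠ 0} := by
  intro q hq
  obtain ⟨h1, h2, h3⟩ := hq
  refine ContDiffAt.contDiffWithinAt ?_
  have h1' : ContDiffAt ℝ ∞ (fun q : E × E × E => q.1) q := contDiffAt_fst
  have h2' : ContDiffAt ℝ ∞ (fun q : E × E × E => q.2.1) q := contDiffAt_fst.comp q contDiffAt_snd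
  have h3' : ContDiffAt ℝ ∞ (fun q : E × E × E => q.2.2) q := contDiffAt_snd.comp q contDiffAt_snd
  have g1 : ContDiffAt ℝ ∞ (fun q : E × E × E => G s (q.1 - q.2.1)) q :=
    ContDiffAt.comp (g := G s) (f := fun q : E × E × E => q.1 - q.2.1) q (contDiffAt_G s h1)
      (h1'.sub h2')
  have g2 : ContDiffAt ℝ ∞ (fun q : E × E × E => G s (q.1 - q.2.2)) q :=
    ContDiffAt.comp (g := G s) (f := fun q : E × E × E => q.1 - q.2.2) q (contDiffAt_G s h2)
      (h1'.sub h3')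
  have g3 : ContDiffAt ℝ ∞ (fun q : E × E × E => G s (q.2.1 - q.2.2)) q :=
    ContDiffAt.comp (g := G s) (f := fun q : E × E × E => q.2.1 - q.2.2) q (contDiffAt_G s h3)
      (h2'.sub h3')
  exact h1'.prodMk (((g1.add g2).add (contDiffAt_const.smul h1')).prodMk
    (((g1.neg.add g3).add (contDiffAt_const.smul (h2'.sub contDiffAt_const))).sub contDiffAt_const))

omit [InnerProductSpace ℝ E] in
lemma isOpen_Omega : IsOpen {q : E × E × E | q.1 - q.2.1 ≠ 0 ∧ q.1 - q.2.2 ≠ 0 ∧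
      q.2.1 - q.2.2 ≠ 0} := by
  have c1 : Continuous (fun q : E × E × E => q.1 - q.2.1) := by fun_prop
  have c2 : Continuous (fun q : E × E × E => q.1 - q.2.2) := by fun_prop
  have c3 : Continuous (fun q : E × E × E => q.2.1 - q.2.2) := by fun_prop
  exact (isOpen_ne.preimage c1).inter ((isOpen_ne.preimage c2).inter (isOpen_ne.preimage c3))

section Linear

variable {s κ : ℝ} {p : E}

lemma two_pow_ge (hs : 0 < s) : (4 : ℝ) ≤ (2 : ℝ) ^ (s + 2) := by
  have h : (2 : ℝ) ^ (2 : ℝ) ≤ (2 : ℝ) ^ (s + 2) :=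
    Real.rpow_le_rpow_of_exponent_le (by norm_num) (by linarith)
  have e : (2 : ℝ) ^ (2 : ℝ) = 4 := by norm_num
  linarith

/-- abbreviation for `θ = 2^(-s-2)` -/
lemma theta_pos (s : ℝ) : (0 : ℝ) < (2 : ℝ) ^ (-s - 2) := by positivity

lemma theta_mul (s : ℝ) : (2 : ℝ) ^ (-s - 2) * (2 : ℝ) ^ (s + 2) = 1 := by
  rw [← Real.rpow_add (by norm_num)]
  simp

lemma theta_le_one (hs : 0 < s) : (2 : ℝ) ^ (-s - 2) ≤ 1 := by
  have := theta_mul s
  have h4 := two_pow_ge hs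
  have hpos := theta_pos s
  nlinarith

lemma DG_neg_eq (s : ℝ) (hp : ‖p‖ = 1) (v : E) : DG s (-p) v = DG s p v := by
  rw [DG_neg_unit s hp, DG_unit s hp]

lemma kap_gt_three (hs : 0 < s) (hκ : kap s ≤ κ) : 3 * s < κ := by
  have h4 := two_pow_ge hs
  unfold kap at hκ
  have : 0 ≤ s * (s + 3) := by positivity
  have h5 : 4 * s * 4 ≤ 4 * s * (2 : ℝ) ^ (s + 2) := by
    apply mul_le_mul_of_nonneg_left h4; positivity
  linarith

/-- coercivity: `a H v + κ v = 0` with `κ > a s`, `a ≥ 0` gives `v = 0`. -/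
lemma coercive (hs : 0 < s) (hp : ‖p‖ = 1) {a : ℝ} (ha : 0 ≤ a) (hκ : a * s < κ) {v : E}
    (h : a • DG s p v + κ • v = 0) : v = 0 := by
  have h1 : ⟪a • DG s p v + κ • v, v⟫ = 0 := by rw [h, inner_zero_left]
  rw [inner_add_left, inner_smul_left, inner_smul_left, real_inner_self_eq_norm_sq] at h1
  simp only [conj_trivial] at h1
  have h2 := H_inner_ge hs hp v
  have h3 : a * (-s * ‖v‖ ^ 2) ≤ a * ⟪DG s p v, v⟫ := mul_le_mul_of_nonneg_left h2 ha
  have h4 : (κ - a * s) * ‖v‖ ^ 2 ≤ 0 := by nlinarith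
  have h5 : ‖v‖ ^ 2 ≤ 0 := by
    by_contra hc
    push Not at hc
    have : 0 < κ - a * s := by linarith
    nlinarith [mul_pos this hc]
  have h6 : ‖v‖ = 0 := by
    have : ‖v‖ ^ 2 = 0 := le_antisymm h5 (by positivity)
    exact pow_eq_zero_iff (by norm_num) |>.mp this
  exact norm_eq_zero.mp h6

/-- the system of relations satisfied by a solution of `L (v,b,c) = (v,0,0)`. -/
lemma LL_rel (hp : ‖p‖ = 1) {v b c v' : E} (h : LL s κ p (v, b, c) = (v', 0, 0)) :
    v = v' ∧ DG s p (v - b) + DG s p (v - c) + κ • v = 0 ∧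
      - DG s p (v - b) + (2 : ℝ) ^ (-s - 2) • DG s p (b - c) + κ • b = 0 := by
  rw [LL_apply] at h
  simp only [Prod.mk.injEq] at h
  obtain ⟨h0, h1, h2⟩ := h
  refine ⟨h0, ?_, ?_⟩
  · rw [DG_neg_eq s hp] at h1; exact h1
  · rw [DG_neg_eq s hp, DG_two_unit s hp] at h2; exact h2

/-- injectivity of the linearisation -/
lemma LL_injective (hs : 0 < s) (hp : ‖p‖ = 1) (hκ : kap s ≤ κ) :
    Function.Injective (LL s κ p) := by
  rw [injective_iff_map_eq_zero]
  rintro ⟨a, b, c⟩ h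
  have h' : LL s κ p (a, b, c) = (0, 0, 0) := h
  obtain ⟨ha, h1, h2⟩ := LL_rel hp h'
  subst ha
  have hκ3 := kap_gt_three hs hκ
  have hθ := theta_le_one hs
  have hθpos := theta_pos s
  have e1 : b + c = 0 := by
    apply H_inj hs hp
    have : DG s p (b + c) = -(DG s p (0 - b) + DG s p (0 - c) + κ • (0 : E)) := by
      simp only [zero_sub, map_neg, smul_zero, add_zero, neg_add_rev, neg_neg, map_add]
      abel
    rw [this, h1, neg_zero]
  have ec : c = -b := by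
    rw [eq_neg_iff_add_eq_zero, add_comm]; exact e1
  subst ec
  have e2 : (1 + 2 * (2 : ℝ) ^ (-s - 2)) • DG s p b + κ • b = 0 := by
    have : b - -b = (2 : ℝ) • b := by rw [two_smul, sub_neg_eq_add]
    rw [this] at h2
    simp only [zero_sub, map_neg, map_smul, neg_neg] at h2
    rw [← h2, add_smul, one_smul, smul_smul, mul_comm]
  have hb : b = 0 := by
    refine coercive hs hp (a := 1 + 2 * (2 : ℝ) ^ (-s - 2)) (by positivity) ?_ e2
    nlinarith
  subst hb
  simp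

/-- derivative of `Y` is injective -/
lemma rel_Y_inj (hs : 0 < s) (hp : ‖p‖ = 1) (hκ : kap s ≤ κ) {v c : E}
    (h : LL s κ p (v, 0, c) = (v, 0, 0)) : v = 0 := by
  obtain ⟨-, h1, h2⟩ := LL_rel hp h
  have hT := theta_mul s
  have hθpos := theta_pos s
  have e1 : v + (2 : ℝ) ^ (-s - 2) • c = 0 := by
    apply H_inj hs hp
    have : DG s p (v + (2 : ℝ) ^ (-s - 2) • c) =
        -(- DG s p (v - 0) + (2 : ℝ) ^ (-s - 2) • DG s p (0 - c) + κ • (0 : E)) := by
      simp only [sub_zero, zero_sub, map_neg, smul_neg, smul_zero, add_zero, neg_add_rev, neg_neg,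
        map_add, map_smul]
      abel
    rw [this, h2, neg_zero]
  have ec : c = -((2 : ℝ) ^ (s + 2)) • v := by
    have : (2 : ℝ) ^ (s + 2) • (v + (2 : ℝ) ^ (-s - 2) • c) = 0 := by rw [e1, smul_zero]
    rw [smul_add, smul_smul, mul_comm, hT, one_smul] at this
    rw [neg_smul]
    exact eq_neg_of_add_eq_zero_right this
  subst ec
  have e2 : (2 + (2 : ℝ) ^ (s + 2)) • DG s p v + κ • v = 0 := by
    rw [← h1]
    simp only [sub_zero, sub_neg_eq_add, map_add, map_smul, neg_smul, add_smul]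
    rw [two_smul]
    abel
  refine coercive hs hp (a := 2 + (2 : ℝ) ^ (s + 2)) (by positivity) ?_ e2
  have h4 := two_pow_ge hs
  unfold kap at hκ
  have : 0 ≤ s * (s + 3) := by positivity
  have h5 : s * 4 ≤ s * (2 : ℝ) ^ (s + 2) := mul_le_mul_of_nonneg_left h4 hs.le
  nlinarith

/-- derivative of `Z` is injective -/
lemma rel_Z_inj (hs : 0 < s) (hp : ‖p‖ = 1) (hκ : kap s ≤ κ) {v b : E}
    (h : LL s κ p (v, b, 0) = (v, 0, 0)) : v = 0 := by
  obtain ⟨-, h1, h2⟩ := LL_rel hp h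
  set A := s * (s + 3) with hA
  have hApos : 0 < A := by positivity
  have hN := H_norm_le hs hp
  have hκ4 : 4 * A < κ := by
    have h4 := two_pow_ge hs
    unfold kap at hκ
    have : 0 < 4 * s * (2 : ℝ) ^ (s + 2) := by positivity
    linarith
  have hκpos : 0 < κ := by linarith
  have hθ := theta_le_one hs
  have hθpos := theta_pos s
  have hn1 : κ * ‖v‖ ≤ 2 * A * ‖v‖ + A * ‖b‖ := by
    have : κ • v = -(DG s p (v - b) + DG s p v) := by
      rw [sub_zero] at h1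
      rw [eq_neg_iff_add_eq_zero, add_comm]
      exact h1
    have h3 : ‖κ • v‖ = κ * ‖v‖ := by rw [norm_smul, Real.norm_eq_abs, abs_of_pos hκpos]
    rw [← h3, this, norm_neg]
    have n1 := hN (v - b)
    have n2 := hN v
    have n3 : ‖v - b‖ ≤ ‖v‖ + ‖b‖ := norm_sub_le _ _
    have n4 : A * ‖v - b‖ ≤ A * (‖v‖ + ‖b‖) := mul_le_mul_of_nonneg_left n3 hApos.le
    calc _ ≤ ‖DG s p (v - b)‖ + ‖DG s p v‖ := norm_add_le _ _
      _ ≤ _ := by nlinarith
  have hn2 : κ * ‖b‖ ≤ A * ‖v‖ + 2 * A * ‖b‖ := by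
    have : κ • b = DG s p (v - b) - (2 : ℝ) ^ (-s - 2) • DG s p b := by
      rw [sub_zero] at h2
      linear_combination (norm := module) h2
    have h3 : ‖κ • b‖ = κ * ‖b‖ := by rw [norm_smul, Real.norm_eq_abs, abs_of_pos hκpos]
    rw [← h3, this]
    have n1 := hN (v - b)
    have n2 := hN b
    have n3 : ‖v - b‖ ≤ ‖v‖ + ‖b‖ := norm_sub_le _ _
    have n4 : A * ‖v - b‖ ≤ A * (‖v‖ + ‖b‖) := mul_le_mul_of_nonneg_left n3 hApos.le
    have n5 : ‖(2 : ℝ) ^ (-s - 2) • DG s p b‖ ≤ A * ‖b‖ := by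
      rw [norm_smul, Real.norm_eq_abs, abs_of_pos hθpos]
      have : 0 ≤ ‖DG s p b‖ := norm_nonneg _
      nlinarith
    calc _ ≤ ‖DG s p (v - b)‖ + ‖(2 : ℝ) ^ (-s - 2) • DG s p b‖ := norm_sub_le _ _
      _ ≤ _ := by nlinarith
  have hv : ‖v‖ = 0 := by
    have h0 : 0 ≤ ‖v‖ := norm_nonneg _
    have h0' : 0 ≤ ‖b‖ := norm_nonneg _
    nlinarith
  exact norm_eq_zero.mp hv

end Linear

/-! ### The sheet -/

variable [FiniteDimensional ℝ E]

/-- **Existence of the sheet.** -/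
theorem exists_sheet {s κ : ℝ} (hs : 0 < s) {p : E} (hp : ‖p‖ = 1) (hκ : kap s ≤ κ) :
    ∃ (Y Z : E → E) (eY eZ : OpenPartialHomeomorph E E),
      (0 : E) ∈ eY.source ∧ (0 : E) ∈ eZ.source ∧ (∀ x, eY x = Y x) ∧ (∀ x, eZ x = Z x) ∧
      ContDiffOn ℝ ∞ eY eY.source ∧ ContDiffOn ℝ ∞ eY.symm eY.target ∧
      ContDiffOn ℝ ∞ eZ eZ.source ∧ ContDiffOn ℝ ∞ eZ.symm eZ.target ∧
      Y 0 = p ∧ Z 0 = -p ∧
      ∃ D : Set E, IsOpen D ∧ eY.source ⊆ D ∧ eZ.source ⊆ D ∧ ContinuousOn Y D ∧ ContinuousOn Z D ∧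
      ∀ x ∈ D, G s (x - Y x) + G s (x - Z x) + κ • x = 0 ∧
        - G s (x - Y x) + G s (Y x - Z x) + κ • (Y x - p) - Fb s p = 0 := by
  have hp0 : p ≠ 0 := by
    intro h; rw [h, norm_zero] at hp; norm_num at hp
  set q₀ : E × E × E := ((0 : E), p, -p) with hq₀
  have hq₀Ω : q₀ ∈ {q : E × E × E | q.1 - q.2.1 ≠ 0 ∧ q.1 - q.2.2 ≠ 0 ∧ q.2.1 - q.2.2 ≠ 0} := by
    refine ⟨?_, ?_, ?_⟩
    · simpa [hq₀] using hp0
    · simpa [hq₀] using hp0
    · have : p - -p = (2 : ℝ) • p := by rw [two_smul, sub_neg_eq_add]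
      simp only [hq₀, this]
      exact smul_ne_zero (by norm_num) hp0
  have hder := hasFDerivAt_Theta s κ hp
  have hinj : Function.Injective (fderiv ℝ (Theta s κ p) q₀) := by
    rw [hder.fderiv]
    exact LL_injective hs hp hκ
  obtain ⟨e, he0, heU, heT, heS, heI⟩ :=
    exists_localDiffeo isOpen_Omega hq₀Ω (contDiffOn_Theta s κ p) hinj
  have hebase : e q₀ = 0 := by rw [heT]; exact Theta_base s κ p
  have hzero : (0 : E × E × E) ∈ e.target := by
    rw [← hebase]; exact e.map_source he0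
  have hsymm0 : e.symm 0 = q₀ := by
    rw [← hebase]; exact e.left_inv he0
  let incl : E → E × E × E := fun x => (x, 0, 0)
  have hincl : Continuous incl := by fun_prop
  have hinclD : ContDiff ℝ ∞ incl := by
    exact contDiff_id.prodMk contDiff_const
  let D : Set E := incl ⁻¹' e.target
  have hDo : IsOpen D := e.open_target.preimage hincl
  have h0D : (0 : E) ∈ D := hzero
  let Λ : E → E × E × E := fun x => e.symm (incl x)
  have hΛ : ContDiffOn ℝ ∞ Λ D := heI.comp hinclD.contDiffOn (fun x hx => hx)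
  let Y : E → E := fun x => (Λ x).2.1
  let Z : E → E := fun x => (Λ x).2.2
  have hY : ContDiffOn ℝ ∞ Y D := by
    have h1 : ContDiff ℝ ∞ (fun q : E × E × E => q.2.1) := contDiff_fst.comp contDiff_snd
    exact h1.comp_contDiffOn hΛ
  have hZ : ContDiffOn ℝ ∞ Z D := by
    have h1 : ContDiff ℝ ∞ (fun q : E × E × E => q.2.2) := contDiff_snd.comp contDiff_snd
    exact h1.comp_contDiffOn hΛ
  have hΛ0 : Λ 0 = q₀ := hsymm0
  have hY0 : Y 0 = p := by simp only [Y, hΛ0, hq₀]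
  have hZ0 : Z 0 = -p := by simp only [Z, hΛ0, hq₀]
  -- equations
  have heq : ∀ x ∈ D, Theta s κ p (Λ x) = incl x := by
    intro x hx
    rw [← heT]
    exact e.right_inv hx
  have hfst : ∀ x ∈ D, (Λ x).1 = x := by
    intro x hx
    have := congrArg Prod.fst (heq x hx)
    simpa [Theta, incl] using this
  have hE : ∀ x ∈ D, G s (x - Y x) + G s (x - Z x) + κ • x = 0 ∧
      - G s (x - Y x) + G s (Y x - Z x) + κ • (Y x - p) - Fb s p = 0 := by
    intro x hx
    have h := heq x hx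
    have h1 := hfst x hx
    simp only [Theta, incl, Prod.mk.injEq, h1] at h
    exact ⟨h.2.1, h.2.2⟩
  -- derivatives
  have hΛ0at : ContDiffAt ℝ ∞ Λ 0 := hΛ.contDiffAt (hDo.mem_nhds h0D)
  have hΛd : HasFDerivAt Λ (fderiv ℝ Λ 0) 0 := (hΛ0at.differentiableAt (by simp)).hasFDerivAt
  have hrel : ∀ v : E, LL s κ p (fderiv ℝ Λ 0 v) = (v, 0, 0) := by
    intro v
    have h1 : HasFDerivAt (fun x => Theta s κ p (Λ x)) ((LL s κ p).comp (fderiv ℝ Λ 0)) 0 := by
      have hd : HasFDerivAt (Theta s κ p) (LL s κ p) (Λ 0) := by rw [hΛ0]; exact hder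
      exact hd.comp 0 hΛd
    have h2 : HasFDerivAt (fun x => Theta s κ p (Λ x)) (fderiv ℝ incl 0) 0 := by
      have h3 : HasFDerivAt incl (fderiv ℝ incl 0) 0 :=
        (hinclD.contDiffAt.differentiableAt (by simp)).hasFDerivAt
      refine h3.congr_of_eventuallyEq ?_
      filter_upwards [hDo.mem_nhds h0D] with x hx
      exact heq x hx
    have h3 := h1.unique h2
    have h4 : fderiv ℝ incl 0 v = (v, 0, 0) := by
      have : HasFDerivAt incl ((ContinuousLinearMap.id ℝ E).prod (0 : E →L[ℝ] E × E)) 0 :=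
        (hasFDerivAt_id (0 : E)).prodMk (hasFDerivAt_const (0 : E × E) (0 : E))
      rw [this.fderiv]
      simp only [ContinuousLinearMap.prod_apply, ContinuousLinearMap.id_apply,
        ContinuousLinearMap.zero_apply]
      rfl
    rw [← h4, ← h3]
    rfl
  have hfstd : ∀ v : E, (fderiv ℝ Λ 0 v).1 = v := by
    intro v
    have := congrArg Prod.fst (hrel v)
    rcases h' : fderiv ℝ Λ 0 v with ⟨a, b, c⟩
    rw [h'] at this
    rw [LL_apply] at this
    simpa using this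
  have hYd : HasFDerivAt Y ((ContinuousLinearMap.fst ℝ E E).comp
      ((ContinuousLinearMap.snd ℝ E (E × E)).comp (fderiv ℝ Λ 0))) 0 := by
    have h1 : HasFDerivAt (fun q : E × E × E => q.2.1)
        ((ContinuousLinearMap.fst ℝ E E).comp (ContinuousLinearMap.snd ℝ E (E × E))) (Λ 0) :=
      ((ContinuousLinearMap.fst ℝ E E).comp (ContinuousLinearMap.snd ℝ E (E × E))).hasFDerivAt
    exact h1.comp 0 hΛd
  have hZd : HasFDerivAt Z ((ContinuousLinearMap.snd ℝ E E).comp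
      ((ContinuousLinearMap.snd ℝ E (E × E)).comp (fderiv ℝ Λ 0))) 0 := by
    have h1 : HasFDerivAt (fun q : E × E × E => q.2.2)
        ((ContinuousLinearMap.snd ℝ E E).comp (ContinuousLinearMap.snd ℝ E (E × E))) (Λ 0) :=
      ((ContinuousLinearMap.snd ℝ E E).comp (ContinuousLinearMap.snd ℝ E (E × E))).hasFDerivAt
    exact h1.comp 0 hΛd
  have hYinj : Function.Injective (fderiv ℝ Y 0) := by
    rw [hYd.fderiv, injective_iff_map_eq_zero]
    intro v hv
    have h1 := hrel v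
    have h2 := hfstd v
    rcases h' : fderiv ℝ Λ 0 v with ⟨a, b, c⟩
    rw [h'] at h1 h2
    simp only [ContinuousLinearMap.coe_comp, Function.comp, h', ContinuousLinearMap.coe_snd',
      ContinuousLinearMap.coe_fst'] at hv
    simp only at h2 hv
    subst h2 hv
    exact rel_Y_inj hs hp hκ h1
  have hZinj : Function.Injective (fderiv ℝ Z 0) := by
    rw [hZd.fderiv, injective_iff_map_eq_zero]
    intro v hv
    have h1 := hrel v
    have h2 := hfstd v
    rcases h' : fderiv ℝ Λ 0 v with ⟨a, b, c⟩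
    rw [h'] at h1 h2
    simp only [ContinuousLinearMap.coe_comp, Function.comp, h', ContinuousLinearMap.coe_snd',
      ContinuousLinearMap.coe_fst'] at hv
    simp only at h2 hv
    subst h2 hv
    exact rel_Z_inj hs hp hκ h1
  obtain ⟨eY, hY0s, hYD, hYT, hYS, hYI⟩ := exists_localDiffeo hDo h0D hY hYinj
  obtain ⟨eZ, hZ0s, hZD, hZT, hZS, hZI⟩ := exists_localDiffeo hDo h0D hZ hZinj
  exact ⟨Y, Z, eY, eZ, hY0s, hZ0s, hYT, hZT, hYS, hYI, hZS, hZI, hY0, hZ0, D, hDo, hYD, hZD,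
    hY.continuousOn, hZ.continuousOn, hE⟩

end Crest.Agent.Lib.NM
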