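import Crest.Agent.Lib.NM.Sheet

/-! The abstract system: sheet, patches, potentials and the cost inequalities. -/

set_option autoImplicit false
open scoped RealInnerProductSpace ContDiff Topology
open Set

namespace Crest.Agent.Lib.NM

/-- real cost of a triple -/
noncomputable def cc {E : Type*} [NormedAddCommGroup E] (s : ℝ) (a b c : E) : ℝ :=
  ‖a - b‖ ^ (-s) + ‖a - c‖ ^ (-s) + ‖b - c‖ ^ (-s)

/-- `τ` -/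
noncomputable def tau (s : ℝ) : ℝ := (2 : ℝ) ^ (-s) / 4
/-- base cost -/
noncomputable def c0 (s : ℝ) : ℝ := 2 + (2 : ℝ) ^ (-s)
/-- center value -/
noncomputable def alph (s : ℝ) : ℝ := c0 s - 2 * tau s
/-- the gap between the perpendicular and the antipodal configurations -/
noncomputable def gap (s : ℝ) : ℝ := (Real.sqrt 2) ^ (-s) - (2 : ℝ) ^ (-s)
/-- tolerance -/
noncomputable def gg (s : ℝ) : ℝ := min (tau s / 2) (gap s / 8)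

lemma tau_pos (s : ℝ) : 0 < tau s := by unfold tau; positivity

lemma gap_pos {s : ℝ} (hs : 0 < s) : 0 < gap s := by
  unfold gap
  have h1 : (1 : ℝ) ≤ Real.sqrt 2 := by
    apply Real.le_sqrt_of_sq_le; norm_num
  have h2 : Real.sqrt 2 < 2 := by
    rw [Real.sqrt_lt' (by norm_num)]; norm_num
  have := Real.rpow_lt_rpow_of_neg (x := Real.sqrt 2) (y := 2) (z := -s) (by linarith) h2
    (by linarith)
  linarith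

lemma gg_pos {s : ℝ} (hs : 0 < s) : 0 < gg s := by
  unfold gg
  have := tau_pos s
  have := gap_pos hs
  apply lt_min <;> linarith

lemma two_rpow_neg_le_one {s : ℝ} (hs : 0 < s) : (2 : ℝ) ^ (-s) ≤ 1 := by
  apply Real.rpow_le_one_of_one_le_of_nonpos (by norm_num) (by linarith)

lemma alph_ge {s : ℝ} (hs : 0 < s) : 3 / 2 ≤ alph s := by
  unfold alph c0 tau
  have h := two_rpow_neg_le_one hs
  have h2 : (0 : ℝ) < (2 : ℝ) ^ (-s) := by positivity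
  linarith

/-- the system -/
structure Sys (E : Type*) [NormedAddCommGroup E] [InnerProductSpace ℝ E] [MeasurableSpace E]
    [BorelSpace E] where
  s : ℝ
  hs : 0 < s
  κ : ℝ
  hκ : kap s ≤ κ
  p : E
  hp : ‖p‖ = 1
  σ : E ≃ₗᵢ[ℝ] E
  hσσ : ∀ x, σ (σ x) = x
  hσp : ⟪p, σ p⟫ = 0
  A : Set E
  hσA : ∀ x ∈ A, σ x ∈ A
  Y : E → E
  Z : E → E
  δ : ℝ
  hδ : 0 < δ
  hδ1 : δ ≤ 1 / 8
  hδ2 : 3 * alph s < (2 * δ) ^ (-s)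
  hδ3 : c0 s + gap s / 2 < 2 * (1 + 2 * δ) ^ (-s) + (Real.sqrt 2 + 2 * δ) ^ (-s)
  hδ4 : tau s + gg s < (2 + 2 * δ) ^ (-s)
  hδ5 : κ * δ ^ 2 ≤ 2
  hE1 : ∀ x ∈ A, G s (x - Y x) + G s (x - Z x) + κ • x = 0
  hE2 : ∀ x ∈ A, - G s (x - Y x) + G s (Y x - Z x) + κ • (Y x - p) - Fb s p = 0
  hA : ∀ x ∈ A, ‖x‖ < δ
  hY : ∀ x ∈ A, ‖Y x - p‖ < δ
  hZ : ∀ x ∈ A, ‖Z x + p‖ < δ
  hub1 : ∀ x ∈ A, tau s - gg s < tau s + ⟪Fb s p, Y x - p⟫ - κ / 2 * ‖Y x - p‖ ^ 2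
  hub2 : ∀ x ∈ A, tau s + ⟪Fb s p, Y x - p⟫ - κ / 2 * ‖Y x - p‖ ^ 2 < tau s + gg s
  huc1 : ∀ x ∈ A, tau s - gg s < cc s x (Y x) (Z x) - (alph s - κ / 2 * ‖x‖ ^ 2)
      - (tau s + ⟪Fb s p, Y x - p⟫ - κ / 2 * ‖Y x - p‖ ^ 2)
  huc2 : ∀ x ∈ A, cc s x (Y x) (Z x) - (alph s - κ / 2 * ‖x‖ ^ 2)
      - (tau s + ⟪Fb s p, Y x - p⟫ - κ / 2 * ‖Y x - p‖ ^ 2) < tau s + gg s
  Yi : E → E
  Zi : E → E
  hYi : ∀ x ∈ A, Yi (Y x) = x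
  hZi : ∀ x ∈ A, Zi (Z x) = x
  hAm : MeasurableSet A
  hYm : Measurable Y
  hZm : Measurable Z
  hYim : Measurable Yi
  hZim : Measurable Zi
  hP1m : MeasurableSet (Y '' A)
  hP2m : MeasurableSet (Z '' A)

namespace Sys

variable {E : Type*} [NormedAddCommGroup E] [InnerProductSpace ℝ E] [MeasurableSpace E]
  [BorelSpace E] (S : Sys E)

/-- center potential -/
noncomputable def ua (x : E) : ℝ := alph S.s - S.κ / 2 * ‖x‖ ^ 2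
/-- `b`-patch potential -/
noncomputable def ub (y : E) : ℝ := tau S.s + ⟪Fb S.s S.p, y - S.p⟫ - S.κ / 2 * ‖y - S.p‖ ^ 2
/-- `c`-patch potential, parametrised on the sheet -/
noncomputable def uc (x : E) : ℝ := cc S.s x (S.Y x) (S.Z x) - S.ua x - S.ub (S.Y x)

lemma ua_sigma (x : E) : S.ua (S.σ x) = S.ua x := by
  simp [ua, LinearIsometryEquiv.norm_map]

lemma cc_swap12 (s : ℝ) (a b c : E) : cc s a b c = cc s b a c := by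
  unfold cc
  rw [norm_sub_rev a b]
  ring

lemma cc_swap23 (s : ℝ) (a b c : E) : cc s a b c = cc s a c b := by
  unfold cc
  rw [norm_sub_rev b c]
  ring

lemma cc_sigma (a b c : E) : cc S.s (S.σ a) (S.σ b) (S.σ c) = cc S.s a b c := by
  unfold cc
  simp only [← map_sub, LinearIsometryEquiv.norm_map]

lemma norm_sigma_p : ‖S.σ S.p‖ = 1 := by
  rw [LinearIsometryEquiv.norm_map, S.hp]

/-- perpendicular centers -/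
lemma norm_sub_perp : ‖S.p - S.σ S.p‖ = Real.sqrt 2 := by
  have h : ‖S.p - S.σ S.p‖ ^ 2 = 2 := by
    rw [@norm_sub_sq_real, S.hσp, S.hp, S.norm_sigma_p]; norm_num
  rw [← h, Real.sqrt_sq (norm_nonneg _)]

lemma norm_add_perp : ‖S.p + S.σ S.p‖ = Real.sqrt 2 := by
  have h : ‖S.p + S.σ S.p‖ ^ 2 = 2 := by
    rw [@norm_add_sq_real, S.hσp, S.hp, S.norm_sigma_p]; norm_num
  rw [← h, Real.sqrt_sq (norm_nonneg _)]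

variable {S}

/-- bound for the curvature constants -/
lemma K_bound {r : E} (hr : 1 / 2 ≤ ‖r‖) : S.s * ‖r‖ ^ (-S.s - 2) ≤ S.s * (2 : ℝ) ^ (S.s + 2) := by
  apply mul_le_mul_of_nonneg_left _ S.hs.le
  have h1 : ‖r‖ ^ (-S.s - 2) ≤ (1 / 2 : ℝ) ^ (-S.s - 2) :=
    Real.rpow_le_rpow_of_nonpos (by norm_num) hr (by linarith [S.hs])
  have h2 : (1 / 2 : ℝ) ^ (-S.s - 2) = (2 : ℝ) ^ (S.s + 2) := by
    rw [one_div, Real.inv_rpow (by norm_num), ← Real.rpow_neg (by norm_num)]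
    congr 1; ring
  rwa [h2] at h1

lemma dist_xY {x : E} (hx : x ∈ S.A) : 3 / 4 ≤ ‖x - S.Y x‖ := by
  have h1 := S.hA x hx
  have h2 := S.hY x hx
  have h3 := S.hδ1
  have e : S.p = x - (S.Y x - S.p) - (x - S.Y x) := by abel
  have h4 : ‖S.p‖ ≤ ‖x‖ + ‖S.Y x - S.p‖ + ‖x - S.Y x‖ := by
    conv_lhs => rw [e]
    refine (norm_sub_le _ _).trans ?_
    gcongr
    exact norm_sub_le _ _
  rw [S.hp] at h4
  linarith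

lemma dist_xZ {x : E} (hx : x ∈ S.A) : 3 / 4 ≤ ‖x - S.Z x‖ := by
  have h1 := S.hA x hx
  have h2 := S.hZ x hx
  have h3 := S.hδ1
  have e : S.p = (x - S.Z x) + (S.Z x + S.p) - x := by abel
  have h4 : ‖S.p‖ ≤ ‖x - S.Z x‖ + ‖S.Z x + S.p‖ + ‖x‖ := by
    conv_lhs => rw [e]
    refine (norm_sub_le _ _).trans ?_
    gcongr
    exact norm_add_le _ _
  rw [S.hp] at h4
  linarith

lemma dist_YZ {x : E} (hx : x ∈ S.A) : 1 ≤ ‖S.Y x - S.Z x‖ := by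
  have h1 := S.hY x hx
  have h2 := S.hZ x hx
  have h3 := S.hδ1
  have e : (2 : ℝ) • S.p = (S.Y x - S.Z x) - (S.Y x - S.p) + (S.Z x + S.p) := by
    rw [two_smul]; abel
  have h4 : ‖(2 : ℝ) • S.p‖ ≤ ‖S.Y x - S.Z x‖ + ‖S.Y x - S.p‖ + ‖S.Z x + S.p‖ := by
    conv_lhs => rw [e]
    refine (norm_add_le _ _).trans ?_
    gcongr
    exact norm_sub_le _ _
  rw [norm_smul, S.hp] at h4
  norm_num at h4
  linarith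

/-- **Sheet inequality**. -/
lemma sheet_ineq {xs x y : E} (hxs : xs ∈ S.A) (hxy : x ≠ y) (hxz : x ≠ S.Z xs)
    (hyz : y ≠ S.Z xs) :
    S.ua x + S.ub y + S.uc xs + S.s * (2 : ℝ) ^ (S.s + 2) / 2 * (‖x - xs‖ ^ 2 + ‖y - S.Y xs‖ ^ 2)
      ≤ cc S.s x y (S.Z xs) := by
  have hs := S.hs
  set ys := S.Y xs with hys
  set zs := S.Z xs with hzs
  have d1 : 3 / 4 ≤ ‖xs - ys‖ := dist_xY hxs
  have d2 : 3 / 4 ≤ ‖xs - zs‖ := dist_xZ hxs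
  have d3 : 1 ≤ ‖ys - zs‖ := dist_YZ hxs
  have r1 : xs - ys ≠ 0 := by
    intro h; rw [h, norm_zero] at d1; norm_num at d1
  have r2 : xs - zs ≠ 0 := by
    intro h; rw [h, norm_zero] at d2; norm_num at d2
  have r3 : ys - zs ≠ 0 := by
    intro h; rw [h, norm_zero] at d3; norm_num at d3
  have t1 := V_tangent hs r1 (sub_ne_zero.mpr hxy)
  have t2 := V_tangent hs r2 (sub_ne_zero.mpr hxz)
  have t3 := V_tangent hs r3 (sub_ne_zero.mpr hyz)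
  set ξ := x - xs with hξ
  set ζ := y - ys with hζ
  have e1 : x - y - (xs - ys) = ξ - ζ := by rw [hξ, hζ]; abel
  have e2 : x - zs - (xs - zs) = ξ := by rw [hξ]; abel
  have e3 : y - zs - (ys - zs) = ζ := by rw [hζ]; abel
  rw [e1] at t1
  rw [e2] at t2
  rw [e3] at t3
  -- the curvature constants
  have K1 := K_bound (S := S) (r := xs - ys) (by linarith)
  have K2 := K_bound (S := S) (r := xs - zs) (by linarith)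
  have K3 := K_bound (S := S) (r := ys - zs) (by linarith)
  set K := S.s * (2 : ℝ) ^ (S.s + 2) with hK
  set K₁ := S.s * ‖xs - ys‖ ^ (-S.s - 2) with hK₁
  set K₂ := S.s * ‖xs - zs‖ ^ (-S.s - 2) with hK₂
  set K₃ := S.s * ‖ys - zs‖ ^ (-S.s - 2) with hK₃
  have hK0 : 0 ≤ K := by rw [hK]; positivity
  have hκ : 4 * K ≤ S.κ := by
    have := S.hκ
    unfold kap at this
    have h3 : 0 ≤ S.s * (S.s + 3) := by positivity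
    have h5 : 4 * S.s * (2 : ℝ) ^ (S.s + 2) = 4 * K := by rw [hK]; ring
    linarith
  -- inner products
  have E1 := S.hE1 xs hxs
  have E2 := S.hE2 xs hxs
  have i1 : ⟪G S.s (xs - ys), ξ - ζ⟫ + ⟪G S.s (xs - zs), ξ⟫ + ⟪G S.s (ys - zs), ζ⟫
      = ⟪-(S.κ • xs), ξ⟫ + ⟪Fb S.s S.p - S.κ • (ys - S.p), ζ⟫ := by
    have a1 : G S.s (xs - ys) + G S.s (xs - zs) = -(S.κ • xs) :=
      eq_neg_of_add_eq_zero_left E1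
    have a2 : - G S.s (xs - ys) + G S.s (ys - zs) = Fb S.s S.p - S.κ • (ys - S.p) := by
      linear_combination (norm := module) E2
    rw [← a1, ← a2, inner_add_left, inner_add_left, inner_sub_right, inner_neg_left]
    ring
  have u1 : S.ua x = S.ua xs + ⟪-(S.κ • xs), ξ⟫ - S.κ / 2 * ‖ξ‖ ^ 2 := by
    have : x = xs + ξ := by rw [hξ]; abel
    simp only [ua]
    rw [this, @norm_add_sq_real, inner_neg_left, inner_smul_left]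
    simp only [conj_trivial]
    ring
  have u2 : S.ub y = S.ub ys + ⟪Fb S.s S.p - S.κ • (ys - S.p), ζ⟫ - S.κ / 2 * ‖ζ‖ ^ 2 := by
    have : y - S.p = (ys - S.p) + ζ := by rw [hζ]; abel
    simp only [ub]
    have e4 : ⟪Fb S.s S.p - S.κ • (ys - S.p), ζ⟫ = ⟪Fb S.s S.p, ζ⟫ - S.κ * ⟪ys - S.p, ζ⟫ := by
      rw [inner_sub_left, real_inner_smul_left]
    rw [e4, this, @norm_add_sq_real, inner_add_right]
    ring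
  have u3 : S.uc xs = cc S.s xs ys zs - S.ua xs - S.ub ys := rfl
  have hn : ‖ξ - ζ‖ ^ 2 ≤ 2 * ‖ξ‖ ^ 2 + 2 * ‖ζ‖ ^ 2 := by
    have := norm_sub_le ξ ζ
    have h0 : 0 ≤ ‖ξ - ζ‖ := norm_nonneg _
    have h1 : ‖ξ - ζ‖ ^ 2 ≤ (‖ξ‖ + ‖ζ‖) ^ 2 := by gcongr
    nlinarith [sq_nonneg (‖ξ‖ - ‖ζ‖)]
  have hb1 : K₁ / 2 * ‖ξ - ζ‖ ^ 2 ≤ K / 2 * (2 * ‖ξ‖ ^ 2 + 2 * ‖ζ‖ ^ 2) := by
    have h0 : 0 ≤ ‖ξ - ζ‖ ^ 2 := by positivity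
    have h1 : K₁ * ‖ξ - ζ‖ ^ 2 ≤ K * ‖ξ - ζ‖ ^ 2 := mul_le_mul_of_nonneg_right K1 h0
    have h2 : K * ‖ξ - ζ‖ ^ 2 ≤ K * (2 * ‖ξ‖ ^ 2 + 2 * ‖ζ‖ ^ 2) :=
      mul_le_mul_of_nonneg_left hn hK0
    have e1 : K₁ / 2 * ‖ξ - ζ‖ ^ 2 = (K₁ * ‖ξ - ζ‖ ^ 2) / 2 := by ring
    have e2 : K / 2 * (2 * ‖ξ‖ ^ 2 + 2 * ‖ζ‖ ^ 2) = (K * (2 * ‖ξ‖ ^ 2 + 2 * ‖ζ‖ ^ 2)) / 2 := by ring
    rw [e1, e2]
    linarith
  have hb2 : K₂ / 2 * ‖ξ‖ ^ 2 ≤ K / 2 * ‖ξ‖ ^ 2 := by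
    have h0 : 0 ≤ ‖ξ‖ ^ 2 := by positivity
    have h1 : K₂ * ‖ξ‖ ^ 2 ≤ K * ‖ξ‖ ^ 2 := mul_le_mul_of_nonneg_right K2 h0
    have e1 : K₂ / 2 * ‖ξ‖ ^ 2 = (K₂ * ‖ξ‖ ^ 2) / 2 := by ring
    have e2 : K / 2 * ‖ξ‖ ^ 2 = (K * ‖ξ‖ ^ 2) / 2 := by ring
    rw [e1, e2]
    linarith
  have hb3 : K₃ / 2 * ‖ζ‖ ^ 2 ≤ K / 2 * ‖ζ‖ ^ 2 := by
    have h0 : 0 ≤ ‖ζ‖ ^ 2 := by positivity
    have h1 : K₃ * ‖ζ‖ ^ 2 ≤ K * ‖ζ‖ ^ 2 := mul_le_mul_of_nonneg_right K3 h0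
    have e1 : K₃ / 2 * ‖ζ‖ ^ 2 = (K₃ * ‖ζ‖ ^ 2) / 2 := by ring
    have e2 : K / 2 * ‖ζ‖ ^ 2 = (K * ‖ζ‖ ^ 2) / 2 := by ring
    rw [e1, e2]
    linarith
  have hc : cc S.s x y zs = V S.s (x - y) + V S.s (x - zs) + V S.s (y - zs) := rfl
  have hc' : cc S.s xs ys zs = V S.s (xs - ys) + V S.s (xs - zs) + V S.s (ys - zs) := rfl
  rw [hc]
  rw [u1, u2, u3, hc']
  have hmain : S.κ / 2 * (‖ξ‖ ^ 2 + ‖ζ‖ ^ 2) ≥ 2 * K * (‖ξ‖ ^ 2 + ‖ζ‖ ^ 2) := by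
    have h0 : 0 ≤ ‖ξ‖ ^ 2 + ‖ζ‖ ^ 2 := by positivity
    have h1 : 4 * K * (‖ξ‖ ^ 2 + ‖ζ‖ ^ 2) ≤ S.κ * (‖ξ‖ ^ 2 + ‖ζ‖ ^ 2) :=
      mul_le_mul_of_nonneg_right hκ h0
    have e1 : S.κ / 2 * (‖ξ‖ ^ 2 + ‖ζ‖ ^ 2) = (S.κ * (‖ξ‖ ^ 2 + ‖ζ‖ ^ 2)) / 2 := by ring
    have e2 : 2 * K * (‖ξ‖ ^ 2 + ‖ζ‖ ^ 2) = (4 * K * (‖ξ‖ ^ 2 + ‖ζ‖ ^ 2)) / 2 := by ring
    rw [e1, e2]
    linarith
  have h0ξ : 0 ≤ ‖ξ‖ ^ 2 := by positivity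
  have h0ζ : 0 ≤ ‖ζ‖ ^ 2 := by positivity
  have e5 : K / 2 * (2 * ‖ξ‖ ^ 2 + 2 * ‖ζ‖ ^ 2) = K * (‖ξ‖ ^ 2 + ‖ζ‖ ^ 2) := by ring
  have e6 : K / 2 * (‖ξ‖ ^ 2 + ‖ζ‖ ^ 2) + (K / 2 * ‖ξ‖ ^ 2 + K / 2 * ‖ζ‖ ^ 2)
      = K * (‖ξ‖ ^ 2 + ‖ζ‖ ^ 2) := by ring
  have e7 : S.κ / 2 * ‖ξ‖ ^ 2 + S.κ / 2 * ‖ζ‖ ^ 2 = S.κ / 2 * (‖ξ‖ ^ 2 + ‖ζ‖ ^ 2) := by ring
  have e8 : 2 * K * (‖ξ‖ ^ 2 + ‖ζ‖ ^ 2) = K * (‖ξ‖ ^ 2 + ‖ζ‖ ^ 2) + K * (‖ξ‖ ^ 2 + ‖ζ‖ ^ 2) := by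
    ring
  linarith

end Sys

end Crest.Agent.Lib.NM
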