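import Mathlib

/-! Inverse power potential, gradient and the global tangent inequality. -/

set_option autoImplicit false
open scoped RealInnerProductSpace

namespace Crest.Agent.Lib.NM

variable {E : Type*} [NormedAddCommGroup E] [InnerProductSpace ℝ E]

/-- the pair potential -/
noncomputable def V (s : ℝ) (r : E) : ℝ := ‖r‖ ^ (-s)

/-- gradient of `V` -/
noncomputable def G (s : ℝ) (r : E) : E := (-s * ‖r‖ ^ (-s - 2)) • r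

lemma V_neg (s : ℝ) (r : E) : V s (-r) = V s r := by simp [V]

lemma G_neg (s : ℝ) (r : E) : G s (-r) = - G s r := by simp [G]

lemma V_sub_comm (s : ℝ) (a b : E) : V s (a - b) = V s (b - a) := by
  rw [← V_neg, neg_sub]

lemma G_sub_comm (s : ℝ) (a b : E) : G s (a - b) = - G s (b - a) := by
  rw [← G_neg, neg_sub]

/-- scalar tangent inequality for `t ↦ t^(-a)` -/
lemma rpow_neg_tangent {a t₀ t₁ : ℝ} (ha : 0 < a) (h₀ : 0 < t₀) (h₁ : 0 < t₁) :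
    t₀ ^ (-a) + (-a * t₀ ^ (-a - 1)) * (t₁ - t₀) ≤ t₁ ^ (-a) := by
  have hu : 0 < t₁ / t₀ := div_pos h₁ h₀
  have key : 1 - a * (t₁ / t₀ - 1) ≤ (t₁ / t₀) ^ (-a) := by
    have h1 : Real.log (t₁ / t₀) ≤ t₁ / t₀ - 1 := Real.log_le_sub_one_of_pos hu
    have h2 : (t₁ / t₀) ^ (-a) = Real.exp (-a * Real.log (t₁ / t₀)) := by
      rw [Real.rpow_def_of_pos hu]; ring_nf
    rw [h2]
    have h3 := Real.add_one_le_exp (-a * Real.log (t₁ / t₀))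
    nlinarith
  have h4 : (t₁ / t₀) ^ (-a) = t₁ ^ (-a) / t₀ ^ (-a) := Real.div_rpow h₁.le h₀.le _
  have hpos : 0 < t₀ ^ (-a) := Real.rpow_pos_of_pos h₀ _
  rw [h4, le_div_iff₀ hpos] at key
  have h5 : t₀ ^ (-a - 1) = t₀ ^ (-a) / t₀ := by
    rw [Real.rpow_sub_one h₀.ne']
  rw [h5]
  have h6 : (1 - a * (t₁ / t₀ - 1)) * t₀ ^ (-a) =
      t₀ ^ (-a) + -a * (t₀ ^ (-a) / t₀) * (t₁ - t₀) := by
    field_simp
    ring
  linarith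

/-- norm power as power of the square -/
lemma norm_rpow_eq_sq (r : E) (e : ℝ) : ‖r‖ ^ e = (‖r‖ ^ 2) ^ (e / 2) := by
  rw [← Real.rpow_natCast, ← Real.rpow_mul (norm_nonneg r)]
  congr 1
  push_cast
  ring

/-- **Global tangent inequality** for the inverse power potential. -/
lemma V_tangent {s : ℝ} (hs : 0 < s) {r₀ r₁ : E} (h₀ : r₀ ≠ 0) (h₁ : r₁ ≠ 0) :
    V s r₀ + ⟪G s r₀, r₁ - r₀⟫ - (s * ‖r₀‖ ^ (-s - 2) / 2) * ‖r₁ - r₀‖ ^ 2 ≤ V s r₁ := by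
  have hn₀ : 0 < ‖r₀‖ := norm_pos_iff.mpr h₀
  have hn₁ : 0 < ‖r₁‖ := norm_pos_iff.mpr h₁
  have ht₀ : 0 < ‖r₀‖ ^ 2 := by positivity
  have ht₁ : 0 < ‖r₁‖ ^ 2 := by positivity
  have key := rpow_neg_tangent (a := s / 2) (by positivity) ht₀ ht₁
  have e1 : ∀ r : E, V s r = (‖r‖ ^ 2) ^ (-(s / 2)) := by
    intro r
    unfold V
    rw [norm_rpow_eq_sq]
    congr 1; ring
  rw [e1, e1]
  have e2 : (‖r₀‖ ^ 2) ^ (-(s / 2) - 1) = ‖r₀‖ ^ (-s - 2) := by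
    rw [norm_rpow_eq_sq r₀ (-s - 2)]
    congr 1; ring
  rw [e2] at key
  have e3 : ‖r₁‖ ^ 2 - ‖r₀‖ ^ 2 = 2 * ⟪r₀, r₁ - r₀⟫ + ‖r₁ - r₀‖ ^ 2 := by
    have : r₁ = r₀ + (r₁ - r₀) := by abel
    conv_lhs => rw [this]
    rw [@norm_add_sq_real]
    ring
  rw [e3] at key
  have e4 : ⟪G s r₀, r₁ - r₀⟫ = (-s * ‖r₀‖ ^ (-s - 2)) * ⟪r₀, r₁ - r₀⟫ := by
    unfold G
    rw [real_inner_smul_left]
  rw [e4]
  have : (‖r₀‖ ^ 2) ^ (-(s / 2)) + (-s * ‖r₀‖ ^ (-s - 2)) * ⟪r₀, r₁ - r₀⟫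
      - (s * ‖r₀‖ ^ (-s - 2) / 2) * ‖r₁ - r₀‖ ^ 2
      = (‖r₀‖ ^ 2) ^ (-(s / 2)) + -(s / 2) * ‖r₀‖ ^ (-s - 2) *
        (2 * ⟪r₀, r₁ - r₀⟫ + ‖r₁ - r₀‖ ^ 2) := by ring
  rw [this]
  exact key

end Crest.Agent.Lib.NM
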